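import Vale.Agent.P088.R2.H961.Top

/-!
# P088: a priori estimates for `Q = e^{τu} D e^{-τu}` on test functions, one factor
-/

open MeasureTheory Set Filter
open scoped ContDiff Matrix Topology

noncomputable section

namespace Vale.Agent.P088.R2.H961

open Vale.Agent.P088.LR Vale.Agent.P088.HY

variable {n K : ℕ} {ε : ℝ} {s : MF n}

/-- The a priori estimate in the first factor, all terms. -/
theorem apri_x (hn : 3 ≤ n) (hs : TS n K ε s) (hK : 1 ≤ K) (hε : ε ≤ 1 / (96 * (n : ℝ) ^ 4))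
    {τ : ℝ} (hτ : 4 * (c1 n ^ 2 + c2 n) + 1 ≤ τ) {f : VV n → ℝ} (hf : TU f) :
    τ ^ 3 * In (fun z => uu z * (uu z ^ 2 - 1) * f z ^ 2) +
      τ * In (fun z => uu z * ∑ k, Ax k f z ^ 2) + τ ^ 2 * In (fun z => uu z ^ 2 * f z ^ 2) ≤
      In (fun z => Px s (-τ) f z ^ 2) := by
  have hc2 : 0 ≤ c2 n := by unfold c2; positivity
  have hτ0 : 0 < τ := lt_of_lt_of_le (by positivity) hτ
  have hlb := lb hn hs hK hε hτ hf
  have h1 := lb1 hs (τ := τ) hf
  have sf := hf.su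
  have t2 : TU fun z => f z ^ 2 := hf.pow two_ne_zero
  have tA : TU fun z => uu z * ∑ k, Ax k f z ^ 2 :=
    (TU.sum _ fun k _ => (hf.ax k).pow two_ne_zero).mul_left su_uu
  have tB : TU fun z => uu z * (uu z ^ 2 - 1) * f z ^ 2 :=
    t2.mul_left (su_uu.mul ((su_uu.pow 2).sub contDiffOn_const))
  have tM : TU fun z => uu z ^ 2 * f z ^ 2 := t2.mul_left (su_uu.pow 2)
  have sv : SU fun z => vp s z.1 + τ ^ 2 * Fxs s z :=
    (su_vp hs).add (contDiffOn_const.mul (su_Fxs hs))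
  have tg : TU (Gm s uu f) := tu_Gm_right hs su_uu hf
  have tff : TU (Gm s f f) := tu_Gm_right hs sf hf
  have tH : TU (Hf s f) :=
    ((tu_Gm_right hs sf tg).mul_left contDiffOn_const).sub (tu_Gm_right hs su_uu tff)
  have tk : TU fun z => f z * Gm s f (L0 s uu) z := hf.mul_right (su_Gm hs sf (su_L0 hs su_uu))
  have tv : TU fun z => f z ^ 2 * Gm s uu (fun z => vp s z.1 + τ ^ 2 * Fxs s z) z :=
    (hf.pow two_ne_zero).mul_right (su_Gm hs su_uu sv)
  have uA : TU fun z => 3 / 2 * (uu z * ∑ k, Ax k f z ^ 2) := tA.mul_left contDiffOn_const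
  have uB : TU fun z => 7 / 4 * τ ^ 2 * (uu z * (uu z ^ 2 - 1) * f z ^ 2) :=
    tB.mul_left contDiffOn_const
  have uM : TU fun z => (c1 n ^ 2 + c2 n) * (uu z ^ 2 * f z ^ 2) := tM.mul_left contDiffOn_const
  have key := In_mono ((uA.add uB).sub uM) ((tH.add tk).add tv)
    fun z hz => lb_pt hn hs hK hε sf τ hz
  rw [In_sub (uA.add uB) uM, In_add uA uB, In_cmul, In_cmul, In_cmul] at key
  have hM0 : 0 ≤ In (fun z => uu z ^ 2 * f z ^ 2) := In_nonneg fun z _ => by positivity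
  have hA0 : 0 ≤ In (fun z => uu z * ∑ k, Ax k f z ^ 2) := In_nonneg fun z hz =>
    mul_nonneg (uu_pos hz).le (Finset.sum_nonneg fun _ _ => sq_nonneg _)
  have hB0 : 0 ≤ In (fun z => uu z * (uu z ^ 2 - 1) * f z ^ 2) := In_nonneg fun z hz => by
    have hu := uu_ge hz
    have h6 : 0 ≤ uu z ^ 2 - 1 := by nlinarith
    have := uu_pos hz
    positivity
  generalize In (fun z => uu z * ∑ k, Ax k f z ^ 2) = IA at *
  generalize In (fun z => uu z * (uu z ^ 2 - 1) * f z ^ 2) = IB at *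
  generalize In (fun z => uu z ^ 2 * f z ^ 2) = IM at *
  generalize In (fun z => Hf s f z + f z * Gm s f (L0 s uu) z +
    f z ^ 2 * Gm s uu (fun z => vp s z.1 + τ ^ 2 * Fxs s z) z) = IK at *
  generalize In (fun z => Px s (-τ) f z ^ 2) = q at *
  have h2 := mul_le_mul_of_nonneg_left key (by positivity : 0 ≤ 4 * τ)
  have h3 : (c1 n ^ 2 + c2 n) * (τ * IM) ≤ τ / 4 * (τ * IM) := by
    apply mul_le_mul_of_nonneg_right _ (mul_nonneg hτ0.le hM0)
    linarith
  have p1 : 0 ≤ τ ^ 3 * IB := by positivity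
  have p2 : 0 ≤ τ * IA := by positivity
  have p3 : 0 ≤ τ ^ 2 * IM := by positivity
  nlinarith

/-- The a priori estimate in the second factor. -/
theorem apri_y (hn : 3 ≤ n) (hs : TS n K ε s) (hK : 1 ≤ K) (hε : ε ≤ 1 / (96 * (n : ℝ) ^ 4))
    {τ : ℝ} (hτ : 4 * (c1 n ^ 2 + c2 n) + 1 ≤ τ) {f : VV n → ℝ} (hf : TU f) :
    τ ^ 3 * In (fun z => uu z * (uu z ^ 2 - 1) * f z ^ 2) +
      τ * In (fun z => uu z * ∑ k, By k f z ^ 2) + τ ^ 2 * In (fun z => uu z ^ 2 * f z ^ 2) ≤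
      In (fun z => Py s (-τ) f z ^ 2) := by
  have h := apri_x hn hs hK hε hτ hf.sw
  have hu : ∀ z : VV n, uu z.swap = uu z := fun z => congrFun (sw_uu (n := n)) z
  have e1 : (fun z => uu z * (uu z ^ 2 - 1) * sw f z ^ 2) =
      sw (fun z => uu z * (uu z ^ 2 - 1) * f z ^ 2) := by
    funext z
    change _ = uu z.swap * (uu z.swap ^ 2 - 1) * f z.swap ^ 2
    rw [hu]; rfl
  have e2 : (fun z => uu z * ∑ k, Ax k (sw f) z ^ 2) = sw (fun z => uu z * ∑ k, By k f z ^ 2) := by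
    funext z
    change _ = uu z.swap * ∑ k, By k f z.swap ^ 2
    rw [hu]
    congr 1
    refine Finset.sum_congr rfl fun k _ => ?_
    rw [By_sw, Prod.swap_swap]
  have e3 : (fun z => uu z ^ 2 * sw f z ^ 2) = sw (fun z => uu z ^ 2 * f z ^ 2) := by
    funext z
    change _ = uu z.swap ^ 2 * f z.swap ^ 2
    rw [hu]; rfl
  have e4 : (fun z => Px s (-τ) (sw f) z ^ 2) = sw (fun z => Py s (-τ) f z ^ 2) := by
    rw [← Py_sw']; rfl
  rw [e1, e2, e3, e4, In_sw, In_sw, In_sw, In_sw] at h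
  exact h

end Vale.Agent.P088.R2.H961
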