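import Vale.Agent.P088.R2.H961.Hes

/-!
# P088, row TOP: bounds for the coefficients
-/

open MeasureTheory Set Filter
open scoped ContDiff Matrix Topology

noncomputable section

namespace Vale.Agent.P088.R2.H961

open Vale.Agent.P088.LR Vale.Agent.P088.HY

variable {n K : ℕ} {ε : ℝ} {s : MF n}

theorem bm {a b A B : ℝ} (h1 : |a| ≤ A) (h2 : |b| ≤ B) : |a * b| ≤ A * B := by
  rw [abs_mul]
  exact mul_le_mul h1 h2 (abs_nonneg _) ((abs_nonneg _).trans h1)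

theorem ba {a b A B : ℝ} (h1 : |a| ≤ A) (h2 : |b| ≤ B) : |a + b| ≤ A + B :=
  (abs_add_le a b).trans (add_le_add h1 h2)

theorem bs {a b A B : ℝ} (h1 : |a| ≤ A) (h2 : |b| ≤ B) : |a - b| ≤ A + B :=
  (abs_sub a b).trans (add_le_add h1 h2)

theorem bi {p : Prop} [Decidable p] {a A : ℝ} (h : |a| ≤ A) : |if p then a else 0| ≤ A := by
  split_ifs
  · exact h
  · rw [abs_zero]; exact (abs_nonneg _).trans h

theorem abs_s (hs : TS n K ε s) (hε1 : ε ≤ 1) (x : V n) (i j : Fin n) : |s x i j| ≤ 2 := by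
  have h1 := ts_s hs x i j
  have h2 : |(if i = j then (1 : ℝ) else 0)| ≤ 1 := bi (by simp)
  have h3 := ba h1 h2
  rw [sub_add_cancel] at h3
  linarith

theorem abs_Gm (hs : TS n K ε s) (hε1 : ε ≤ 1) {f h : VV n → ℝ} {z : VV n} {F H : ℝ}
    (hf : ∀ i, |Ax i f z| ≤ F) (hh : ∀ i, |Ax i h z| ≤ H) : |Gm s f h z| ≤ 2 * n ^ 2 * (F * H) := by
  have : |Gm s f h z| ≤ n * (n * (2 * F * H)) := by
    apply abs_sum_le; intro i
    apply abs_sum_le; intro j
    exact bm (bm (abs_s hs hε1 _ _ _) (hf i)) (hh j)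
  refine this.trans (le_of_eq ?_)
  ring

theorem abs_Ax_le (f : VV n → ℝ) (z : VV n) (i : Fin n) : |Ax i f z| ≤ √(∑ k, Ax k f z ^ 2) := by
  apply Real.abs_le_sqrt
  exact Finset.single_le_sum (f := fun k => Ax k f z ^ 2) (fun _ _ => sq_nonneg _) (Finset.mem_univ i)

/-- Both bounds for `Γ(f, f)`. -/
theorem Gm_self (hs : TS n K ε s) (hn : 1 ≤ n) (f : VV n → ℝ) (z : VV n) :
    |Gm s f f z - ∑ k, Ax k f z ^ 2| ≤ n ^ 2 * (ε * ∑ k, Ax k f z ^ 2) := by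
  rw [Gm_lo s]
  have hε := ts_nonneg hs ⟨0, hn⟩ ⟨0, hn⟩
  have e : ∑ k, Ax k f z ^ 2 = ∑ k, Ax k f z * Ax k f z :=
    Finset.sum_congr rfl fun j _ => by ring
  rw [e, ← Finset.sum_sub_distrib, ← e]
  refine (abs_sum_le fun j => lo_mul (p := fun i => Ax i f z) hε
    (fun i j => ts_s hs z.1 i j) j j).trans (le_of_eq ?_)
  ring

theorem abs_Axal {z : VV n} (hz : z ∈ Un n) (i j : Fin n) : |Ax j (al i) z| ≤ (n + 2) * uu z := by
  have hu := uu_pos hz
  rw [Ax_al j i hz]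
  have h1 : |xa z| ≤ n * uu z := by
    apply abs_sum_le; intro k
    have := bm (abs_x hz k) (abs_al hz k)
    rwa [one_mul] at this
  have h2 : |uu z - xa z| ≤ uu z + n * uu z := bs (by rw [abs_of_pos hu]) h1
  have h3 := ba (bi (p := j = i) h2) (bm (abs_x hz i) (abs_al hz j))
  refine h3.trans (le_of_eq ?_)
  ring

theorem su_xa : SU (xa : VV n → ℝ) := SU.sum _ fun k _ => (su_x k).mul (su_al k)

theorem abs_Axx {z : VV n} (hz : z ∈ Un n) (k i : Fin n) : |Ax k (fun z => z.1 i) z| ≤ 1 := by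
  rw [Ax_x]
  apply bi
  rw [abs_of_pos (rx_pos hz)]
  linarith [rr_le z.1]

theorem abs_AxAxal {z : VV n} (hz : z ∈ Un n) (k i j : Fin n) :
    |Ax k (Ax i (al j)) z| ≤ 10 * (n + 1) ^ 2 * uu z := by
  have hu := uu_pos hz
  have e : Ax k (Ax i (al j)) z =
      Ax k (fun z => (if i = j then 1 else 0) * (uu z - xa z) + z.1 j * al i z) z :=
    Ax_congr (fun z hz => by rw [Ax_al i j hz]; split_ifs <;> ring) k hz
  have s1 : SU fun z : VV n => uu z - xa z := su_uu.sub su_xa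
  rw [e, Ax_add (contDiffOn_const.mul s1) ((su_x j).mul (su_al i)) k hz, Ax_cmul _ s1 k hz,
    Ax_sub su_uu su_xa k hz, Ax_mul (su_x j) (su_al i) k hz]
  have h0 : |(if i = j then (1 : ℝ) else 0)| ≤ 1 := bi (by simp)
  have h1 : |Ax k xa z| ≤ n * (1 * uu z + 1 * ((n + 2) * uu z)) := by
    have e : Ax k xa z = Ax k (fun z => ∑ l, z.1 l * al l z) z := rfl
    rw [e, Ax_sum _ (fun l _ => (su_x l).mul (su_al l)) k hz]
    apply abs_sum_le; intro l
    rw [Ax_mul (su_x l) (su_al l) k hz]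
    exact ba (bm (abs_Axx hz k l) (abs_al hz l)) (bm (abs_x hz l) (abs_Axal hz l k))
  have h2 : |Ax k uu z| ≤ uu z := abs_al hz k
  have h3 := ba (bm h0 (bs h2 h1)) (ba (bm (abs_Axx hz k j) (abs_al hz i))
    (bm (abs_x hz j) (abs_Axal hz i k)))
  refine h3.trans ?_
  have hn : (0 : ℝ) ≤ n := Nat.cast_nonneg n
  nlinarith [mul_nonneg hn hu.le, mul_nonneg (mul_nonneg hn hn) hu.le]

theorem abs_L0u (hs : TS n K ε s) (hε1 : ε ≤ 1) {z : VV n} (hz : z ∈ Un n) :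
    |L0 s uu z| ≤ 10 * (n + 1) ^ 3 * uu z := by
  have hu := uu_pos hz
  have hn : (0 : ℝ) ≤ n := Nat.cast_nonneg n
  have hn1 : |((n : ℝ) - 1)| ≤ n + 1 := by rw [abs_le]; constructor <;> linarith
  have : |L0 s uu z| ≤ n * (n * (2 * ((n + 2) * uu z + (n + 1) * 1 * uu z))) := by
    apply abs_sum_le; intro i
    apply abs_sum_le; intro j
    exact bm (abs_s hs hε1 _ _ _) (ba (abs_Axal hz j i) (bm (bm hn1 (abs_x hz i)) (abs_al hz j)))
  refine this.trans ?_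
  nlinarith [mul_nonneg hn hu.le, mul_nonneg (mul_nonneg hn hn) hu.le,
    mul_nonneg (mul_nonneg (mul_nonneg hn hn) hn) hu.le]

theorem abs_AxL0u (hs : TS n K ε s) (hK : 1 ≤ K) (hε1 : ε ≤ 1) {z : VV n} (hz : z ∈ Un n)
    (k : Fin n) : |Ax k (L0 s uu) z| ≤ 100 * (n + 1) ^ 4 * uu z := by
  have hu := uu_pos hz
  have hn : (0 : ℝ) ≤ n := Nat.cast_nonneg n
  have hn1 : |((n : ℝ) - 1)| ≤ n + 1 := by rw [abs_le]; constructor <;> linarith
  have sX : ∀ i j, SU fun z : VV n => Ax i (al j) z + (n - 1) * z.1 i * al j z := fun i j =>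
    ((su_al j).ax i).add ((contDiffOn_const.mul (su_x i)).mul (su_al j))
  have sT : ∀ i j, SU fun z : VV n => s z.1 i j * (Ax i (al j) z + (n - 1) * z.1 i * al j z) :=
    fun i j => (su_s hs.sm i j).mul (sX i j)
  have e : Ax k (L0 s uu) z = Ax k (fun z => ∑ i, ∑ j, s z.1 i j *
      (Ax i (al j) z + (n - 1) * z.1 i * al j z)) z := rfl
  have h1 : |Ax k (L0 s uu) z| ≤ n * (n * (1 * ((n + 2) * uu z + (n + 1) * 1 * uu z) +
      2 * (10 * (n + 1) ^ 2 * uu z + ((n + 1) * 1 * uu z + (n + 1) * 1 * ((n + 2) * uu z))))) := by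
    rw [e, Ax_sum _ (fun i _ => SU.sum _ fun j _ => sT i j) k hz]
    apply abs_sum_le; intro i
    rw [Ax_sum _ (fun j _ => sT i j) k hz]
    apply abs_sum_le; intro j
    rw [Ax_mul (su_s hs.sm i j) (sX i j) k hz,
      Ax_add ((su_al j).ax i) ((contDiffOn_const.mul (su_x i)).mul (su_al j)) k hz,
      Ax_mul (contDiffOn_const.mul (su_x i)) (su_al j) k hz, Ax_cmul _ (su_x i) k hz]
    exact ba (bm ((ts_ds hs hK k i j hz).trans hε1)
      (ba (abs_Axal hz j i) (bm (bm hn1 (abs_x hz i)) (abs_al hz j))))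
      (bm (abs_s hs hε1 _ _ _) (ba (abs_AxAxal hz k i j)
        (ba (bm (bm hn1 (abs_Axx hz k i)) (abs_al hz j))
          (bm (bm hn1 (abs_x hz i)) (abs_Axal hz j k)))))
  refine h1.trans ?_
  nlinarith [mul_nonneg hn hu.le, mul_nonneg (mul_nonneg hn hn) hu.le,
    mul_nonneg (mul_nonneg (mul_nonneg hn hn) hn) hu.le,
    mul_nonneg (mul_nonneg (mul_nonneg (mul_nonneg hn hn) hn) hn) hu.le]

theorem abs_ga (n : ℕ) : |ga n| ≤ n + 1 := by
  have hn : (0 : ℝ) ≤ n := Nat.cast_nonneg n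
  unfold ga
  rw [abs_le]; constructor <;> linarith

theorem abs_vp (hs : TS n K ε s) (hε1 : ε ≤ 1) {z : VV n} (hz : z ∈ Un n) :
    |vp s z.1| ≤ 10 * (n + 2) ^ 4 := by
  have hn : (0 : ℝ) ≤ n := Nat.cast_nonneg n
  have hr : |rr z.1| ≤ 1 := by
    rw [abs_of_pos (rx_pos hz)]; linarith [rr_le z.1]
  have h1 : |vp s z.1| ≤ (n + 1) * 1 * (n * 2) + (n + 1) * ((n + 1) + 1) * (n * (n * (2 * 1 * 1))) := by
    unfold vp
    refine ba (bm (bm (abs_ga n) hr) (abs_sum_le fun i => abs_s hs hε1 _ _ _))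
      (bm (bm (abs_ga n) (ba (abs_ga n) (by simp))) ?_)
    apply abs_sum_le; intro i
    apply abs_sum_le; intro j
    exact bm (bm (abs_s hs hε1 _ _ _) (abs_x hz i)) (abs_x hz j)
  refine h1.trans ?_
  nlinarith [mul_nonneg hn hn, mul_nonneg (mul_nonneg hn hn) hn,
    mul_nonneg (mul_nonneg (mul_nonneg hn hn) hn) hn]

theorem abs_Axvp (hs : TS n K ε s) (hK : 1 ≤ K) (hε1 : ε ≤ 1) {z : VV n} (hz : z ∈ Un n)
    (k : Fin n) : |Ax k (fun z => vp s z.1) z| ≤ 10 * (n + 2) ^ 4 := by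
  have hn : (0 : ℝ) ≤ n := Nat.cast_nonneg n
  have hr : |rr z.1| ≤ 1 := by
    rw [abs_of_pos (rx_pos hz)]; linarith [rr_le z.1]
  have hr' : |Ax k (fun z => rr z.1) z| ≤ 1 := by
    rw [Ax_rx k hz, abs_neg]
    exact (bm (abs_x hz k) hr).trans (by norm_num)
  have s1 : SU fun z : VV n => ∑ i, s z.1 i i := SU.sum _ fun i _ => su_s hs.sm i i
  have s2 : ∀ i j, SU fun z : VV n => s z.1 i j * z.1 i * z.1 j := fun i j =>
    ((su_s hs.sm i j).mul (su_x i)).mul (su_x j)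
  have s3 : SU fun z : VV n => ∑ i, ∑ j, s z.1 i j * z.1 i * z.1 j :=
    SU.sum _ fun i _ => SU.sum _ fun j _ => s2 i j
  have s4 : SU fun z : VV n => ga n * rr z.1 := contDiffOn_const.mul su_rx
  have h1 : |Ax k (fun z => vp s z.1) z| ≤
      ((n + 1) * 1 * (n * 2) + (n + 1) * 1 * (n * 1)) +
        (n + 1) * ((n + 1) + 1) * (n * (n * ((1 * 1 + 2 * 1) * 1 + 2 * 1 * 1))) := by
    have e : Ax k (fun z => vp s z.1) z = Ax k (fun z => ga n * rr z.1 * ∑ i, s z.1 i i +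
      (ga n * (ga n + 1)) * ∑ i, ∑ j, s z.1 i j * z.1 i * z.1 j) z := rfl
    rw [e, Ax_add (s4.mul s1) (contDiffOn_const.mul s3) k hz, Ax_mul s4 s1 k hz,
      Ax_cmul _ su_rx k hz, Ax_cmul _ s3 k hz, Ax_sum _ (fun i _ => su_s hs.sm i i) k hz,
      Ax_sum _ (fun i _ => SU.sum _ fun j _ => s2 i j) k hz]
    refine ba (ba (bm (bm (abs_ga n) hr') (abs_sum_le fun i => abs_s hs hε1 _ _ _))
      (bm (bm (abs_ga n) hr) (abs_sum_le fun i => (ts_ds hs hK k i i hz).trans hε1)))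
      (bm (bm (abs_ga n) (ba (abs_ga n) (by simp))) ?_)
    apply abs_sum_le; intro i
    rw [Ax_sum _ (fun j _ => s2 i j) k hz]
    apply abs_sum_le; intro j
    rw [Ax_mul ((su_s hs.sm i j).mul (su_x i)) (su_x j) k hz,
      Ax_mul (su_s hs.sm i j) (su_x i) k hz]
    exact ba (bm (ba (bm ((ts_ds hs hK k i j hz).trans hε1) (abs_x hz i))
      (bm (abs_s hs hε1 _ _ _) (abs_Axx hz k i))) (abs_x hz j))
      (bm (bm (abs_s hs hε1 _ _ _) (abs_x hz i)) (abs_Axx hz k j))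
  refine h1.trans ?_
  nlinarith [mul_nonneg hn hn, mul_nonneg (mul_nonneg hn hn) hn,
    mul_nonneg (mul_nonneg (mul_nonneg hn hn) hn) hn]

/-! ## The reciprocal of `u` -/

/-- `1 / u`. -/
def wu (z : VV n) : ℝ := (uu z)⁻¹

theorem su_wu : SU (wu : VV n → ℝ) := su_uu.inv fun _ hz => (uu_pos hz).ne'

theorem wu_pos {z : VV n} (hz : z ∈ Un n) : 0 < wu z := inv_pos.2 (uu_pos hz)

theorem wu_le {z : VV n} (hz : z ∈ Un n) : wu z ≤ 1 := inv_le_one_of_one_le₀ (uu_ge hz)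

theorem wu_mul {z : VV n} (hz : z ∈ Un n) : wu z * uu z = 1 := inv_mul_cancel₀ (uu_pos hz).ne'

theorem Ax_wu (i : Fin n) {z : VV n} (hz : z ∈ Un n) : Ax i wu z = -(wu z ^ 2 * al i z) := by
  have e : Ax i (fun z => wu z * uu z) z = 0 := by
    rw [Ax_congr (g := fun _ => (1 : ℝ)) (fun z hz => wu_mul hz) i hz, Ax_const]
  rw [Ax_mul su_wu su_uu i hz] at e
  have e1 : al i z = Ax i uu z := rfl
  rw [← e1] at e
  have h := wu_mul hz
  have h2 : Ax i wu z = Ax i wu z * uu z * wu z := by rw [mul_assoc, mul_comm (uu z), h, mul_one]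
  rw [h2]
  linear_combination wu z * e

end Vale.Agent.P088.R2.H961
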