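import Vale.Agent.P088.R2.H558.Spec

/-!
# P088, row TOP: calculus in the frames on the hyperbolic ball
-/

open MeasureTheory Set Filter
open scoped ContDiff Matrix Topology

noncomputable section

namespace Vale.Agent.P088.R2.H961

open Vale.Agent.P088.LR Vale.Agent.P088.HY

variable {n : ℕ}

theorem cont_sq : ContDiff ℝ ∞ (HY.sq : V n → ℝ) := by
  unfold HY.sq; fun_prop

theorem isOpen_Bn : IsOpen (Bn n) := isOpen_lt cont_sq.continuous continuous_const

theorem isOpen_Un : IsOpen (Un n) := isOpen_Bn.prod isOpen_Bn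

theorem rr_pos {x : V n} (h : x ∈ Bn n) : 0 < rr x := by
  have : HY.sq x < 1 := h
  unfold rr; linarith

theorem sq_nonneg' (x : V n) : 0 ≤ HY.sq x := Finset.sum_nonneg fun _ _ => sq_nonneg _

theorem rr_le (x : V n) : rr x ≤ 1 / 2 := by
  have := sq_nonneg' x
  unfold rr; linarith

/-- Smooth on pairs of points of the ball. -/
abbrev SU (f : VV n → ℝ) : Prop := ContDiffOn ℝ ∞ f (Un n)

theorem mem_nhds_Un {z : VV n} (hz : z ∈ Un n) : Un n ∈ 𝓝 z := isOpen_Un.mem_nhds hz

theorem SU.at {f : VV n → ℝ} (hf : SU f) {z : VV n} (hz : z ∈ Un n) : ContDiffAt ℝ ∞ f z :=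
  (hf z hz).contDiffAt (mem_nhds_Un hz)

theorem SU.diff {f : VV n → ℝ} (hf : SU f) {z : VV n} (hz : z ∈ Un n) : DifferentiableAt ℝ f z :=
  (hf.at hz).differentiableAt (by simp)

theorem SU.fd {f : VV n → ℝ} (hf : SU f) (v : VV n) : SU fun z => fderiv ℝ f z v := by
  have h : ContDiffOn ℝ ∞ (fderiv ℝ f) (Un n) :=
    hf.fderiv_of_isOpen isOpen_Un (by norm_num)
  exact h.clm_apply contDiffOn_const

theorem SU.dx {f : VV n → ℝ} (hf : SU f) (i : Fin n) : SU (dx i f) := hf.fd _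

theorem SU.dy {f : VV n → ℝ} (hf : SU f) (i : Fin n) : SU (dy i f) := hf.fd _

theorem su_rx : SU fun z : VV n => rr z.1 := by
  unfold rr; exact ((contDiff_const.sub (cont_sq.comp contDiff_fst)).div_const _).contDiffOn

theorem su_ry : SU fun z : VV n => rr z.2 := by
  unfold rr; exact ((contDiff_const.sub (cont_sq.comp contDiff_snd)).div_const _).contDiffOn

theorem SU.ax {f : VV n → ℝ} (hf : SU f) (i : Fin n) : SU (Ax i f) := su_rx.mul (hf.dx i)

theorem SU.by {f : VV n → ℝ} (hf : SU f) (i : Fin n) : SU (By i f) := su_ry.mul (hf.dy i)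

theorem rx_pos {z : VV n} (hz : z ∈ Un n) : 0 < rr z.1 := rr_pos hz.1

theorem ry_pos {z : VV n} (hz : z ∈ Un n) : 0 < rr z.2 := rr_pos hz.2

theorem su_uu : SU (uu : VV n → ℝ) := by
  unfold uu
  refine contDiffOn_const.add (ContDiffOn.div ?_ ?_ ?_)
  · exact (cont_sq.comp (contDiff_fst.sub contDiff_snd)).contDiffOn
  · exact (contDiffOn_const.mul su_rx).mul su_ry
  · intro z hz
    have := rx_pos hz
    have := ry_pos hz
    positivity

theorem su_th : SU (th : VV n → ℝ) := by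
  unfold th
  refine ContDiffOn.inv ((su_rx.mul su_ry).pow n) ?_
  intro z hz
  have := rx_pos hz
  have := ry_pos hz
  positivity

theorem th_pos {z : VV n} (hz : z ∈ Un n) : 0 < th z := by
  have := rx_pos hz
  have := ry_pos hz
  unfold th; positivity

theorem su_x (i : Fin n) : SU fun z : VV n => z.1 i := by
  have : ContDiff ℝ ∞ fun z : VV n => z.1 i := by fun_prop
  exact this.contDiffOn

theorem su_y (i : Fin n) : SU fun z : VV n => z.2 i := by
  have : ContDiff ℝ ∞ fun z : VV n => z.2 i := by fun_prop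
  exact this.contDiffOn

theorem su_s {s : MF n} (hs : SmM s) (i j : Fin n) : SU fun z : VV n => s z.1 i j :=
  ((hs i j).comp contDiff_fst).contDiffOn

/-! ## Test functions -/

/-- Test functions on pairs of points of the ball. -/
def TU (f : VV n → ℝ) : Prop := TF (Un n) f


theorem TU.su {f : VV n → ℝ} (hf : TU f) : SU f := hf.1.contDiffOn

theorem tf_of {f : VV n → ℝ} {K : Set (VV n)} (hK : IsCompact K) (hKU : K ⊆ Un n) (hf : SU f)
    (h0 : ∀ z ∉ K, f z = 0) : TU f := by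
  have hs : tsupport f ⊆ K := by
    refine closure_minimal ?_ hK.isClosed
    intro z hz
    by_contra hc
    exact hz (h0 z hc)
  refine ⟨?_, HasCompactSupport.intro hK h0, hs.trans hKU⟩
  rw [contDiff_iff_contDiffAt]
  intro z
  by_cases hz : z ∈ Un n
  · exact hf.at hz
  · have hzK : z ∈ Kᶜ := fun h => hz (hKU h)
    have : f =ᶠ[𝓝 z] fun _ => 0 := by
      filter_upwards [hK.isClosed.isOpen_compl.mem_nhds hzK] with w hw using h0 w hw
    exact contDiffAt_const.congr_of_eventuallyEq this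

theorem TU.cpt {f : VV n → ℝ} (hf : TU f) : IsCompact (tsupport f) := hf.2.1

theorem TU.zero {f : VV n → ℝ} {z : VV n} (hz : z ∉ tsupport f) : f z = 0 :=
  image_eq_zero_of_notMem_tsupport hz

theorem TU.fd {f : VV n → ℝ} (hf : TU f) (v : VV n) : TU fun z => fderiv ℝ f z v := by
  refine tf_of hf.cpt hf.2.2 (SU.fd (TU.su hf) v) ?_
  intro z hz
  have : f =ᶠ[𝓝 z] fun _ => 0 := by
    filter_upwards [(isClosed_tsupport f).isOpen_compl.mem_nhds hz] with w hw using
      image_eq_zero_of_notMem_tsupport hw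
  rw [this.fderiv_eq]; simp

theorem TU.mul_right {f g : VV n → ℝ} (hf : TU f) (hg : SU g) :
    TU fun z => f z * g z := by
  refine tf_of hf.cpt hf.2.2 ((TU.su hf).mul hg) ?_
  intro z hz
  rw [TU.zero hz, zero_mul]

theorem TU.mul_left {f g : VV n → ℝ} (hf : TU f) (hg : SU g) :
    TU fun z => g z * f z := by
  simpa only [mul_comm] using TU.mul_right hf hg

theorem TU.add {f g : VV n → ℝ} (hf : TU f) (hg : TU g) :
    TU fun z => f z + g z := by
  refine tf_of (hf.cpt.union hg.cpt) (union_subset hf.2.2 hg.2.2) ((TU.su hf).add (TU.su hg)) ?_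
  intro z hz
  rw [TU.zero fun h => hz (Or.inl h), TU.zero fun h => hz (Or.inr h), zero_add]

theorem TU.neg {f : VV n → ℝ} (hf : TU f) : TU fun z => -f z := by
  have := TU.mul_left hf (g := fun _ => (-1 : ℝ)) contDiffOn_const
  simpa using this

theorem TU.sub {f g : VV n → ℝ} (hf : TU f) (hg : TU g) :
    TU fun z => f z - g z := by
  simpa only [sub_eq_add_neg] using hf.add hg.neg

theorem tf_zero : TU fun _ : VV n => (0 : ℝ) :=
  tf_of isCompact_empty (empty_subset _) contDiffOn_const fun _ _ => rfl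

theorem TU.sum {ι : Type*} (S : Finset ι) {f : ι → VV n → ℝ} (hf : ∀ i ∈ S, TU (f i)) :
    TU fun z => ∑ i ∈ S, f i z := by
  classical
  induction S using Finset.induction_on with
  | empty => simpa using tf_zero
  | insert a S ha ih =>
    simp only [Finset.sum_insert ha]
    exact (hf a (Finset.mem_insert_self a S)).add
      (ih fun i hi => hf i (Finset.mem_insert_of_mem hi))

theorem TU.pow {f : VV n → ℝ} (hf : TU f) {k : ℕ} (hk : k ≠ 0) :
    TU fun z => f z ^ k := by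
  obtain ⟨m, rfl⟩ := Nat.exists_eq_succ_of_ne_zero hk
  simp only [pow_succ]
  exact hf.mul_left ((TU.su hf).pow m)

theorem TU.ax {f : VV n → ℝ} (hf : TU f) (i : Fin n) : TU (Ax i f) :=
  (TU.fd hf _).mul_left su_rx

theorem TU.by {f : VV n → ℝ} (hf : TU f) (i : Fin n) : TU (By i f) :=
  (TU.fd hf _).mul_left su_ry

/-! ## Derivation rules -/

theorem Ax_congr {f g : VV n → ℝ} (h : ∀ z ∈ Un n, f z = g z) (i : Fin n) {z : VV n}
    (hz : z ∈ Un n) : Ax i f z = Ax i g z := by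
  have : f =ᶠ[𝓝 z] g := by
    filter_upwards [mem_nhds_Un hz] with w hw using h w hw
  simp only [Ax, dx, this.fderiv_eq]

theorem Ax_congr_nhds {f g : VV n → ℝ} {z : VV n} (h : f =ᶠ[𝓝 z] g) (i : Fin n) :
    Ax i f z = Ax i g z := by
  simp only [Ax, dx, h.fderiv_eq]

theorem Ax_add {f g : VV n → ℝ} (hf : SU f) (hg : SU g) (i : Fin n) {z : VV n} (hz : z ∈ Un n) :
    Ax i (fun z => f z + g z) z = Ax i f z + Ax i g z := by
  simp only [Ax, dx]
  rw [fderiv_fun_add (hf.diff hz) (hg.diff hz)]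
  simp only [_root_.add_apply]; ring

theorem Ax_sub {f g : VV n → ℝ} (hf : SU f) (hg : SU g) (i : Fin n) {z : VV n} (hz : z ∈ Un n) :
    Ax i (fun z => f z - g z) z = Ax i f z - Ax i g z := by
  simp only [Ax, dx]
  rw [fderiv_fun_sub (hf.diff hz) (hg.diff hz)]
  simp only [_root_.sub_apply]; ring

theorem Ax_mul {f g : VV n → ℝ} (hf : SU f) (hg : SU g) (i : Fin n) {z : VV n} (hz : z ∈ Un n) :
    Ax i (fun z => f z * g z) z = Ax i f z * g z + f z * Ax i g z := by
  simp only [Ax, dx]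
  rw [fderiv_fun_mul (hf.diff hz) (hg.diff hz)]
  simp only [_root_.add_apply, _root_.smul_apply, smul_eq_mul]; ring

theorem Ax_const (c : ℝ) (i : Fin n) (z : VV n) : Ax i (fun _ => c) z = 0 := by
  simp [Ax, dx]

theorem Ax_cmul (c : ℝ) {f : VV n → ℝ} (hf : SU f) (i : Fin n) {z : VV n} (hz : z ∈ Un n) :
    Ax i (fun z => c * f z) z = c * Ax i f z := by
  rw [Ax_mul contDiffOn_const hf i hz, Ax_const]; ring

theorem Ax_neg {f : VV n → ℝ} (hf : SU f) (i : Fin n) {z : VV n} (hz : z ∈ Un n) :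
    Ax i (fun z => -f z) z = -Ax i f z := by
  have := Ax_cmul (-1) hf i hz
  simpa using this

theorem SU.sum {ι : Type*} (S : Finset ι) {f : ι → VV n → ℝ} (hf : ∀ j ∈ S, SU (f j)) :
    SU fun z => ∑ j ∈ S, f j z := ContDiffOn.sum hf

theorem Ax_sum {ι : Type*} (S : Finset ι) {f : ι → VV n → ℝ} (hf : ∀ j ∈ S, SU (f j)) (i : Fin n)
    {z : VV n} (hz : z ∈ Un n) :
    Ax i (fun z => ∑ j ∈ S, f j z) z = ∑ j ∈ S, Ax i (f j) z := by
  simp only [Ax, dx]
  rw [fderiv_fun_sum fun j hj => (hf j hj).diff hz]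
  simp only [_root_.sum_apply, Finset.mul_sum]

theorem Ax_pow {f : VV n → ℝ} (hf : SU f) (k : ℕ) (i : Fin n) {z : VV n} (hz : z ∈ Un n) :
    Ax i (fun z => f z ^ (k + 1)) z = (k + 1) * f z ^ k * Ax i f z := by
  induction k with
  | zero => simp
  | succ k ih =>
    have : Ax i (fun z => f z ^ (k + 1 + 1)) z = Ax i (fun z => f z ^ (k + 1) * f z) z := by
      simp only [pow_succ]
    rw [this, Ax_mul (hf.pow _) hf i hz, ih]
    push_cast
    ring

theorem Ax_x (i j : Fin n) (z : VV n) :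
    Ax i (fun z => z.1 j) z = if i = j then rr z.1 else 0 := by
  have h : HasFDerivAt (fun z : VV n => z.1 j)
      ((ContinuousLinearMap.proj (R := ℝ) (φ := fun _ : Fin n => ℝ) j).comp
        (ContinuousLinearMap.fst ℝ (V n) (V n))) z :=
    HasFDerivAt.comp z (g := fun x : V n => x j) (hasFDerivAt_apply (𝕜 := ℝ) j z.1)
      hasFDerivAt_fst
  simp only [Ax, dx, h.fderiv]
  simp only [ContinuousLinearMap.comp_apply, ContinuousLinearMap.coe_fst',
    ContinuousLinearMap.proj_apply, Pi.single_apply]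
  by_cases hij : i = j
  · simp [hij]
  · simp [hij, Ne.symm hij]

theorem Ax_fst {φ : V n → ℝ} (i : Fin n) {z : VV n} (hφ : DifferentiableAt ℝ φ z.1) :
    Ax i (fun z => φ z.1) z = rr z.1 * pd i φ z.1 := by
  have h : HasFDerivAt (fun z : VV n => φ z.1)
      ((fderiv ℝ φ z.1).comp (ContinuousLinearMap.fst ℝ (V n) (V n))) z :=
    hφ.hasFDerivAt.comp z hasFDerivAt_fst
  simp only [Ax, dx, h.fderiv, pd]
  simp

theorem Ax_snd {φ : V n → ℝ} (i : Fin n) {z : VV n} (hφ : DifferentiableAt ℝ φ z.2) :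
    Ax i (fun z => φ z.2) z = 0 := by
  have h : HasFDerivAt (fun z : VV n => φ z.2)
      ((fderiv ℝ φ z.2).comp (ContinuousLinearMap.snd ℝ (V n) (V n))) z :=
    hφ.hasFDerivAt.comp z hasFDerivAt_snd
  simp only [Ax, dx, h.fderiv]
  simp

theorem Ax_sq (i : Fin n) {z : VV n} (hz : z ∈ Un n) :
    Ax i (fun z => HY.sq z.1) z = 2 * z.1 i * rr z.1 := by
  unfold HY.sq
  rw [Ax_sum _ (fun j _ => (su_x j).pow 2) i hz]
  have : ∀ j, Ax i (fun z : VV n => z.1 j ^ 2) z = 2 * z.1 j * (if i = j then rr z.1 else 0) := by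
    intro j
    have := Ax_pow (su_x j) 1 i hz
    rw [Ax_x] at this
    rw [this]; push_cast; ring
  simp only [this]
  rw [Finset.sum_eq_single i]
  · simp
  · intro j _ hj; simp [Ne.symm hj]
  · simp

theorem Ax_rx (i : Fin n) {z : VV n} (hz : z ∈ Un n) :
    Ax i (fun z => rr z.1) z = -(z.1 i * rr z.1) := by
  have h1 : SU fun z : VV n => HY.sq z.1 := (cont_sq.comp contDiff_fst).contDiffOn
  have : Ax i (fun z : VV n => rr z.1) z = Ax i (fun z => (1 / 2 : ℝ) - (1 / 2) * HY.sq z.1) z :=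
    Ax_congr (fun z _ => by unfold rr; ring) i hz
  rw [this, Ax_sub contDiffOn_const (contDiffOn_const.mul h1) i hz, Ax_const, Ax_cmul _ h1 i hz,
    Ax_sq i hz]
  ring

theorem Ax_ry (i : Fin n) (z : VV n) : Ax i (fun z => rr z.2) z = 0 := by
  apply Ax_snd
  unfold rr
  exact ((contDiff_const.sub cont_sq).div_const _).differentiable (by simp) |>.differentiableAt


/-! ## Commutators -/

theorem two_le' : (2 : WithTop ℕ∞) ≤ ∞ := WithTop.coe_le_coe.2 le_top

theorem two_le : (1 + 1 : WithTop ℕ∞) ≤ ∞ := by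
  have : (1 + 1 : WithTop ℕ∞) = ((2 : ℕ∞) : WithTop ℕ∞) := by norm_num
  rw [this]
  exact WithTop.coe_le_coe.2 le_top


theorem dx_comm {f : VV n → ℝ} (hf : SU f) (i j : Fin n) {z : VV n} (hz : z ∈ Un n) :
    dx i (dx j f) z = dx j (dx i f) z := by
  have hd : DifferentiableAt ℝ (fderiv ℝ f) z :=
    ((hf.at hz).fderiv_right (m := 1) two_le).differentiableAt (by simp)
  have key : ∀ v w : VV n, fderiv ℝ (fun z => fderiv ℝ f z v) z w = fderiv ℝ (fderiv ℝ f) z w v := by
    intro v w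
    have h := (ContinuousLinearMap.apply ℝ ℝ v).hasFDerivAt.comp z hd.hasFDerivAt
    have h2 : fderiv ℝ (fun z => fderiv ℝ f z v) z =
        (ContinuousLinearMap.apply ℝ ℝ v).comp (fderiv ℝ (fderiv ℝ f) z) := h.fderiv
    rw [h2]; rfl
  have hs : IsSymmSndFDerivAt ℝ f z := (hf.at hz).isSymmSndFDerivAt (by simpa using two_le')
  unfold dx
  rw [key, key]
  exact hs _ _

theorem AxAx {f : VV n → ℝ} (hf : SU f) (i j : Fin n) {z : VV n} (hz : z ∈ Un n) :
    Ax i (Ax j f) z = -(z.1 i * Ax j f z) + rr z.1 ^ 2 * dx i (dx j f) z := by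
  have : Ax i (Ax j f) z = Ax i (fun z => rr z.1 * dx j f z) z := rfl
  rw [this, Ax_mul su_rx (hf.dx j) i hz, Ax_rx i hz]
  simp only [Ax]; ring

/-- `[A_i, A_j] = -x_i A_j + x_j A_i`. -/
theorem Ax_comm {f : VV n → ℝ} (hf : SU f) (i j : Fin n) {z : VV n} (hz : z ∈ Un n) :
    Ax i (Ax j f) z = Ax j (Ax i f) z - z.1 i * Ax j f z + z.1 j * Ax i f z := by
  rw [AxAx hf i j hz, AxAx hf j i hz, dx_comm hf i j hz]; ring

/-! ## The function `u` -/

theorem uu_ge {z : VV n} (hz : z ∈ Un n) : 1 ≤ uu z := by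
  have h1 := rx_pos hz
  have h2 := ry_pos hz
  have h3 := sq_nonneg' (z.1 - z.2)
  unfold uu
  have : 0 ≤ HY.sq (z.1 - z.2) / (2 * rr z.1 * rr z.2) := by positivity
  linarith

theorem uu_pos {z : VV n} (hz : z ∈ Un n) : 0 < uu z := lt_of_lt_of_le one_pos (uu_ge hz)

theorem sq_sub (x y : V n) : HY.sq (x - y) = HY.sq x - 2 * (∑ k, x k * y k) + HY.sq y := by
  unfold HY.sq
  rw [Finset.mul_sum, ← Finset.sum_sub_distrib, ← Finset.sum_add_distrib]
  refine Finset.sum_congr rfl fun k _ => ?_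
  simp only [Pi.sub_apply]; ring

theorem uu_mul {z : VV n} (hz : z ∈ Un n) : (uu z - 1) * (2 * rr z.1 * rr z.2) = HY.sq (z.1 - z.2) := by
  have h1 := (rx_pos hz).ne'
  have h2 := (ry_pos hz).ne'
  unfold uu
  field_simp
  ring

theorem Ax_sqd (i : Fin n) {z : VV n} (hz : z ∈ Un n) :
    Ax i (fun z => HY.sq (z.1 - z.2)) z = 2 * (z.1 i - z.2 i) * rr z.1 := by
  have h1 : ∀ j, SU fun z : VV n => z.1 j * z.2 j := fun j => (su_x j).mul (su_y j)
  have e : ∀ z : VV n, HY.sq (z.1 - z.2) = HY.sq z.1 - 2 * (∑ k, z.1 k * z.2 k) + HY.sq z.2 :=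
    fun z => sq_sub _ _
  have s1 : SU fun z : VV n => HY.sq z.1 := (cont_sq.comp contDiff_fst).contDiffOn
  have s2 : SU fun z : VV n => HY.sq z.2 := (cont_sq.comp contDiff_snd).contDiffOn
  have s3 : SU fun z : VV n => 2 * ∑ k, z.1 k * z.2 k :=
    contDiffOn_const.mul (SU.sum _ fun j _ => h1 j)
  have s4 : SU fun z : VV n => HY.sq z.1 - 2 * ∑ k, z.1 k * z.2 k := s1.sub s3
  have d2 : Ax i (fun z : VV n => HY.sq z.2) z = 0 :=
    Ax_snd i (cont_sq.differentiable (by simp) |>.differentiableAt)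
  have d3 : Ax i (fun z : VV n => ∑ k, z.1 k * z.2 k) z = z.2 i * rr z.1 := by
    rw [Ax_sum _ (fun j _ => h1 j) i hz]
    have : ∀ j, Ax i (fun z : VV n => z.1 j * z.2 j) z = (if i = j then rr z.1 else 0) * z.2 j := by
      intro j
      rw [Ax_mul (su_x j) (su_y j) i hz, Ax_x]
      have : Ax i (fun z : VV n => z.2 j) z = 0 :=
        Ax_snd (φ := fun x => x j) i (by fun_prop)
      rw [this]; ring
    simp only [this]
    rw [Finset.sum_eq_single i]
    · simp; ring
    · intro j _ hj; simp [Ne.symm hj]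
    · simp
  simp only [e]
  rw [Ax_add s4 s2 i hz, Ax_sub s1 s3 i hz, Ax_cmul _ (SU.sum _ fun j _ => h1 j) i hz, d2, d3,
    Ax_sq i hz]
  ring

theorem su_al (i : Fin n) : SU (al i : VV n → ℝ) := SU.ax su_uu i

theorem al_eq (i : Fin n) {z : VV n} (hz : z ∈ Un n) :
    al i z = (z.1 i - z.2 i) / rr z.2 + (uu z - 1) * z.1 i := by
  have h1 := (rx_pos hz).ne'
  have h2 := (ry_pos hz).ne'
  have e := Ax_congr (fun z hz => uu_mul hz) i hz
  rw [Ax_sqd i hz] at e
  have s1 : SU fun z : VV n => uu z - 1 := su_uu.sub contDiffOn_const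
  have s2 : SU fun z : VV n => 2 * rr z.1 := contDiffOn_const.mul su_rx
  rw [Ax_mul s1 (s2.mul su_ry) i hz, Ax_sub su_uu contDiffOn_const i hz, Ax_const,
    Ax_mul s2 su_ry i hz, Ax_cmul _ su_rx i hz, Ax_rx i hz, Ax_ry] at e
  have e2 : al i z = Ax i uu z := rfl
  rw [← e2] at e
  field_simp
  have : al i z * rr z.2 * (2 * rr z.1) =
      (z.1 i - z.2 i + rr z.2 * (uu z - 1) * z.1 i) * (2 * rr z.1) := by linarith
  have h3 : (2 * rr z.1) ≠ 0 := by simpa using h1
  exact mul_right_cancel₀ h3 (by linear_combination this)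

theorem uu_eq (z : VV n) : uu z =
    1 + (HY.sq z.1 - 2 * (∑ k, z.1 k * z.2 k) + HY.sq z.2) / (2 * rr z.1 * rr z.2) := by
  rw [← sq_sub]; rfl

/-- `x · α`. -/
def xa (z : VV n) : ℝ := ∑ k, z.1 k * al k z

theorem xa_eq {z : VV n} (hz : z ∈ Un n) :
    xa z = uu z - rr z.1 / rr z.2 - (uu z - 1) * rr z.1 := by
  have h1 := (rx_pos hz).ne'
  have h2 := (ry_pos hz).ne'
  have e : xa z = (HY.sq z.1 - ∑ k, z.1 k * z.2 k) / rr z.2 + (uu z - 1) * HY.sq z.1 := by
    unfold xa HY.sq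
    rw [Finset.mul_sum, ← Finset.sum_sub_distrib, Finset.sum_div, ← Finset.sum_add_distrib]
    refine Finset.sum_congr rfl fun k _ => ?_
    rw [al_eq k hz]; ring
  rw [e, uu_eq z]
  have hx : HY.sq z.1 = 1 - 2 * rr z.1 := by unfold rr; ring
  have hy : HY.sq z.2 = 1 - 2 * rr z.2 := by unfold rr; ring
  rw [hx, hy]
  field_simp
  ring

theorem sum_al {z : VV n} (hz : z ∈ Un n) : ∑ k, al k z ^ 2 = uu z ^ 2 - 1 := by
  have h1 := (rx_pos hz).ne'
  have h2 := (ry_pos hz).ne'
  have e : ∑ k, al k z ^ 2 = HY.sq (z.1 - z.2) / rr z.2 ^ 2 +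
      2 * (uu z - 1) / rr z.2 * (HY.sq z.1 - ∑ k, z.1 k * z.2 k) + (uu z - 1) ^ 2 * HY.sq z.1 := by
    unfold HY.sq
    rw [← Finset.sum_sub_distrib, Finset.mul_sum, Finset.mul_sum, Finset.sum_div,
      ← Finset.sum_add_distrib, ← Finset.sum_add_distrib]
    refine Finset.sum_congr rfl fun k _ => ?_
    rw [al_eq k hz]
    simp only [Pi.sub_apply]
    field_simp
    ring
  rw [e, sq_sub, uu_eq z]
  have hx : HY.sq z.1 = 1 - 2 * rr z.1 := by unfold rr; ring
  have hy : HY.sq z.2 = 1 - 2 * rr z.2 := by unfold rr; ring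
  rw [hx, hy]
  field_simp
  ring

/-- `A_j α_i = u δ_ij + x_i α_j - δ_ij x·α`. -/
theorem Ax_al (j i : Fin n) {z : VV n} (hz : z ∈ Un n) :
    Ax j (al i) z = (if j = i then uu z - xa z else 0) + z.1 i * al j z := by
  have h1 := (rx_pos hz).ne'
  have h2 := (ry_pos hz).ne'
  have s1 : SU fun z : VV n => uu z - 1 := su_uu.sub contDiffOn_const
  have s2 : SU fun z : VV n => z.1 i - z.2 i := (su_x i).sub (su_y i)
  have s3 : SU fun z : VV n => (rr z.2)⁻¹ := su_ry.inv fun z hz => (ry_pos hz).ne'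
  have e : Ax j (al i) z = Ax j (fun z => (z.1 i - z.2 i) * (rr z.2)⁻¹ + (uu z - 1) * z.1 i) z :=
    Ax_congr (fun z hz => by rw [al_eq i hz, div_eq_mul_inv]) j hz
  have d1 : Ax j (fun z : VV n => z.2 i) z = 0 := Ax_snd (φ := fun x => x i) j (by fun_prop)
  have d2 : Ax j (fun z : VV n => (rr z.2)⁻¹) z = 0 := by
    refine Ax_snd (φ := fun x => (rr x)⁻¹) j ?_
    refine DifferentiableAt.inv ?_ h2
    unfold rr
    exact ((contDiff_const.sub cont_sq).div_const _).differentiable (by simp) |>.differentiableAt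
  rw [e, Ax_add (s2.mul s3) (s1.mul (su_x i)) j hz, Ax_mul s2 s3 j hz, Ax_mul s1 (su_x i) j hz,
    Ax_sub (su_x i) (su_y i) j hz, Ax_sub su_uu contDiffOn_const j hz, Ax_const, Ax_x, d1, d2,
    xa_eq hz]
  have e2 : al j z = Ax j uu z := rfl
  rw [← e2]
  by_cases hij : j = i
  · simp only [hij, if_true]
    field_simp
    ring
  · simp only [hij, if_false]
    ring

/-! ## The weight and integration by parts -/

theorem Ax_pow' {f : VV n → ℝ} (hf : SU f) (k : ℕ) (i : Fin n) {z : VV n} (hz : z ∈ Un n) :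
    Ax i (fun z => f z ^ k) z * f z = k * f z ^ k * Ax i f z := by
  rcases k with _ | k
  · simp [Ax_const]
  · rw [Ax_pow hf k i hz]; push_cast; ring

theorem Ax_th (i : Fin n) {z : VV n} (hz : z ∈ Un n) : Ax i th z = n * z.1 i * th z := by
  have h1 := (rx_pos hz).ne'
  have h2 := (ry_pos hz).ne'
  have s1 : SU fun z : VV n => rr z.1 * rr z.2 := su_rx.mul su_ry
  have e1 := Ax_pow' s1 n i hz
  rw [Ax_mul su_rx su_ry i hz, Ax_rx i hz, Ax_ry] at e1
  have e2 : Ax i (fun z => th z * (rr z.1 * rr z.2) ^ n) z = 0 := by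
    rw [Ax_congr (g := fun _ => (1 : ℝ)) (fun z hz => ?_) i hz, Ax_const]
    have h1 := (rx_pos hz).ne'
    have h2 := (ry_pos hz).ne'
    unfold th
    field_simp
  rw [Ax_mul su_th (s1.pow n) i hz] at e2
  have h3 : rr z.1 * rr z.2 ≠ 0 := mul_ne_zero h1 h2
  have h4 : (rr z.1 * rr z.2) ^ n ≠ 0 := pow_ne_zero _ h3
  have e3 : Ax i (fun z : VV n => (rr z.1 * rr z.2) ^ n) z =
      -(n * z.1 i * (rr z.1 * rr z.2) ^ n) := by
    apply mul_right_cancel₀ h3
    linarith
  rw [e3] at e2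
  apply mul_right_cancel₀ h4
  linarith

instance haarVV : (volume : Measure (VV n)).IsAddHaarMeasure :=
  Measure.prod.instIsAddHaarMeasure _ _

theorem int_fd {f : VV n → ℝ} (hf : TU f) (v : VV n) : ∫ z, fderiv ℝ f z v = 0 := by
  have h1 : TU fun z => fderiv ℝ f z v := TU.fd hf v
  have hi : Integrable (fun z => fderiv ℝ f z v) := h1.1.continuous.integrable_of_hasCompactSupport h1.2.1
  have hf' : Integrable f := hf.1.continuous.integrable_of_hasCompactSupport hf.2.1
  have := integral_mul_fderiv_eq_neg_fderiv_mul_of_integrable (μ := (volume : Measure (VV n)))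
    (f := fun _ : VV n => (1 : ℝ)) (g := f) (v := v) (by simp) (by simpa using hi)
    (by simpa using hf') (fun x _ => differentiableAt_const _)
    (fun x _ => hf.1.differentiable (by simp) |>.differentiableAt)
  simpa using this

/-- The integral with the hyperbolic weight. -/
def In (f : VV n → ℝ) : ℝ := ∫ z in Un n, th z * f z

theorem ibp {h : VV n → ℝ} (hh : TU h) (i : Fin n) :
    In (fun z => Ax i h z + (n - 1) * z.1 i * h z) = 0 := by
  have s1 : SU fun z : VV n => th z * rr z.1 := su_th.mul su_rx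
  have t1 : TU fun z => th z * rr z.1 * h z := hh.mul_left s1
  have e := int_fd t1 (Pi.single i 1, 0)
  rw [← setIntegral_eq_integral_of_forall_compl_eq_zero (s := Un n)] at e
  · unfold In
    rw [← e]
    refine setIntegral_congr_fun isOpen_Un.measurableSet fun z hz => ?_
    have h1 := (rx_pos hz).ne'
    have e2 : rr z.1 * fderiv ℝ (fun z => th z * rr z.1 * h z) z (Pi.single i 1, 0) =
        rr z.1 * (th z * (Ax i h z + (n - 1) * z.1 i * h z)) := by
      change Ax i (fun z => th z * rr z.1 * h z) z = _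
      rw [Ax_mul s1 hh.su i hz, Ax_mul su_th su_rx i hz, Ax_th i hz, Ax_rx i hz]
      ring
    exact (mul_left_cancel₀ h1 e2).symm
  · intro z hz
    have t2 := TU.fd t1 (Pi.single i 1, 0)
    exact TU.zero (f := fun z => fderiv ℝ (fun z => th z * rr z.1 * h z) z (Pi.single i 1, 0))
      fun h => hz (t2.2.2 h)

end Vale.Agent.P088.R2.H961
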