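import Vale.Agent.P088.R2.H961.Lb

/-!
# P088, row TOP: the localised inequality in one factor
-/

open MeasureTheory Set Filter
open scoped ContDiff Matrix Topology

noncomputable section

namespace Vale.Agent.P088.R2.H961

open Vale.Agent.P088.LR Vale.Agent.P088.HY

variable {n K : ℕ} {ε : ℝ} {s : MF n}

/-- Cut-off functions. -/
structure Zt (δ : ℝ) (ζ : VV n → ℝ) : Prop where
  tu : TU ζ
  nn : ∀ z, 0 ≤ ζ z
  le : ∀ z, ζ z ≤ 1
  d1 : ∀ z ∈ Un n, ∀ i, |Ax i ζ z| ≤ δ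
  d2 : ∀ z ∈ Un n, ∀ i j, |Ax i (Ax j ζ) z| ≤ δ

/-- `ψ = u⁻¹ ζ⁴`. -/
def psi (ζ : VV n → ℝ) (z : VV n) : ℝ := wu z * ζ z ^ 4

/-- `ω = u⁻² ζ⁶`. -/
def om (ζ : VV n → ℝ) (z : VV n) : ℝ := wu z ^ 2 * ζ z ^ 6

/-- The commutator of `Q` and the multiplication by `ψ`. -/
def Nn (s : MF n) (τ : ℝ) (ψ g : VV n → ℝ) (z : VV n) : ℝ :=
  2 * Gm s ψ g z + L0 s ψ z * g z - 2 * τ * Gm s uu ψ z * g z

theorem Gm_pow (s : MF n) (f : VV n → ℝ) {h : VV n → ℝ} (hh : SU h) (k : ℕ) {z : VV n}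
    (hz : z ∈ Un n) : Gm s f (fun z => h z ^ (k + 1)) z = (k + 1) * h z ^ k * Gm s f h z := by
  unfold Gm
  simp only [Finset.mul_sum]
  refine Finset.sum_congr rfl fun i _ => Finset.sum_congr rfl fun j _ => ?_
  rw [Ax_pow hh k j hz]; ring

theorem Px_mul (hs : TS n K ε s) (τ : ℝ) {ψ g : VV n → ℝ} (hψ : SU ψ) (hg : SU g) {z : VV n}
    (hz : z ∈ Un n) : Px s (-τ) (fun z => ψ z * g z) z = ψ z * Px s (-τ) g z + Nn s τ ψ g z := by
  rw [Px_eq, Px_eq, Kxs_eq, Kxs_eq, L0_mul hs hψ hg hz, Gm_mul s uu hψ hg hz]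
  unfold Nn
  ring

theorem Nn_mul (s : MF n) (τ : ℝ) {ψ g : VV n → ℝ} (hψ : SU ψ) (hg : SU g) {z : VV n}
    (hz : z ∈ Un n) : Nn s τ ψ (fun z => ψ z * g z) z = ψ z * Nn s τ ψ g z + 2 * Gm s ψ ψ z * g z := by
  unfold Nn
  rw [Gm_mul s ψ hψ hg hz]
  ring

theorem adj (hs : TS n K ε s) (τ : ℝ) {f h : VV n → ℝ} (hf : TU f) (hh : TU h) :
    In (fun z => Px s τ f z * h z) = In (fun z => f z * Px s (-τ) h z) := by
  have sf := hf.su
  have sh := hh.su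
  have e1 := In_L0 hs sf hh
  have e2 := In_L0 hs sh hf
  have e3 : In (Gm s f h) = In (Gm s h f) := In_congr fun z _ => Gm_comm hs f h z
  have tfh : TU fun z => f z * h z := hf.mul_right sh
  have e4 := In_L0 hs su_uu tfh
  have t1 : TU fun z => L0 s f z * h z := hh.mul_left (su_L0 hs sf)
  have t2 : TU fun z => L0 s h z * f z := hf.mul_left (su_L0 hs sh)
  have t3 : TU fun z => L0 s uu z * (f z * h z) := tfh.mul_left (su_L0 hs su_uu)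
  have t4 : TU (Gm s uu fun z => f z * h z) := tu_Gm_right hs su_uu tfh
  have t5 : TU fun z => Px s τ f z * h z := hh.mul_left (su_Px hs τ sf)
  have t6 : TU fun z => f z * Px s (-τ) h z := hf.mul_right (su_Px hs (-τ) sh)
  have e5 : In (fun z => (L0 s f z * h z - L0 s h z * f z) +
      2 * τ * (L0 s uu z * (f z * h z) + Gm s uu (fun z => f z * h z) z)) =
      In (fun z => Px s τ f z * h z - f z * Px s (-τ) h z) := by
    refine In_congr fun z hz => ?_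
    rw [Px_eq, Px_eq, Kxs_eq, Kxs_eq, Gm_mul s uu sf sh hz]
    ring
  rw [In_sub t5 t6, In_add (t1.sub t2) ((t3.add t4).mul_left contDiffOn_const), In_sub t1 t2,
    In_cmul, In_add t3 t4, e1, e2, e3, e4] at e5
  linarith

/-- The localisation identity. -/
theorem ims (hs : TS n K ε s) (τ : ℝ) {ψ g : VV n → ℝ} (hψ : SU ψ) (hg : TU g) :
    In (fun z => Px s τ (Px s (-τ) g) z * (ψ z * (ψ z * g z))) =
      In (fun z => Px s (-τ) (fun z => ψ z * g z) z ^ 2 - Nn s τ ψ g z ^ 2 +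
        2 * Gm s ψ ψ z * g z * Px s (-τ) g z) := by
  have tf : TU fun z => ψ z * g z := hg.mul_left hψ
  have tff : TU fun z => ψ z * (ψ z * g z) := tf.mul_left hψ
  rw [adj hs τ (tu_Px hs (-τ) hg) tff]
  refine In_congr fun z hz => ?_
  rw [Px_mul hs τ hψ tf.su hz, Px_mul hs τ hψ hg.su hz, Nn_mul s τ hψ hg.su hz]
  ring

/-! ## Pointwise bounds -/

section
variable {δ : ℝ} {ζ : VV n → ℝ}

theorem su_psi (hζ : Zt δ ζ) : SU (psi ζ) := su_wu.mul (hζ.tu.su.pow 4)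

theorem su_om (hζ : Zt δ ζ) : SU (om ζ) := (su_wu.pow 2).mul (hζ.tu.su.pow 6)

theorem wal {z : VV n} (hz : z ∈ Un n) (i : Fin n) : |wu z * al i z| ≤ 1 := by
  rw [abs_mul, abs_of_pos (wu_pos hz)]
  have := mul_le_mul_of_nonneg_left (abs_al hz i) (wu_pos hz).le
  rwa [wu_mul hz] at this

theorem Ax_psi (hζ : Zt δ ζ) (i : Fin n) {z : VV n} (hz : z ∈ Un n) :
    Ax i (psi ζ) z = -(wu z * (wu z * al i z) * ζ z ^ 4) + 4 * wu z * ζ z ^ 3 * Ax i ζ z := by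
  have e : Ax i (psi ζ) z = Ax i (fun z => wu z * ζ z ^ 4) z := rfl
  rw [e, Ax_mul su_wu (hζ.tu.su.pow 4) i hz, Ax_wu i hz, Ax_pow hζ.tu.su 3 i hz]
  push_cast
  ring

theorem abs_Axpsi (hζ : Zt δ ζ) (i : Fin n) {z : VV n} (hz : z ∈ Un n) :
    |Ax i (psi ζ) z| ≤ wu z * ζ z ^ 3 * (ζ z + 4 * δ) := by
  rw [Ax_psi hζ i hz]
  have hw := wu_pos hz
  have h0 := hζ.nn z
  have h1 : |-(wu z * (wu z * al i z) * ζ z ^ 4)| ≤ wu z * 1 * ζ z ^ 4 := by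
    rw [abs_neg]
    exact bm (bm (abs_of_pos hw).le (wal hz i)) (abs_of_nonneg (by positivity)).le
  have h2 : |4 * wu z * ζ z ^ 3 * Ax i ζ z| ≤ 4 * wu z * ζ z ^ 3 * δ :=
    bm (abs_of_nonneg (by positivity)).le (hζ.d1 z hz i)
  refine (ba h1 h2).trans (le_of_eq ?_)
  ring

theorem abs_AxAxpsi (hζ : Zt δ ζ) (hδ : δ ≤ 1) (i j : Fin n) {z : VV n} (hz : z ∈ Un n) :
    |Ax i (Ax j (psi ζ)) z| ≤ (n + 4) * ζ z ^ 4 + 24 * δ := by
  have sζ := hζ.tu.su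
  have hw := wu_pos hz
  have hw1 := wu_le hz
  have h0 := hζ.nn z
  have h1 := hζ.le z
  have hδ0 : 0 ≤ δ := (abs_nonneg _).trans (hζ.d1 z hz i)
  have e : Ax i (Ax j (psi ζ)) z =
      Ax i (fun z => -(wu z ^ 2 * al j z * ζ z ^ 4) + 4 * (wu z * ζ z ^ 3 * Ax j ζ z)) z :=
    Ax_congr (fun z hz => by rw [Ax_psi hζ j hz]; ring) i hz
  have s1 : SU fun z : VV n => wu z ^ 2 * al j z := (su_wu.pow 2).mul (su_al j)
  have s2 : SU fun z : VV n => wu z ^ 2 * al j z * ζ z ^ 4 := s1.mul (sζ.pow 4)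
  have s3 : SU fun z : VV n => wu z * ζ z ^ 3 := su_wu.mul (sζ.pow 3)
  have s4 : SU fun z : VV n => wu z * ζ z ^ 3 * Ax j ζ z := s3.mul (SU.ax sζ j)
  have e2 : Ax i (Ax j (psi ζ)) z =
      (2 * (wu z * (wu z * al i z) * (wu z * al j z)) - wu z * (wu z * Ax i (al j) z)) * ζ z ^ 4 -
      4 * (wu z * (wu z * al j z) * ζ z ^ 3 * Ax i ζ z) -
      4 * (wu z * (wu z * al i z) * ζ z ^ 3 * Ax j ζ z) +
      12 * (wu z * ζ z ^ 2 * Ax i ζ z * Ax j ζ z) + 4 * (wu z * ζ z ^ 3 * Ax i (Ax j ζ) z) := by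
    rw [e, Ax_add s2.neg (contDiffOn_const.mul s4) i hz, Ax_neg s2 i hz, Ax_cmul _ s4 i hz,
      Ax_mul s1 (sζ.pow 4) i hz, Ax_mul (su_wu.pow 2) (su_al j) i hz, Ax_mul s3 (SU.ax sζ j) i hz,
      Ax_mul su_wu (sζ.pow 3) i hz, Ax_pow su_wu 1 i hz, Ax_pow sζ 3 i hz, Ax_pow sζ 2 i hz,
      Ax_wu i hz]
    push_cast
    ring
  rw [e2]
  have w1 : |wu z| ≤ 1 := by rw [abs_of_pos hw]; exact hw1
  have z2 : |ζ z ^ 2| ≤ 1 := by rw [abs_of_nonneg (by positivity)]; exact pow_le_one₀ h0 h1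
  have z3 : |ζ z ^ 3| ≤ 1 := by rw [abs_of_nonneg (by positivity)]; exact pow_le_one₀ h0 h1
  have z4 : |ζ z ^ 4| ≤ ζ z ^ 4 := (abs_of_nonneg (by positivity)).le
  have b1 : |wu z * Ax i (al j) z| ≤ n + 2 := by
    rw [abs_mul, abs_of_pos hw]
    have h3 := mul_le_mul_of_nonneg_left (abs_Axal hz j i) hw.le
    have h4 : wu z * ((n + 2) * uu z) = n + 2 := by
      have := wu_mul hz
      linear_combination (n + 2 : ℝ) * this
    rwa [h4] at h3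
  have two : |(2 : ℝ)| ≤ 2 := by norm_num
  have four : |(4 : ℝ)| ≤ 4 := by norm_num
  have twelve : |(12 : ℝ)| ≤ 12 := by norm_num
  have t1 := bm (bs (bm two (bm (bm w1 (wal hz i)) (wal hz j))) (bm w1 b1)) z4
  have t2 := bm four (bm (bm (bm w1 (wal hz j)) z3) (hζ.d1 z hz i))
  have t3 := bm four (bm (bm (bm w1 (wal hz i)) z3) (hζ.d1 z hz j))
  have t4 := bm twelve (bm (bm (bm w1 z2) (hζ.d1 z hz i)) (hζ.d1 z hz j))
  have t5 := bm four (bm (bm w1 z3) (hζ.d2 z hz i j))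
  refine (ba (ba (bs (bs t1 t2) t3) t4) t5).trans ?_
  have : δ * δ ≤ δ := by nlinarith
  nlinarith

/-- A constant. -/
def c3 (n : ℕ) : ℝ := 2 * n ^ 2 * (4 * n + 28)

theorem abs_L0psi (hs : TS n K ε s) (hε1 : ε ≤ 1) (hζ : Zt δ ζ) (hδ0 : 0 ≤ δ) (hδ : δ ≤ 1) {z : VV n}
    (hz : z ∈ Un n) : |L0 s (psi ζ) z| ≤ c3 n * (ζ z ^ 4 + δ) := by
  have hn : (0 : ℝ) ≤ n := Nat.cast_nonneg n
  have hw := wu_pos hz
  have hw1 := wu_le hz
  have h0 := hζ.nn z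
  have h1 := hζ.le z
  have hn1 : |((n : ℝ) - 1)| ≤ n + 1 := by rw [abs_le]; constructor <;> linarith
  have h2 : ∀ j, |Ax j (psi ζ) z| ≤ ζ z ^ 4 + 4 * δ := by
    intro j
    refine (abs_Axpsi hζ j hz).trans ?_
    have z3 : ζ z ^ 3 ≤ 1 := pow_le_one₀ h0 h1
    have z3' : 0 ≤ ζ z ^ 3 := by positivity
    have k1 : wu z * ζ z ^ 3 ≤ ζ z ^ 3 := by nlinarith
    calc _ ≤ ζ z ^ 3 * (ζ z + 4 * δ) := mul_le_mul_of_nonneg_right k1 (by positivity)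
      _ = ζ z ^ 4 + ζ z ^ 3 * (4 * δ) := by ring
      _ ≤ ζ z ^ 4 + 1 * (4 * δ) := by gcongr
      _ = ζ z ^ 4 + 4 * δ := by ring
  have h3 : |L0 s (psi ζ) z| ≤ n * (n * (2 * (((n + 4) * ζ z ^ 4 + 24 * δ) +
      (n + 1) * 1 * (ζ z ^ 4 + 4 * δ)))) := by
    apply abs_sum_le; intro i
    apply abs_sum_le; intro j
    exact bm (abs_s hs hε1 _ _ _) (ba (abs_AxAxpsi hζ hδ i j hz) (bm (bm hn1 (abs_x hz i)) (h2 j)))
  refine h3.trans ?_
  unfold c3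
  have z4 : 0 ≤ ζ z ^ 4 := by positivity
  nlinarith [mul_nonneg hn z4, mul_nonneg (mul_nonneg hn hn) z4,
    mul_nonneg (mul_nonneg (mul_nonneg hn hn) hn) z4, mul_nonneg hn hδ0,
    mul_nonneg (mul_nonneg hn hn) hδ0, mul_nonneg (mul_nonneg (mul_nonneg hn hn) hn) hδ0]

theorem abs_Gupsi (hn : 3 ≤ n) (hs : TS n K ε s) (hε : ε ≤ 1 / (96 * (n : ℝ) ^ 4))
    (hζ : Zt δ ζ) {z : VV n}
    (hz : z ∈ Un n) : |Gm s uu (psi ζ) z| ≤ 41 / 40 * ζ z ^ 4 + 8 * n ^ 2 * ζ z ^ 3 * δ := by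
  have hnR : (3 : ℝ) ≤ n := by exact_mod_cast hn
  have hε1 : ε ≤ 1 := hε.trans (eps_le hn)
  have hw := wu_pos hz
  have hw1 := wu_le hz
  have h0 := hζ.nn z
  have h1 := hζ.le z
  have sζ := hζ.tu.su
  have e : Gm s uu (psi ζ) z = -(wu z ^ 2 * Gm s uu uu z) * ζ z ^ 4 +
      4 * ζ z ^ 3 * (wu z * Gm s uu ζ z) := by
    have e1 : Gm s uu (psi ζ) z = Gm s uu (fun z => wu z * ζ z ^ 4) z := rfl
    have e2 : Gm s uu wu z = -(wu z ^ 2 * Gm s uu uu z) := by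
      unfold Gm
      simp only [Finset.mul_sum, ← Finset.sum_neg_distrib]
      refine Finset.sum_congr rfl fun i _ => Finset.sum_congr rfl fun j _ => ?_
      rw [Ax_wu j hz]
      have : Ax j uu z = al j z := rfl
      rw [this]; ring
    rw [e1, Gm_mul s uu su_wu (sζ.pow 4) hz, e2, Gm_pow s uu sζ 3 hz]
    push_cast
    ring
  rw [e]
  have g1 : |-(wu z ^ 2 * Gm s uu uu z)| ≤ 41 / 40 := by
    have h2 := Gm_self hs (by omega) uu z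
    have h3 : ∑ k, Ax k uu z ^ 2 = uu z ^ 2 - 1 := sum_al hz
    rw [h3] at h2
    have hu := uu_ge hz
    have h4 : 0 ≤ uu z ^ 2 - 1 := by nlinarith
    have h5 : (n : ℝ) ^ 2 * ε ≤ 1 / 40 := by
      rw [le_div_iff₀ (by positivity)] at hε
      have h9 : (9 : ℝ) ≤ n ^ 2 := by nlinarith
      have hε0 := ts_nonneg hs ⟨0, by omega⟩ ⟨0, by omega⟩
      have h10 : 0 ≤ (n : ℝ) ^ 2 * ε := by positivity
      nlinarith
    have h6 : |Gm s uu uu z| ≤ 41 / 40 * uu z ^ 2 := by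
      have h7 := ba h2 (abs_of_nonneg h4).le
      rw [sub_add_cancel] at h7
      refine h7.trans ?_
      have := mul_le_mul_of_nonneg_right h5 h4
      nlinarith
    rw [abs_neg, abs_mul, abs_of_nonneg (by positivity : 0 ≤ wu z ^ 2)]
    have h8 := mul_le_mul_of_nonneg_left h6 (by positivity : 0 ≤ wu z ^ 2)
    have h9 := wu_mul hz
    have h10 : wu z ^ 2 * (41 / 40 * uu z ^ 2) = 41 / 40 := by
      have : wu z ^ 2 * uu z ^ 2 = 1 := by rw [← mul_pow, h9, one_pow]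
      linear_combination 41 / 40 * this
    rwa [h10] at h8
  have g2 : |wu z * Gm s uu ζ z| ≤ 2 * n ^ 2 * δ := by
    have h2 := abs_Gm hs hε1 (f := uu) (h := ζ) (fun i => abs_al hz i) (fun i => hζ.d1 z hz i)
    rw [abs_mul, abs_of_pos hw]
    have h3 := mul_le_mul_of_nonneg_left h2 hw.le
    have h4 : wu z * (2 * n ^ 2 * (uu z * δ)) = 2 * n ^ 2 * δ := by
      have := wu_mul hz
      linear_combination 2 * (n : ℝ) ^ 2 * δ * this
    rwa [h4] at h3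
  refine (ba (bm g1 (abs_of_nonneg (by positivity : 0 ≤ ζ z ^ 4)).le)
    (bm (abs_of_nonneg (by positivity : 0 ≤ 4 * ζ z ^ 3)).le g2)).trans (le_of_eq ?_)
  ring

theorem abs_Axom (hζ : Zt δ ζ) (hδ : δ ≤ 1) (i : Fin n) {z : VV n} (hz : z ∈ Un n) :
    |Ax i (om ζ) z| ≤ 8 * (wu z ^ 2 * ζ z ^ 5) := by
  have sζ := hζ.tu.su
  have hw := wu_pos hz
  have h0 := hζ.nn z
  have h1 := hζ.le z
  have e : Ax i (om ζ) z = Ax i (fun z => wu z ^ 2 * ζ z ^ 6) z := rfl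
  have e2 : Ax i (om ζ) z = -(2 * (wu z ^ 2 * ζ z ^ 6) * (wu z * al i z)) +
      6 * (wu z ^ 2 * ζ z ^ 5) * Ax i ζ z := by
    rw [e, Ax_mul (su_wu.pow 2) (sζ.pow 6) i hz, Ax_pow su_wu 1 i hz, Ax_pow sζ 5 i hz,
      Ax_wu i hz]
    push_cast
    ring
  rw [e2]
  have t1 : |-(2 * (wu z ^ 2 * ζ z ^ 6) * (wu z * al i z))| ≤ 2 * (wu z ^ 2 * ζ z ^ 6) * 1 := by
    rw [abs_neg]
    exact bm (abs_of_nonneg (by positivity)).le (wal hz i)
  have t2 : |6 * (wu z ^ 2 * ζ z ^ 5) * Ax i ζ z| ≤ 6 * (wu z ^ 2 * ζ z ^ 5) * 1 :=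
    bm (abs_of_nonneg (by positivity)).le ((hζ.d1 z hz i).trans hδ)
  refine (ba t1 t2).trans ?_
  have h2 : ζ z ^ 6 ≤ ζ z ^ 5 := pow_le_pow_of_le_one h0 h1 (by norm_num)
  have h3 := mul_le_mul_of_nonneg_left h2 (by positivity : 0 ≤ wu z ^ 2)
  linarith

end

end Vale.Agent.P088.R2.H961
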