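import Vale.Agent.P088.R2.H961.Fac

/-!
# P088, row TOP: the localised inequality in one factor, conclusion
-/

open MeasureTheory Set Filter
open scoped ContDiff Matrix Topology

noncomputable section

namespace Vale.Agent.P088.R2.H961

open Vale.Agent.P088.LR Vale.Agent.P088.HY

variable {n K : ℕ} {ε : ℝ} {s : MF n} {δ : ℝ} {ζ : VV n → ℝ}

theorem four_pow (a b : ℝ) : (a + b) ^ 4 ≤ 8 * (a ^ 4 + b ^ 4) := by
  have h1 : (a + b) ^ 2 ≤ 2 * (a ^ 2 + b ^ 2) := by nlinarith [sq_nonneg (a - b)]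
  have h2 : ((a + b) ^ 2) ^ 2 ≤ (2 * (a ^ 2 + b ^ 2)) ^ 2 := pow_le_pow_left₀ (sq_nonneg _) h1 2
  nlinarith [sq_nonneg (a ^ 2 - b ^ 2)]

/-- A constant. -/
def c4 (n : ℕ) : ℝ := 163840 * n ^ 4

theorem pt1 (hs : TS n K ε s) (hε1 : ε ≤ 1) (hζ : Zt δ ζ) (hδ0 : 0 ≤ δ) (hδ : δ ≤ 1) (τ : ℝ)
    {g : VV n → ℝ} (hg : SU g) {z : VV n} (hz : z ∈ Un n) :
    9 / 10 * Px s (-τ) (fun z => psi ζ z * g z) z ^ 2 - 11 / 10 * Nn s τ (psi ζ) g z ^ 2 -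
      c4 n * (ζ z ^ 8 * g z ^ 2) - c4 n * δ * g z ^ 2 ≤
    Px s (-τ) (fun z => psi ζ z * g z) z ^ 2 - Nn s τ (psi ζ) g z ^ 2 +
        2 * Gm s (psi ζ) (psi ζ) z * g z * Px s (-τ) g z := by
  have hw := wu_pos hz
  have hw1 := wu_le hz
  have h0 := hζ.nn z
  have h1 := hζ.le z
  rw [Px_mul hs τ (su_psi hζ) hg hz]
  generalize hN : Nn s τ (psi ζ) g z = N
  generalize hQ : Px s (-τ) g z = Q
  have he := abs_Gm hs hε1 (fun i => abs_Axpsi hζ i hz) (fun i => abs_Axpsi hζ i hz)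
  generalize hG : Gm s (psi ζ) (psi ζ) z = e at *
  have hA : psi ζ z = wu z * ζ z ^ 4 := rfl
  set A := psi ζ z * Q with hAd
  set B := 2 * n ^ 2 * (wu z * ζ z ^ 2 * (ζ z + 4 * δ) ^ 2) * |g z| with hB
  have h2 : |2 * e * g z * Q| ≤ 2 * |A| * B := by
    have e1 : |2 * e * g z * Q| = 2 * |e| * |g z| * |Q| := by
      rw [abs_mul, abs_mul, abs_mul, abs_two]
    have e2 : |A| = wu z * ζ z ^ 4 * |Q| := by
      rw [hAd, hA, abs_mul, abs_of_nonneg (by positivity : 0 ≤ wu z * ζ z ^ 4)]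
    rw [e1, e2, hB]
    have h3 : 2 * |e| * |g z| * |Q| = |e| * (2 * |g z| * |Q|) := by ring
    rw [h3]
    refine (mul_le_mul_of_nonneg_right he (by positivity)).trans (le_of_eq ?_)
    ring
  have h3 : 2 * |A| * B ≤ A ^ 2 / 20 + 20 * B ^ 2 := by
    have := sq_nonneg (|A| - 20 * B)
    have e3 : |A| ^ 2 = A ^ 2 := sq_abs A
    nlinarith
  have h4 : B ^ 2 ≤ 8192 * n ^ 4 * (ζ z ^ 8 * g z ^ 2) + 8192 * n ^ 4 * (δ * g z ^ 2) := by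
    have e4 : B ^ 2 = 4 * n ^ 4 * (wu z ^ 2 * (ζ z ^ 4 * (ζ z + 4 * δ) ^ 4)) * g z ^ 2 := by
      rw [hB]
      have : |g z| ^ 2 = g z ^ 2 := sq_abs _
      linear_combination (2 * n ^ 2 * (wu z * ζ z ^ 2 * (ζ z + 4 * δ) ^ 2)) ^ 2 * this
    have e5 : ζ z ^ 4 * (ζ z + 4 * δ) ^ 4 ≤ 2048 * (ζ z ^ 8 + δ) := by
      have h5 := mul_le_mul_of_nonneg_left (four_pow (ζ z) (4 * δ)) (by positivity : 0 ≤ ζ z ^ 4)
      have h6 : ζ z ^ 4 ≤ 1 := pow_le_one₀ h0 h1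
      have h7 : δ ^ 4 ≤ δ := pow_le_of_le_one hδ0 hδ (by norm_num)
      have h8 : ζ z ^ 4 * δ ^ 4 ≤ 1 * δ := mul_le_mul h6 h7 (by positivity) zero_le_one
      have h9 : 0 ≤ ζ z ^ 8 := by positivity
      nlinarith
    have e6 : wu z ^ 2 * (ζ z ^ 4 * (ζ z + 4 * δ) ^ 4) ≤ 1 * (2048 * (ζ z ^ 8 + δ)) :=
      mul_le_mul (pow_le_one₀ hw.le hw1) e5 (by positivity) zero_le_one
    have e7 := mul_le_mul_of_nonneg_right (mul_le_mul_of_nonneg_left e6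
      (by positivity : 0 ≤ 4 * (n : ℝ) ^ 4)) (sq_nonneg (g z))
    rw [e4]
    refine e7.trans (le_of_eq ?_)
    ring
  have h5 := (abs_le.1 (h2.trans h3)).1
  have h6 : A ^ 2 ≤ 2 * (A + N) ^ 2 + 2 * N ^ 2 := by nlinarith [sq_nonneg (A + 2 * N)]
  unfold c4
  nlinarith

/-- A constant. -/
def c5 (n : ℕ) : ℝ := 44 * c3 n ^ 2 + 60000 * n ^ 5

theorem psi_sq (hζ : Zt δ ζ) (hδ0 : 0 ≤ δ) (hδ : δ ≤ 1) {g : VV n → ℝ} (hg : SU g) {z : VV n}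
    (hz : z ∈ Un n) : psi ζ z ^ 2 * ∑ k, Ax k g z ^ 2 ≤
      2 * ∑ k, Ax k (fun z => psi ζ z * g z) z ^ 2 + 64 * n * (ζ z ^ 8 * g z ^ 2 + δ * g z ^ 2) := by
  have hw := wu_pos hz
  have hw1 := wu_le hz
  have h0 := hζ.nn z
  have h1 := hζ.le z
  have h : ∀ k, psi ζ z ^ 2 * Ax k g z ^ 2 ≤ 2 * Ax k (fun z => psi ζ z * g z) z ^ 2 +
      64 * (ζ z ^ 8 * g z ^ 2 + δ * g z ^ 2) := by
    intro k
    rw [Ax_mul (su_psi hζ) hg k hz]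
    have h2 := abs_Axpsi hζ k hz
    have h3 : Ax k (psi ζ) z ^ 2 ≤ 32 * (ζ z ^ 8 + δ) := by
      have e : Ax k (psi ζ) z ^ 2 = |Ax k (psi ζ) z| ^ 2 := (sq_abs _).symm
      rw [e]
      refine (pow_le_pow_left₀ (abs_nonneg _) h2 2).trans ?_
      have e2 : (wu z * ζ z ^ 3 * (ζ z + 4 * δ)) ^ 2 = wu z ^ 2 * (ζ z ^ 6 * (ζ z + 4 * δ) ^ 2) := by
        ring
      rw [e2]
      have e3 : ζ z ^ 6 * (ζ z + 4 * δ) ^ 2 ≤ 32 * (ζ z ^ 8 + δ) := by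
        have h5 : (ζ z + 4 * δ) ^ 2 ≤ 2 * ζ z ^ 2 + 32 * δ ^ 2 := by
          nlinarith [sq_nonneg (ζ z - 4 * δ)]
        have h6 := mul_le_mul_of_nonneg_left h5 (by positivity : 0 ≤ ζ z ^ 6)
        have h7 : ζ z ^ 6 ≤ 1 := pow_le_one₀ h0 h1
        have h8 : δ ^ 2 ≤ δ := pow_le_of_le_one hδ0 hδ (by norm_num)
        have h9 : ζ z ^ 6 * δ ^ 2 ≤ 1 * δ := mul_le_mul h7 h8 (by positivity) zero_le_one
        have h10 : 0 ≤ ζ z ^ 8 := by positivity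
        nlinarith
      calc _ ≤ 1 * (32 * (ζ z ^ 8 + δ)) :=
            mul_le_mul (pow_le_one₀ hw.le hw1) e3 (by positivity) zero_le_one
        _ = _ := one_mul _
    have h4 := mul_le_mul_of_nonneg_right h3 (sq_nonneg (g z))
    have h5 : psi ζ z ^ 2 * Ax k g z ^ 2 ≤ 2 * (Ax k (psi ζ) z * g z + psi ζ z * Ax k g z) ^ 2 +
        2 * (Ax k (psi ζ) z ^ 2 * g z ^ 2) := by
      nlinarith [sq_nonneg (2 * (Ax k (psi ζ) z * g z) + psi ζ z * Ax k g z)]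
    linarith
  rw [Finset.mul_sum, Finset.mul_sum]
  refine (Finset.sum_le_sum fun k _ => h k).trans (le_of_eq ?_)
  rw [Finset.sum_add_distrib]
  simp only [Finset.sum_const, Finset.card_univ, Fintype.card_fin, nsmul_eq_mul]
  ring

theorem pt2a (hn : 3 ≤ n) (hs : TS n K ε s) (hε : ε ≤ 1 / (96 * (n : ℝ) ^ 4)) (hζ : Zt δ ζ)
    (hδ0 : 0 ≤ δ) (hδ : δ ≤ 1) (τ : ℝ) (g : VV n → ℝ) {z : VV n} (hz : z ∈ Un n) :
    (2 * τ * Gm s uu (psi ζ) z * g z) ^ 2 ≤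
      4.31 * τ ^ 2 * (ζ z ^ 8 * g z ^ 2) + 10496 * n ^ 4 * τ ^ 2 * (δ * g z ^ 2) := by
  have h0 := hζ.nn z
  have h1 := hζ.le z
  have z8 : 0 ≤ ζ z ^ 8 := by positivity
  have h2 := abs_Gupsi hn hs hε hζ hz
  have e1 : Gm s uu (psi ζ) z ^ 2 = |Gm s uu (psi ζ) z| ^ 2 := (sq_abs _).symm
  have h3 : Gm s uu (psi ζ) z ^ 2 ≤ 1.0775 * ζ z ^ 8 + 2624 * n ^ 4 * δ := by
    rw [e1]
    refine (pow_le_pow_left₀ (abs_nonneg _) h2 2).trans ?_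
    have h4 : (41 / 40 * ζ z ^ 4 + 8 * n ^ 2 * ζ z ^ 3 * δ) ^ 2 ≤
        (41 / 40) * (41 / 40 * ζ z ^ 4) ^ 2 + 41 * (8 * n ^ 2 * ζ z ^ 3 * δ) ^ 2 := by
      nlinarith [sq_nonneg (41 / 40 * ζ z ^ 4 - 40 * (8 * n ^ 2 * ζ z ^ 3 * δ))]
    refine h4.trans ?_
    have h5 : ζ z ^ 6 ≤ 1 := pow_le_one₀ h0 h1
    have h6 : δ ^ 2 ≤ δ := pow_le_of_le_one hδ0 hδ (by norm_num)
    have h7 : ζ z ^ 6 * δ ^ 2 ≤ 1 * δ := mul_le_mul h5 h6 (by positivity) zero_le_one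
    have h8 := mul_le_mul_of_nonneg_left h7 (by positivity : 0 ≤ 2624 * (n : ℝ) ^ 4)
    have e2 : (41 / 40) * (41 / 40 * ζ z ^ 4) ^ 2 + 41 * (8 * n ^ 2 * ζ z ^ 3 * δ) ^ 2 =
        (41 / 40) ^ 3 * ζ z ^ 8 + 2624 * n ^ 4 * (ζ z ^ 6 * δ ^ 2) := by ring
    rw [e2]
    have h9 : ((41 : ℝ) / 40) ^ 3 ≤ 1.0775 := by norm_num
    have h10 := mul_le_mul_of_nonneg_right h9 z8
    linarith
  have h4 := mul_le_mul_of_nonneg_left h3 (by positivity : 0 ≤ 4 * τ ^ 2 * g z ^ 2)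
  have e3 : (2 * τ * Gm s uu (psi ζ) z * g z) ^ 2 =
    4 * τ ^ 2 * g z ^ 2 * Gm s uu (psi ζ) z ^ 2 := by ring
  rw [e3]
  refine h4.trans (le_of_eq ?_)
  ring

theorem pt2b (hs : TS n K ε s) (hε1 : ε ≤ 1) (hζ : Zt δ ζ)
    (hδ0 : 0 ≤ δ) (hδ : δ ≤ 1) (g : VV n → ℝ) {z : VV n} (hz : z ∈ Un n) :
    (L0 s (psi ζ) z * g z) ^ 2 ≤ 2 * c3 n ^ 2 * (ζ z ^ 8 * g z ^ 2 + δ * g z ^ 2) := by
  have h2 := abs_L0psi hs hε1 hζ hδ0 hδ hz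
  have e1 : L0 s (psi ζ) z ^ 2 = |L0 s (psi ζ) z| ^ 2 := (sq_abs _).symm
  have h3 : L0 s (psi ζ) z ^ 2 ≤ 2 * c3 n ^ 2 * (ζ z ^ 8 + δ) := by
    rw [e1]
    refine (pow_le_pow_left₀ (abs_nonneg _) h2 2).trans ?_
    have h4 : (ζ z ^ 4 + δ) ^ 2 ≤ 2 * (ζ z ^ 8 + δ) := by
      have h6 : δ ^ 2 ≤ δ := pow_le_of_le_one hδ0 hδ (by norm_num)
      nlinarith [sq_nonneg (ζ z ^ 4 - δ)]
    rw [mul_pow]
    have := mul_le_mul_of_nonneg_left h4 (sq_nonneg (c3 n))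
    linarith
  have h4 := mul_le_mul_of_nonneg_right h3 (sq_nonneg (g z))
  rw [mul_pow]
  linarith

theorem pt2c (hs : TS n K ε s) (hε1 : ε ≤ 1) (hζ : Zt δ ζ)
    (hδ0 : 0 ≤ δ) (hδ : δ ≤ 1) (g : VV n → ℝ) {z : VV n} (hz : z ∈ Un n) :
    (2 * Gm s (psi ζ) g z) ^ 2 ≤ 32 * n ^ 4 * (psi ζ z ^ 2 * ∑ k, Ax k g z ^ 2) +
      512 * n ^ 4 * (δ * (om ζ z * ∑ k, Ax k g z ^ 2)) := by
  have hw := wu_pos hz
  have h0 := hζ.nn z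
  have h1 := hζ.le z
  set A := ∑ k, Ax k g z ^ 2 with hA
  have hA0 : 0 ≤ A := Finset.sum_nonneg fun _ _ => sq_nonneg _
  have h2 := abs_Gm hs hε1 (fun i => abs_Axpsi hζ i hz) (fun i => abs_Ax_le g z i)
  rw [← hA] at h2
  have e1 : Gm s (psi ζ) g z ^ 2 = |Gm s (psi ζ) g z| ^ 2 := (sq_abs _).symm
  have h3 : Gm s (psi ζ) g z ^ 2 ≤ 4 * n ^ 4 * (wu z ^ 2 * (ζ z ^ 6 * (ζ z + 4 * δ) ^ 2)) * A := by
    rw [e1]
    refine (pow_le_pow_left₀ (abs_nonneg _) h2 2).trans (le_of_eq ?_)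
    have hA2 : √A ^ 2 = A := Real.sq_sqrt hA0
    linear_combination 4 * (n : ℝ) ^ 4 * (wu z ^ 2 * (ζ z ^ 6 * (ζ z + 4 * δ) ^ 2)) * hA2
  have h5 : (ζ z + 4 * δ) ^ 2 ≤ 2 * ζ z ^ 2 + 32 * δ := by
    have h6 : δ ^ 2 ≤ δ := pow_le_of_le_one hδ0 hδ (by norm_num)
    nlinarith [sq_nonneg (ζ z - 4 * δ)]
  have h6 := mul_le_mul_of_nonneg_left h5
    (by positivity : 0 ≤ 16 * (n : ℝ) ^ 4 * wu z ^ 2 * ζ z ^ 6 * A)
  have e2 : psi ζ z = wu z * ζ z ^ 4 := rfl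
  have e3 : om ζ z = wu z ^ 2 * ζ z ^ 6 := rfl
  rw [e2, e3]
  linear_combination 4 * h3 + h6

theorem pt2 (hn : 3 ≤ n) (hs : TS n K ε s) (hε : ε ≤ 1 / (96 * (n : ℝ) ^ 4)) (hζ : Zt δ ζ)
    (hδ0 : 0 ≤ δ) (hδ : δ ≤ 1) (τ : ℝ) {g : VV n → ℝ} (hg : SU g) {z : VV n} (hz : z ∈ Un n) :
    Nn s τ (psi ζ) g z ^ 2 ≤ (5 * τ ^ 2 + c5 n) * (ζ z ^ 8 * g z ^ 2) +
      c5 n * (1 + τ ^ 2) * δ * g z ^ 2 +
      c5 n * (uu z * ∑ k, Ax k (fun z => psi ζ z * g z) z ^ 2) +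
      c5 n * δ * (om ζ z * ∑ k, Ax k g z ^ 2) := by
  have hnR : (3 : ℝ) ≤ n := by exact_mod_cast hn
  have hε1 : ε ≤ 1 := hε.trans (eps_le hn)
  have hu := uu_ge hz
  have h0 := hζ.nn z
  have b1 := pt2a hn hs hε hζ hδ0 hδ τ g hz
  have b2 := pt2b hs hε1 hζ hδ0 hδ g hz
  have b3 := pt2c hs hε1 hζ hδ0 hδ g hz
  have b4 := psi_sq hζ hδ0 hδ hg hz
  have hom : 0 ≤ om ζ z := by have := wu_pos hz; unfold om; positivity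
  have hAF0 : 0 ≤ ∑ k, Ax k (fun z => psi ζ z * g z) z ^ 2 :=
    Finset.sum_nonneg fun _ _ => sq_nonneg _
  have hAG0 : 0 ≤ ∑ k, Ax k g z ^ 2 := Finset.sum_nonneg fun _ _ => sq_nonneg _
  have e0 : Nn s τ (psi ζ) g z ^ 2 ≤ 11 / 10 * (2 * τ * Gm s uu (psi ζ) z * g z) ^ 2 +
      22 * (L0 s (psi ζ) z * g z) ^ 2 + 22 * (2 * Gm s (psi ζ) g z) ^ 2 := by
    unfold Nn
    generalize 2 * τ * Gm s uu (psi ζ) z * g z = X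
    generalize L0 s (psi ζ) z * g z = Y
    generalize 2 * Gm s (psi ζ) g z = Z
    nlinarith [sq_nonneg (X + 10 * (Z + Y)), sq_nonneg (Z - Y)]
  generalize (2 * τ * Gm s uu (psi ζ) z * g z) ^ 2 = X at *
  generalize (L0 s (psi ζ) z * g z) ^ 2 = Y at *
  generalize (2 * Gm s (psi ζ) g z) ^ 2 = Z at *
  generalize Nn s τ (psi ζ) g z ^ 2 = N at *
  generalize ∑ k, Ax k (fun z => psi ζ z * g z) z ^ 2 = AF at *
  generalize ∑ k, Ax k g z ^ 2 = AG at *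
  generalize om ζ z = O at *
  generalize psi ζ z ^ 2 = PP at *
  have hg2 := sq_nonneg (g z)
  have h8 : 0 ≤ ζ z ^ 8 := by positivity
  generalize ζ z ^ 8 = Z8 at *
  generalize g z ^ 2 = G at *
  have hu0 := uu_pos hz
  generalize uu z = u at *
  have h5 : AF ≤ u * AF := by nlinarith
  have n45 : (n : ℝ) ^ 4 ≤ n ^ 5 := pow_le_pow_right₀ (by linarith) (by norm_num)
  have p3 : 0 ≤ τ ^ 2 * (δ * G) := by positivity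
  have p4 : 0 ≤ u * AF := by positivity
  have p5 : 0 ≤ δ * (O * AG) := by positivity
  have p6 : 0 ≤ τ ^ 2 * (Z8 * G) := by positivity
  have q3 := mul_le_mul_of_nonneg_right n45 p3
  have q4 := mul_le_mul_of_nonneg_right n45 p4
  have q5 := mul_le_mul_of_nonneg_right n45 p5
  have h5' := mul_le_mul_of_nonneg_left h5 (by positivity : 0 ≤ (n : ℝ) ^ 4)
  have r1 : 0 ≤ c3 n ^ 2 * (u * AF) := by positivity
  have r2 : 0 ≤ c3 n ^ 2 * (δ * (O * AG)) := by positivity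
  have r3 : 0 ≤ c3 n ^ 2 * (τ ^ 2 * (δ * G)) := by positivity
  have r4 : 0 ≤ (n : ℝ) ^ 5 * (Z8 * G) := by positivity
  have r5 : 0 ≤ (n : ℝ) ^ 5 * (δ * G) := by positivity
  have r6 : 0 ≤ (n : ℝ) ^ 5 * (u * AF) := by positivity
  have r7 : 0 ≤ (n : ℝ) ^ 5 * (δ * (O * AG)) := by positivity
  have r8 : 0 ≤ (n : ℝ) ^ 5 * (τ ^ 2 * (δ * G)) := by positivity
  have b4' := mul_le_mul_of_nonneg_left b4 (by positivity : 0 ≤ 704 * (n : ℝ) ^ 4)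
  unfold c5
  linear_combination e0 + 1.1 * b1 + 22 * b2 + 22 * b3 + b4' + 0.259 * p6 + 14944 * r4 +
    14944 * r5 + 44 * r3 + 11545.6 * q3 + 48454.4 * r8 + 1408 * h5' + 1408 * q4 + 58592 * r6 +
    44 * r1 + 11264 * q5 + 48736 * r7 + 44 * r2

end Vale.Agent.P088.R2.H961
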