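import Vale.Agent.P088.R2.H961.Fac2

/-!
# P088, row TOP: the localised inequality in one factor, integrated
-/

open MeasureTheory Set Filter
open scoped ContDiff Matrix Topology

noncomputable section

namespace Vale.Agent.P088.R2.H961

open Vale.Agent.P088.LR Vale.Agent.P088.HY

variable {n K : ℕ} {ε : ℝ} {s : MF n} {δ : ℝ} {ζ : VV n → ℝ}

/-- A constant. -/
def c6 (n : ℕ) : ℝ := 4 * (4 + 256 * n ^ 4 + 10 * (n + 2) ^ 4 + 16 * n ^ 2)

theorem tu_Nn (hs : TS n K ε s) (τ : ℝ) {ψ g : VV n → ℝ} (hψ : SU ψ) (hg : TU g) :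
    TU (Nn s τ ψ g) := by
  have h : TU fun z => 2 * Gm s ψ g z + L0 s ψ z * g z - 2 * τ * Gm s uu ψ z * g z :=
    (((tu_Gm_right hs hψ hg).mul_left contDiffOn_const).add (hg.mul_left (su_L0 hs hψ))).sub
      (hg.mul_left (contDiffOn_const.mul (su_Gm hs su_uu hψ)))
  exact h

theorem iv_pt (hn : 3 ≤ n) (hs : TS n K ε s) (hε : ε ≤ 1 / (96 * (n : ℝ) ^ 4)) (hζ : Zt δ ζ)
    (hδ : δ ≤ 1) {τ : ℝ} (hτ : 0 ≤ τ) {g : VV n → ℝ} (hg : SU g) {z : VV n} (hz : z ∈ Un n) :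
    -(g z * Gm s g (om ζ) z) - om ζ z * g z * Px s (-τ) g z + vp s z.1 * om ζ z * g z ^ 2 +
      τ * (g z ^ 2 * Gm s uu (om ζ) z) + τ ^ 2 * (Fxs s z * om ζ z * g z ^ 2) ≤
    1 / 4 * (om ζ z * ∑ k, Ax k g z ^ 2) + Px s (-τ) (fun z => psi ζ z * g z) z ^ 2 +
      Nn s τ (psi ζ) g z ^ 2 +
      (4 + 256 * n ^ 4 + 10 * (n + 2) ^ 4 + 16 * n ^ 2) * (1 + τ ^ 2) * g z ^ 2 := by
  have hnR : (3 : ℝ) ≤ n := by exact_mod_cast hn
  have hε1 : ε ≤ 1 := hε.trans (eps_le hn)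
  have hw := wu_pos hz
  have hw1 := wu_le hz
  have hwu := wu_mul hz
  have h0 := hζ.nn z
  have h1 := hζ.le z
  have hu := uu_ge hz
  have hg2 := sq_nonneg (g z)
  have hom : om ζ z = wu z ^ 2 * ζ z ^ 6 := rfl
  have hps : psi ζ z = wu z * ζ z ^ 4 := rfl
  have hom0 : 0 ≤ om ζ z := by rw [hom]; positivity
  have hom1 : om ζ z ≤ 1 := by
    rw [hom]
    exact mul_le_one₀ (pow_le_one₀ hw.le hw1) (by positivity) (pow_le_one₀ h0 h1)
  set A := ∑ k, Ax k g z ^ 2 with hA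
  have hA0 : 0 ≤ A := Finset.sum_nonneg fun _ _ => sq_nonneg _
  -- first term
  have t1 : -(g z * Gm s g (om ζ) z) ≤ 1 / 4 * (om ζ z * A) + 256 * n ^ 4 * g z ^ 2 := by
    have h2 := abs_Gm hs hε1 (fun i => abs_Ax_le g z i) (fun i => abs_Axom hζ hδ i hz)
    rw [← hA] at h2
    have h3 : |g z * Gm s g (om ζ) z| ≤ |g z| * (2 * n ^ 2 * (√A * (8 * (wu z ^ 2 * ζ z ^ 5)))) := by
      rw [abs_mul]; exact mul_le_mul_of_nonneg_left h2 (abs_nonneg _)
    have hA2 : √A ^ 2 = A := Real.sq_sqrt hA0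
    have hf2 : |g z| ^ 2 = g z ^ 2 := sq_abs _
    have h4 := sq_nonneg (1 / 2 * (wu z * ζ z ^ 3 * √A) - 16 * n ^ 2 * (wu z * ζ z ^ 2 * |g z|))
    have e : (1 / 2 * (wu z * ζ z ^ 3 * √A) - 16 * n ^ 2 * (wu z * ζ z ^ 2 * |g z|)) ^ 2 =
        1 / 4 * (wu z ^ 2 * ζ z ^ 6 * √A ^ 2) + 256 * n ^ 4 * (wu z ^ 2 * ζ z ^ 4 * |g z| ^ 2) -
        |g z| * (2 * n ^ 2 * (√A * (8 * (wu z ^ 2 * ζ z ^ 5)))) := by ring
    rw [e, hA2, hf2, ← hom] at h4
    have h5 : wu z ^ 2 * ζ z ^ 4 * g z ^ 2 ≤ 1 * g z ^ 2 := by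
      apply mul_le_mul_of_nonneg_right _ hg2
      exact mul_le_one₀ (pow_le_one₀ hw.le hw1) (by positivity) (pow_le_one₀ h0 h1)
    have h6 := mul_le_mul_of_nonneg_left h5 (by positivity : 0 ≤ 256 * (n : ℝ) ^ 4)
    have h7 := neg_abs_le (g z * Gm s g (om ζ) z)
    linarith
  have t2 : -(om ζ z * g z * Px s (-τ) g z) ≤ Px s (-τ) (fun z => psi ζ z * g z) z ^ 2 +
      Nn s τ (psi ζ) g z ^ 2 + g z ^ 2 := by
    rw [Px_mul hs τ (su_psi hζ) hg hz]
    generalize Nn s τ (psi ζ) g z = N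
    generalize Px s (-τ) g z = Q
    have e1 : om ζ z * g z * Q = (psi ζ z * Q) * (wu z * ζ z ^ 2 * g z) := by
      rw [hom, hps]; ring
    rw [e1]
    have h2 : (wu z * ζ z ^ 2 * g z) ^ 2 ≤ 1 * g z ^ 2 := by
      rw [mul_pow]
      apply mul_le_mul_of_nonneg_right _ hg2
      have h3 : wu z * ζ z ^ 2 ≤ 1 := mul_le_one₀ hw1 (by positivity) (pow_le_one₀ h0 h1)
      exact pow_le_one₀ (by positivity) h3
    generalize psi ζ z * Q = X at *
    generalize wu z * ζ z ^ 2 * g z = Y at *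
    nlinarith [sq_nonneg (X + Y), sq_nonneg (X + 2 * N), sq_nonneg (X + N)]
  have t3 : vp s z.1 * om ζ z * g z ^ 2 ≤ 10 * (n + 2) ^ 4 * g z ^ 2 := by
    apply mul_le_mul_of_nonneg_right _ hg2
    have h2 := bm (abs_vp hs hε1 hz) ((abs_of_nonneg hom0).le.trans hom1)
    rw [mul_one] at h2
    exact (le_abs_self _).trans h2
  have t4 : τ * (g z ^ 2 * Gm s uu (om ζ) z) ≤ 16 * n ^ 2 * τ * g z ^ 2 := by
    have h2 := abs_Gm hs hε1 (f := uu) (fun i => abs_al hz i) (fun i => abs_Axom hζ hδ i hz)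
    have h3 : 2 * n ^ 2 * (uu z * (8 * (wu z ^ 2 * ζ z ^ 5))) ≤ 16 * (n : ℝ) ^ 2 := by
      have h4 : uu z * (8 * (wu z ^ 2 * ζ z ^ 5)) = 8 * (wu z * ζ z ^ 5) := by
        linear_combination 8 * wu z * ζ z ^ 5 * hwu
      have h5 : wu z * ζ z ^ 5 ≤ 1 := mul_le_one₀ hw1 (by positivity) (pow_le_one₀ h0 h1)
      rw [h4]
      have := mul_le_mul_of_nonneg_left h5 (by positivity : 0 ≤ 16 * (n : ℝ) ^ 2)
      linarith
    have h4 := (le_abs_self _).trans (h2.trans h3)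
    have h5 := mul_le_mul_of_nonneg_left h4 (mul_nonneg hτ hg2)
    linarith
  have t5 : τ ^ 2 * (Fxs s z * om ζ z * g z ^ 2) ≤ 2 * τ ^ 2 * g z ^ 2 := by
    have h2 := Gm_self hs (by omega) uu z
    have h3 : ∑ k, Ax k uu z ^ 2 = uu z ^ 2 - 1 := sum_al hz
    rw [h3] at h2
    have h4 : 0 ≤ uu z ^ 2 - 1 := by nlinarith
    have h5 : (n : ℝ) ^ 2 * ε ≤ 1 := by
      rw [le_div_iff₀ (by positivity)] at hε
      have h9 : (9 : ℝ) ≤ n ^ 2 := by nlinarith
      have hε0 := ts_nonneg hs ⟨0, by omega⟩ ⟨0, by omega⟩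
      have h10 : 0 ≤ (n : ℝ) ^ 2 * ε := by positivity
      nlinarith
    have h6 : Fxs s z ≤ 2 * uu z ^ 2 := by
      have h7 := (abs_le.1 h2).2
      have h8 := mul_le_mul_of_nonneg_right h5 h4
      have e : Fxs s z = Gm s uu uu z := rfl
      rw [e]
      linarith
    have h7 : Fxs s z * om ζ z ≤ 2 := by
      have h8 := mul_le_mul_of_nonneg_right h6 hom0
      have h9 : 2 * uu z ^ 2 * om ζ z = 2 * ζ z ^ 6 := by
        rw [hom]
        have : wu z ^ 2 * uu z ^ 2 = 1 := by rw [← mul_pow, hwu, one_pow]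
        linear_combination 2 * ζ z ^ 6 * this
      have h10 : ζ z ^ 6 ≤ 1 := pow_le_one₀ h0 h1
      linarith
    have h8 := mul_le_mul_of_nonneg_right h7 (mul_nonneg (sq_nonneg τ) hg2)
    linarith
  have hτ2 : τ ≤ 1 + τ ^ 2 := by nlinarith [sq_nonneg (τ - 1)]
  have k1 := mul_le_mul_of_nonneg_left hτ2 (by positivity : 0 ≤ 16 * (n : ℝ) ^ 2 * g z ^ 2)
  have k2 : 0 ≤ τ ^ 2 * g z ^ 2 * n ^ 4 := by positivity
  have k3 : 0 ≤ τ ^ 2 * g z ^ 2 * (n + 2) ^ 4 := by positivity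
  have k4 : 0 ≤ τ ^ 2 * g z ^ 2 := by positivity
  linear_combination t1 + t2 + t3 + t4 + t5 + k1 + 256 * k2 + 10 * k3 + 2 * k4 + 3 * hg2

theorem iv (hn : 3 ≤ n) (hs : TS n K ε s) (hε : ε ≤ 1 / (96 * (n : ℝ) ^ 4)) (hζ : Zt δ ζ)
    (hδ : δ ≤ 1) {τ : ℝ} (hτ : 0 ≤ τ) {g : VV n → ℝ} (hg : TU g) :
    In (fun z => om ζ z * ∑ k, Ax k g z ^ 2) ≤
      4 * In (fun z => Px s (-τ) (fun z => psi ζ z * g z) z ^ 2) +
      4 * In (fun z => Nn s τ (psi ζ) g z ^ 2) + c6 n * (1 + τ ^ 2) * In (fun z => g z ^ 2) := by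
  have hnR : (3 : ℝ) ≤ n := by exact_mod_cast hn
  have sg := hg.su
  have so := su_om hζ
  have sp := su_psi hζ
  have t1 : TU fun z => om ζ z * g z := hg.mul_left so
  have e1 := In_L0 hs sg t1
  have e2 := In_fK hs hg so
  have u0 : TU fun z => g z ^ 2 := hg.pow two_ne_zero
  have u1 : TU fun z => g z * Gm s g (om ζ) z := hg.mul_right (su_Gm hs sg so)
  have u2 : TU fun z => om ζ z * g z * Px s (-τ) g z := (tu_Px hs (-τ) hg).mul_left (so.mul sg)
  have u3 : TU fun z => vp s z.1 * om ζ z * g z ^ 2 := u0.mul_left ((su_vp hs).mul so)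
  have u4 : TU fun z => g z ^ 2 * Gm s uu (om ζ) z := u0.mul_right (su_Gm hs su_uu so)
  have u5 : TU fun z => Fxs s z * om ζ z * g z ^ 2 := u0.mul_left ((su_Fxs hs).mul so)
  have u6 : TU fun z => om ζ z * g z * Kxs s g z := (tu_Kxs hs hg).mul_left (so.mul sg)
  have u7 : TU fun z => om ζ z * Gm s g g z := (tu_Gm_right hs sg hg).mul_left so
  have u8 : TU fun z => L0 s g z * (om ζ z * g z) := t1.mul_left (su_L0 hs sg)
  have uA : TU fun z => om ζ z * ∑ k, Ax k g z ^ 2 :=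
    (TU.sum _ fun k _ => (hg.ax k).pow two_ne_zero).mul_left so
  have tf : TU fun z => psi ζ z * g z := hg.mul_left sp
  have uQ : TU fun z => Px s (-τ) (fun z => psi ζ z * g z) z ^ 2 := (tu_Px hs (-τ) tf).pow two_ne_zero
  have uN : TU fun z => Nn s τ (psi ζ) g z ^ 2 := (tu_Nn hs τ sp hg).pow two_ne_zero
  -- the identity
  have e3 : In (fun z => om ζ z * Gm s g g z + g z * Gm s g (om ζ) z) =
      In (Gm s g fun z => om ζ z * g z) :=
    In_congr fun z hz => (Gm_mul s g so sg hz).symm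
  have e4 : In (fun z => L0 s g z * (om ζ z * g z)) =
      In (fun z => om ζ z * g z * Px s (-τ) g z - vp s z.1 * om ζ z * g z ^ 2 +
        τ * (om ζ z * g z * Kxs s g z) - τ ^ 2 * (Fxs s z * om ζ z * g z ^ 2)) := by
    refine In_congr fun z _ => ?_
    rw [Px_eq]; ring
  rw [In_add u7 u1] at e3
  rw [In_sub (((u2.sub u3).add (u6.mul_left contDiffOn_const))) (u5.mul_left contDiffOn_const),
    In_add (u2.sub u3) (u6.mul_left contDiffOn_const), In_sub u2 u3, In_cmul, In_cmul, e2] at e4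
  have e5 : In (fun z => -(g z * Gm s g (om ζ) z) - om ζ z * g z * Px s (-τ) g z +
      vp s z.1 * om ζ z * g z ^ 2 +
      τ * (g z ^ 2 * Gm s uu (om ζ) z) + τ ^ 2 * (Fxs s z * om ζ z * g z ^ 2)) =
      In (fun z => om ζ z * Gm s g g z) := by
    rw [In_add (((u1.neg.sub u2).add u3).add (u4.mul_left contDiffOn_const))
        (u5.mul_left contDiffOn_const), In_add ((u1.neg.sub u2).add u3)
        (u4.mul_left contDiffOn_const), In_add (u1.neg.sub u2) u3, In_sub u1.neg u2, In_neg,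
        In_cmul, In_cmul]
    linarith
  have key := In_mono ((((u1.neg.sub u2).add u3).add (u4.mul_left contDiffOn_const)).add
      (u5.mul_left contDiffOn_const)) ((((uA.mul_left contDiffOn_const).add uQ).add uN).add
      (u0.mul_left contDiffOn_const)) fun z hz => iv_pt hn hs hε hζ hδ hτ sg hz
  rw [e5, In_add (((uA.mul_left contDiffOn_const).add uQ).add uN)
      (u0.mul_left contDiffOn_const), In_add ((uA.mul_left contDiffOn_const).add uQ) uN,
      In_add (uA.mul_left contDiffOn_const) uQ, In_cmul, In_cmul] at key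
  have e6 : 1 / 2 * In (fun z => om ζ z * ∑ k, Ax k g z ^ 2) ≤
      In (fun z => om ζ z * Gm s g g z) := by
    rw [← In_cmul]
    refine In_mono (uA.mul_left contDiffOn_const) u7 fun z hz => ?_
    have h0 := hζ.nn z
    have hom0 : 0 ≤ om ζ z := by have := wu_pos hz; unfold om; positivity
    have h2 := (abs_le.1 (Gm_self hs (by omega) g z)).1
    have hA0 : 0 ≤ ∑ k, Ax k g z ^ 2 := Finset.sum_nonneg fun _ _ => sq_nonneg _
    have h5 : (n : ℝ) ^ 2 * ε ≤ 1 / 2 := by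
      rw [le_div_iff₀ (by positivity)] at hε
      have h9 : (9 : ℝ) ≤ n ^ 2 := by nlinarith
      have hε0 := ts_nonneg hs ⟨0, by omega⟩ ⟨0, by omega⟩
      have h10 : 0 ≤ (n : ℝ) ^ 2 * ε := by positivity
      nlinarith
    have h6 := mul_le_mul_of_nonneg_right h5 hA0
    have h7 : 1 / 2 * ∑ k, Ax k g z ^ 2 ≤ Gm s g g z := by linarith
    have h8 := mul_le_mul_of_nonneg_left h7 hom0
    linarith
  unfold c6
  linarith

/-- The common constant. -/
def c7 (n : ℕ) : ℝ := 1 + c1 n ^ 2 + c2 n + c4 n + c5 n + c6 n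

theorem arith {q N W M I A δ τ C : ℝ} (hC : 1 ≤ C) (hδ0 : 0 ≤ δ) (hδ : δ ≤ 1 / (80 * C))
    (hτ : 5 * C ≤ τ) (hM : 0 ≤ M) (hI : 0 ≤ I) (hA : 0 ≤ A) (hq0 : 0 ≤ q) (hN0 : 0 ≤ N)
    (hq : τ * A + 14 * τ ^ 2 * M ≤ q)
    (hN : N ≤ (5 * τ ^ 2 + C) * M + C * (1 + τ ^ 2) * δ * I + C * A + C * δ * W)
    (hW : W ≤ 4 * q + 4 * N + C * (1 + τ ^ 2) * I) :
    τ ^ 2 * M - 4 * C ^ 2 * (1 + τ ^ 2) * δ * I ≤
      9 / 10 * q - 11 / 10 * N - C * M - C * δ * I := by
  have hC0 : 0 < C := by linarith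
  have hτ0 : 0 < τ := by linarith
  have hδC : C * δ ≤ 1 / 80 := by
    have := mul_le_mul_of_nonneg_left hδ hC0.le
    have e : C * (1 / (80 * C)) = 1 / 80 := by field_simp
    linarith
  have hδC0 : 0 ≤ C * δ := by positivity
  have h1 : C * δ * W ≤ (q + N) / 20 + C ^ 2 * (1 + τ ^ 2) * δ * I := by
    have h2 := mul_le_mul_of_nonneg_left hW hδC0
    have h3 := mul_le_mul_of_nonneg_right hδC (by positivity : 0 ≤ 4 * q + 4 * N)
    linarith
  have h2 : 19 / 20 * N ≤ (5 * τ ^ 2 + C) * M + (C + C ^ 2) * (1 + τ ^ 2) * δ * I + C * A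
      + q / 20 := by linarith
  have h3 : C * (1 + τ ^ 2) * δ * I ≤ C ^ 2 * (1 + τ ^ 2) * δ * I := by
    have : C ≤ C ^ 2 := by nlinarith
    have := mul_le_mul_of_nonneg_right this (by positivity : 0 ≤ (1 + τ ^ 2) * δ * I)
    linarith
  have h4 : C * δ * I ≤ C ^ 2 * (1 + τ ^ 2) * δ * I := by
    refine le_trans ?_ h3
    have : 0 ≤ C * τ ^ 2 * δ * I := by positivity
    linarith
  have h5 : C * M ≤ τ ^ 2 * M := by
    apply mul_le_mul_of_nonneg_right _ hM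
    nlinarith
  have h6 : C * A ≤ τ / 5 * A := by
    apply mul_le_mul_of_nonneg_right _ hA
    linarith
  have h7 : 0 ≤ τ ^ 2 * M := by positivity
  have h8 : 0 ≤ τ * A := by positivity
  have h9 : 0 ≤ C ^ 2 * (1 + τ ^ 2) * δ * I := by positivity
  linear_combination (22 / 19) * h2 + (9 / 10 - 11 / 190) * hq + (22 / 19) * h3 + h4 +
    (22 / 19 + 1) * h5 + (22 / 19) * h6 + (2 + 16 / 19) * h7 + (1 / 2 + 21 / 190) * h8 +
    (1 / 2 + 7 / 38) * h9

/-- The localised inequality in one factor. -/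
theorem fac (hn : 3 ≤ n) (hs : TS n K ε s) (hK : 1 ≤ K) (hε : ε ≤ 1 / (96 * (n : ℝ) ^ 4))
    (hζ : Zt δ ζ) (hδ0 : 0 ≤ δ) (hδ : δ ≤ 1 / (80 * c7 n)) {τ : ℝ} (hτ : 5 * c7 n ≤ τ)
    {g : VV n → ℝ} (hg : TU g) :
    τ ^ 2 * In (fun z => ζ z ^ 8 * g z ^ 2) -
        4 * c7 n ^ 2 * (1 + τ ^ 2) * δ * In (fun z => g z ^ 2) ≤
      In (fun z => Px s τ (Px s (-τ) g) z * (psi ζ z * (psi ζ z * g z))) := by
  have hnR : (3 : ℝ) ≤ n := by exact_mod_cast hn
  have hε1 : ε ≤ 1 := hε.trans (eps_le hn)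
  have k1 : 0 ≤ c1 n ^ 2 := sq_nonneg _
  have k2 : 0 ≤ c2 n := by unfold c2; positivity
  have k3 : 0 ≤ c3 n := by unfold c3; positivity
  have k4 : 0 ≤ c4 n := by unfold c4; positivity
  have k5 : 0 ≤ c5 n := by unfold c5; positivity
  have k6 : 0 ≤ c6 n := by unfold c6; positivity
  have hC : 1 ≤ c7 n := by unfold c7; linarith
  have hC0 : 0 < c7 n := by linarith
  have hδ1 : δ ≤ 1 := by
    refine hδ.trans ?_
    rw [div_le_one (by positivity)]
    linarith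
  have hτ0 : 0 < τ := by linarith
  have hτ1 : 4 * (c1 n ^ 2 + c2 n) + 1 ≤ τ := by
    refine le_trans ?_ hτ
    unfold c7
    linarith
  have sg := hg.su
  have so := su_om hζ
  have sp := su_psi hζ
  have tf : TU fun z => psi ζ z * g z := hg.mul_left sp
  have u0 : TU fun z => g z ^ 2 := hg.pow two_ne_zero
  have uA : TU fun z => om ζ z * ∑ k, Ax k g z ^ 2 :=
    (TU.sum _ fun k _ => (hg.ax k).pow two_ne_zero).mul_left so
  have uF : TU fun z => uu z * ∑ k, Ax k (fun z => psi ζ z * g z) z ^ 2 :=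
    (TU.sum _ fun k _ => (tf.ax k).pow two_ne_zero).mul_left su_uu
  have uQ : TU fun z => Px s (-τ) (fun z => psi ζ z * g z) z ^ 2 := (tu_Px hs (-τ) tf).pow two_ne_zero
  have uN : TU fun z => Nn s τ (psi ζ) g z ^ 2 := (tu_Nn hs τ sp hg).pow two_ne_zero
  have uM : TU fun z => ζ z ^ 8 * g z ^ 2 := u0.mul_left (hζ.tu.su.pow 8)
  have uE : TU fun z => 2 * Gm s (psi ζ) (psi ζ) z * g z * Px s (-τ) g z :=
    (tu_Px hs (-τ) hg).mul_left ((contDiffOn_const.mul (su_Gm hs sp sp)).mul sg)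
  rw [ims hs τ sp hg]
  -- lower bound
  have hq := lb hn hs hK hε hτ1 tf
  have eM : In (fun z => uu z ^ 2 * (psi ζ z * g z) ^ 2) = In (fun z => ζ z ^ 8 * g z ^ 2) := by
    refine In_congr fun z hz => ?_
    have h1 := wu_mul hz
    have h2 : wu z ^ 2 * uu z ^ 2 = 1 := by rw [← mul_pow, h1, one_pow]
    unfold psi
    linear_combination ζ z ^ 8 * g z ^ 2 * h2
  rw [eM] at hq
  -- the pointwise bounds
  have p1 := In_mono (((uQ.mul_left contDiffOn_const).sub (uN.mul_left contDiffOn_const)).sub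
      (uM.mul_left contDiffOn_const) |>.sub (u0.mul_left contDiffOn_const))
      ((uQ.sub uN).add uE) fun z hz => pt1 hs hε1 hζ hδ0 hδ1 τ sg hz
  rw [In_sub (((uQ.mul_left contDiffOn_const).sub (uN.mul_left contDiffOn_const)).sub
      (uM.mul_left contDiffOn_const)) (u0.mul_left contDiffOn_const),
      In_sub ((uQ.mul_left contDiffOn_const).sub (uN.mul_left contDiffOn_const))
      (uM.mul_left contDiffOn_const), In_sub (uQ.mul_left contDiffOn_const)
      (uN.mul_left contDiffOn_const), In_cmul, In_cmul, In_cmul, In_cmul] at p1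
  have p2 := In_mono uN ((((uM.mul_left contDiffOn_const).add (u0.mul_left contDiffOn_const)).add
      (uF.mul_left contDiffOn_const)).add (uA.mul_left contDiffOn_const))
      fun z hz => pt2 hn hs hε hζ hδ0 hδ1 τ sg hz
  rw [In_add (((uM.mul_left contDiffOn_const).add (u0.mul_left contDiffOn_const)).add
      (uF.mul_left contDiffOn_const)) (uA.mul_left contDiffOn_const),
      In_add ((uM.mul_left contDiffOn_const).add (u0.mul_left contDiffOn_const))
      (uF.mul_left contDiffOn_const), In_add (uM.mul_left contDiffOn_const)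
      (u0.mul_left contDiffOn_const), In_cmul, In_cmul, In_cmul, In_cmul] at p2
  have p3 := iv hn hs hε hζ hδ1 hτ0.le hg
  have hM0 : 0 ≤ In (fun z => ζ z ^ 8 * g z ^ 2) := In_nonneg fun z _ => by
    have := hζ.nn z; positivity
  have hI0 : 0 ≤ In (fun z => g z ^ 2) := In_nonneg fun z _ => sq_nonneg _
  have hA0 : 0 ≤ In (fun z => uu z * ∑ k, Ax k (fun z => psi ζ z * g z) z ^ 2) :=
    In_nonneg fun z hz => mul_nonneg (uu_pos hz).le (Finset.sum_nonneg fun _ _ => sq_nonneg _)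
  have hW0 : 0 ≤ In (fun z => om ζ z * ∑ k, Ax k g z ^ 2) := In_nonneg fun z hz => by
    have h1 := hζ.nn z
    have h2 := wu_pos hz
    refine mul_nonneg ?_ (Finset.sum_nonneg fun _ _ => sq_nonneg _)
    unfold om; positivity
  have hq0 : 0 ≤ In (fun z => Px s (-τ) (fun z => psi ζ z * g z) z ^ 2) :=
    In_nonneg fun z _ => sq_nonneg _
  have hN0 : 0 ≤ In (fun z => Nn s τ (psi ζ) g z ^ 2) := In_nonneg fun z _ => sq_nonneg _
  refine le_trans ?_ p1
  generalize In (fun z => Px s (-τ) (fun z => psi ζ z * g z) z ^ 2) = q at *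
  generalize In (fun z => Nn s τ (psi ζ) g z ^ 2) = N at *
  generalize In (fun z => ζ z ^ 8 * g z ^ 2) = M at *
  generalize In (fun z => g z ^ 2) = I at *
  generalize In (fun z => uu z * ∑ k, Ax k (fun z => psi ζ z * g z) z ^ 2) = A at *
  generalize In (fun z => om ζ z * ∑ k, Ax k g z ^ 2) = W at *
  have l4 : c4 n ≤ c7 n := by unfold c7; linarith
  have l5 : c5 n ≤ c7 n := by unfold c7; linarith
  have l6 : c6 n ≤ c7 n := by unfold c7; linarith
  have r := arith (W := W) hC hδ0 hδ hτ hM0 hI0 hA0 hq0 hN0 hq ?_ ?_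
  · refine r.trans ?_
    have m1 := mul_le_mul_of_nonneg_right l4 hM0
    have m2 := mul_le_mul_of_nonneg_right l4 (mul_nonneg hδ0 hI0)
    linarith
  · refine p2.trans ?_
    have m1 := mul_le_mul_of_nonneg_right l5 hM0
    have m2 := mul_le_mul_of_nonneg_right l5 (by positivity : 0 ≤ (1 + τ ^ 2) * δ * I)
    have m3 := mul_le_mul_of_nonneg_right l5 hA0
    have m4 := mul_le_mul_of_nonneg_right l5 (mul_nonneg hδ0 hW0)
    linarith
  · refine p3.trans ?_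
    have m2 := mul_le_mul_of_nonneg_right l6 (by positivity : 0 ≤ (1 + τ ^ 2) * I)
    linarith

end Vale.Agent.P088.R2.H961
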