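import Vale.Agent.P088.R2.H961.Cal

/-!
# P088, row TOP: the bilinear form `Γ`, integration by parts, the commutator identities
-/

open MeasureTheory Set Filter
open scoped ContDiff Matrix Topology

noncomputable section

namespace Vale.Agent.P088.R2.H961

open Vale.Agent.P088.LR Vale.Agent.P088.HY

variable {n : ℕ}

/-! ## The integral -/

theorem tu_int {f : VV n → ℝ} (hf : TU f) : IntegrableOn (fun z => th z * f z) (Un n) := by
  have h : TU fun z => th z * f z := hf.mul_left su_th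
  exact (h.1.continuous.integrable_of_hasCompactSupport h.2.1).integrableOn

theorem In_congr {f g : VV n → ℝ} (h : ∀ z ∈ Un n, f z = g z) : In f = In g :=
  setIntegral_congr_fun isOpen_Un.measurableSet fun z hz => by
    rw [h z hz]

theorem In_add {f g : VV n → ℝ} (hf : TU f) (hg : TU g) :
    In (fun z => f z + g z) = In f + In g := by
  unfold In
  rw [← integral_add (tu_int hf) (tu_int hg)]
  simp only [mul_add]

theorem In_sub {f g : VV n → ℝ} (hf : TU f) (hg : TU g) :
    In (fun z => f z - g z) = In f - In g := by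
  unfold In
  rw [← integral_sub (tu_int hf) (tu_int hg)]
  simp only [mul_sub]

theorem In_cmul (c : ℝ) (f : VV n → ℝ) : In (fun z => c * f z) = c * In f := by
  unfold In
  rw [← integral_const_mul]
  congr 1
  funext z
  ring

theorem In_neg (f : VV n → ℝ) : In (fun z => -f z) = -In f := by
  have := In_cmul (-1) f
  simpa using this

theorem In_zero : In (fun _ : VV n => 0) = 0 := by
  unfold In; simp

theorem In_sum {ι : Type*} (S : Finset ι) {f : ι → VV n → ℝ} (hf : ∀ i ∈ S, TU (f i)) :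
    In (fun z => ∑ i ∈ S, f i z) = ∑ i ∈ S, In (f i) := by
  unfold In
  rw [← integral_finsetSum S fun i hi => tu_int (hf i hi)]
  simp only [Finset.mul_sum]

theorem In_nonneg {f : VV n → ℝ} (h : ∀ z ∈ Un n, 0 ≤ f z) : 0 ≤ In f :=
  setIntegral_nonneg isOpen_Un.measurableSet fun z hz => mul_nonneg (th_pos hz).le (h z hz)

theorem In_mono {f g : VV n → ℝ} (hf : TU f) (hg : TU g) (h : ∀ z ∈ Un n, f z ≤ g z) :
    In f ≤ In g :=
  setIntegral_mono_on (tu_int hf) (tu_int hg) isOpen_Un.measurableSet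
    fun z hz => mul_le_mul_of_nonneg_left (h z hz) (th_pos hz).le

/-! ## `Γ` and `L₀` -/

/-- `Γ(f, h) = s(A f, A h)`. -/
def Gm (s : MF n) (f h : VV n → ℝ) (z : VV n) : ℝ := ∑ i, ∑ j, s z.1 i j * Ax i f z * Ax j h z

/-- The operator without the potential. -/
def L0 (s : MF n) (f : VV n → ℝ) (z : VV n) : ℝ :=
  ∑ i, ∑ j, s z.1 i j * (Ax i (Ax j f) z + (n - 1) * z.1 i * Ax j f z)

variable {K : ℕ} {ε : ℝ} {s : MF n}

theorem Dxs_eq (s : MF n) (f : VV n → ℝ) (z : VV n) : Dxs s f z = L0 s f z + vp s z.1 * f z := rfl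

theorem kax_eq (s : MF n) (z : VV n) : kax s z = L0 s uu z := by
  unfold kax; rw [Dxs_eq]; ring

theorem Kxs_eq (s : MF n) (f : VV n → ℝ) (z : VV n) :
    Kxs s f z = 2 * Gm s uu f z + L0 s uu z * f z := by
  unfold Kxs; rw [kax_eq]; rfl

theorem Fxs_eq (s : MF n) (z : VV n) : Fxs s z = Gm s uu uu z := rfl

theorem Gm_comm (hs : TS n K ε s) (f h : VV n → ℝ) (z : VV n) : Gm s f h z = Gm s h f z := by
  unfold Gm
  rw [Finset.sum_comm]
  refine Finset.sum_congr rfl fun i _ => Finset.sum_congr rfl fun j _ => ?_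
  have : s z.1 j i = s z.1 i j := (hs.sy z.1).apply i j
  rw [this]; ring

theorem su_vp (hs : TS n K ε s) : SU fun z : VV n => vp s z.1 := by
  unfold vp
  refine ContDiffOn.add ((contDiffOn_const.mul su_rx).mul (SU.sum _ fun i _ => su_s hs.sm i i)) ?_
  refine contDiffOn_const.mul (SU.sum _ fun i _ => SU.sum _ fun j _ => ?_)
  exact ((su_s hs.sm i j).mul (su_x i)).mul (su_x j)

theorem su_Gm (hs : TS n K ε s) {f h : VV n → ℝ} (hf : SU f) (hh : SU h) : SU (Gm s f h) :=
  SU.sum _ fun i _ => SU.sum _ fun j _ => ((su_s hs.sm i j).mul (hf.ax i)).mul (hh.ax j)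

theorem su_L0 (hs : TS n K ε s) {f : VV n → ℝ} (hf : SU f) : SU (L0 s f) :=
  SU.sum _ fun i _ => SU.sum _ fun j _ => (su_s hs.sm i j).mul
    (((hf.ax j).ax i).add ((contDiffOn_const.mul (su_x i)).mul (hf.ax j)))

theorem tu_Gm_left (hs : TS n K ε s) {f h : VV n → ℝ} (hf : TU f) (hh : SU h) :
    TU (Gm s f h) :=
  TU.sum _ fun i _ => TU.sum _ fun j _ => (TU.mul_left (hf.ax i) (su_s hs.sm i j)).mul_right (hh.ax j)

theorem tu_Gm_right (hs : TS n K ε s) {f h : VV n → ℝ} (hf : SU f) (hh : TU h) :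
    TU (Gm s f h) :=
  TU.sum _ fun i _ => TU.sum _ fun j _ => (hh.ax j).mul_left ((su_s hs.sm i j).mul (hf.ax i))

theorem tu_L0 (hs : TS n K ε s) {f : VV n → ℝ} (hf : TU f) : TU (L0 s f) :=
  TU.sum _ fun i _ => TU.sum _ fun j _ =>
    (((hf.ax j).ax i).add ((hf.ax j).mul_left (contDiffOn_const.mul (su_x i)))).mul_left
      (su_s hs.sm i j)

theorem Gm_mul (s : MF n) (f : VV n → ℝ) {g h : VV n → ℝ} (hg : SU g) (hh : SU h) {z : VV n}
    (hz : z ∈ Un n) : Gm s f (fun z => g z * h z) z = g z * Gm s f h z + h z * Gm s f g z := by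
  unfold Gm
  simp only [Finset.mul_sum, ← Finset.sum_add_distrib]
  refine Finset.sum_congr rfl fun i _ => Finset.sum_congr rfl fun j _ => ?_
  rw [Ax_mul hg hh j hz]; ring

theorem Gm_add (s : MF n) (f : VV n → ℝ) {g h : VV n → ℝ} (hg : SU g) (hh : SU h) {z : VV n}
    (hz : z ∈ Un n) : Gm s f (fun z => g z + h z) z = Gm s f g z + Gm s f h z := by
  unfold Gm
  simp only [← Finset.sum_add_distrib]
  refine Finset.sum_congr rfl fun i _ => Finset.sum_congr rfl fun j _ => ?_
  rw [Ax_add hg hh j hz]; ring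

theorem Gm_cmul (s : MF n) (f : VV n → ℝ) (c : ℝ) {h : VV n → ℝ} (hh : SU h) {z : VV n}
    (hz : z ∈ Un n) : Gm s f (fun z => c * h z) z = c * Gm s f h z := by
  unfold Gm
  simp only [Finset.mul_sum]
  refine Finset.sum_congr rfl fun i _ => Finset.sum_congr rfl fun j _ => ?_
  rw [Ax_cmul c hh j hz]; ring

theorem Gm_congr (s : MF n) (f : VV n → ℝ) {g h : VV n → ℝ} (e : ∀ z ∈ Un n, g z = h z) {z : VV n}
    (hz : z ∈ Un n) : Gm s f g z = Gm s f h z := by
  unfold Gm
  refine Finset.sum_congr rfl fun i _ => Finset.sum_congr rfl fun j _ => ?_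
  rw [Ax_congr e j hz]

theorem L0_congr (s : MF n) {g h : VV n → ℝ} (e : ∀ z ∈ Un n, g z = h z) {z : VV n}
    (hz : z ∈ Un n) : L0 s g z = L0 s h z := by
  unfold L0
  refine Finset.sum_congr rfl fun i _ => Finset.sum_congr rfl fun j _ => ?_
  rw [Ax_congr (fun z hz => Ax_congr e j hz) i hz, Ax_congr e j hz]

theorem L0_mul (hs : TS n K ε s) {g h : VV n → ℝ} (hg : SU g) (hh : SU h) {z : VV n}
    (hz : z ∈ Un n) :
    L0 s (fun z => g z * h z) z = g z * L0 s h z + h z * L0 s g z + 2 * Gm s g h z := by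
  have e : 2 * Gm s g h z = Gm s g h z + Gm s h g z := by rw [Gm_comm hs h g]; ring
  rw [e]
  unfold L0 Gm
  simp only [Finset.mul_sum, ← Finset.sum_add_distrib]
  refine Finset.sum_congr rfl fun i _ => Finset.sum_congr rfl fun j _ => ?_
  have e1 : Ax i (Ax j fun z => g z * h z) z =
      Ax i (fun z => Ax j g z * h z + g z * Ax j h z) z :=
    Ax_congr (fun z hz => Ax_mul hg hh j hz) i hz
  rw [e1, Ax_add ((hg.ax j).mul hh) (hg.mul (hh.ax j)) i hz, Ax_mul (hg.ax j) hh i hz,
    Ax_mul hg (hh.ax j) i hz, Ax_mul hg hh j hz]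
  ring

theorem sum_Ax_s (hs : TS n K ε s) (j : Fin n) {z : VV n} (hz : z ∈ Un n) :
    ∑ i, Ax i (fun z => s z.1 i j) z = 0 := by
  have : ∀ i, Ax i (fun z => s z.1 i j) z = rr z.1 * pd i (fun y => s y i j) z.1 := fun i =>
    Ax_fst (φ := fun y => s y i j) i ((hs.sm i j).differentiable (by simp) |>.differentiableAt)
  simp only [this]
  rw [← Finset.mul_sum, hs.dv z.1 hz.1 j, mul_zero]

/-- Integration by parts. -/
theorem In_L0 (hs : TS n K ε s) {f h : VV n → ℝ} (hf : SU f) (hh : TU h) :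
    In (fun z => L0 s f z * h z) = -In (Gm s f h) := by
  have sY : ∀ i, SU fun z => ∑ j, s z.1 i j * Ax j f z := fun i =>
    SU.sum _ fun j _ => (su_s hs.sm i j).mul (hf.ax j)
  have tY : ∀ i, TU fun z => (∑ j, s z.1 i j * Ax j f z) * h z := fun i => hh.mul_left (sY i)
  have h0 : In (fun z => ∑ i, (Ax i (fun z => (∑ j, s z.1 i j * Ax j f z) * h z) z +
      (n - 1) * z.1 i * ((∑ j, s z.1 i j * Ax j f z) * h z))) = 0 := by
    rw [In_sum (f := fun i z => Ax i (fun z => (∑ j, s z.1 i j * Ax j f z) * h z) z +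
      (n - 1) * z.1 i * ((∑ j, s z.1 i j * Ax j f z) * h z))]
    · exact Finset.sum_eq_zero fun i _ => ibp (tY i) i
    · intro i _
      exact ((tY i).ax i).add ((tY i).mul_left (contDiffOn_const.mul (su_x i)))
  have tL : TU fun z => L0 s f z * h z := hh.mul_left (su_L0 hs hf)
  have tG : TU (Gm s f h) := tu_Gm_right hs hf hh
  have h1 : In (fun z => L0 s f z * h z + Gm s f h z) = 0 := by
    rw [← h0]
    refine In_congr fun z hz => ?_
    have e1 : ∀ i, Ax i (fun z => (∑ j, s z.1 i j * Ax j f z) * h z) z =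
        (∑ j, (Ax i (fun z => s z.1 i j) z * Ax j f z + s z.1 i j * Ax i (Ax j f) z)) * h z
          + (∑ j, s z.1 i j * Ax j f z) * Ax i h z := by
      intro i
      rw [Ax_mul (sY i) hh.su i hz, Ax_sum _ (fun j _ => (su_s hs.sm i j).mul (hf.ax j)) i hz]
      congr 2
      refine Finset.sum_congr rfl fun j _ => ?_
      rw [Ax_mul (su_s hs.sm i j) (hf.ax j) i hz]
    have e2 : ∑ i, ∑ j, Ax i (fun z => s z.1 i j) z * Ax j f z = 0 := by
      rw [Finset.sum_comm]
      refine Finset.sum_eq_zero fun j _ => ?_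
      rw [← Finset.sum_mul, sum_Ax_s hs j hz, zero_mul]
    have e3 : ∀ i, Ax i (fun z => (∑ j, s z.1 i j * Ax j f z) * h z) z +
        (n - 1) * z.1 i * ((∑ j, s z.1 i j * Ax j f z) * h z) =
        (∑ j, Ax i (fun z => s z.1 i j) z * Ax j f z) * h z +
        ((∑ j, s z.1 i j * (Ax i (Ax j f) z + (n - 1) * z.1 i * Ax j f z)) * h z +
        ∑ j, s z.1 i j * Ax j f z * Ax i h z) := by
      intro i
      rw [e1 i]
      simp only [Finset.mul_sum, Finset.sum_mul, ← Finset.sum_add_distrib]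
      refine Finset.sum_congr rfl fun j _ => ?_
      ring
    simp only [e3]
    rw [Finset.sum_add_distrib, ← Finset.sum_mul, e2, zero_mul, zero_add, Finset.sum_add_distrib,
      ← Finset.sum_mul]
    have e4 : Gm s f h z = ∑ i, ∑ j, s z.1 i j * Ax j f z * Ax i h z := by
      unfold Gm
      rw [Finset.sum_comm]
      refine Finset.sum_congr rfl fun i _ => Finset.sum_congr rfl fun j _ => ?_
      have : s z.1 j i = s z.1 i j := (hs.sy z.1).apply i j
      rw [this]
    rw [e4]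
    rfl
  rw [In_add tL tG] at h1
  linarith

/-- Antisymmetric first order part: `∫ h f K f = -∫ f² Γ(u, h)`. -/
theorem In_fK (hs : TS n K ε s) {f h : VV n → ℝ} (hf : TU f) (hh : SU h) :
    In (fun z => h z * f z * Kxs s f z) = -In (fun z => f z ^ 2 * Gm s uu h z) := by
  have hf2 : TU fun z => f z ^ 2 := hf.pow two_ne_zero
  have t1 : TU fun z => h z * f z ^ 2 := hf2.mul_left hh
  have e1 := In_L0 hs su_uu t1
  have e2 : In (fun z => h z * f z * Kxs s f z) =
      In (fun z => L0 s uu z * (h z * f z ^ 2) + (Gm s uu (fun z => h z * f z ^ 2) z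
        - f z ^ 2 * Gm s uu h z)) := by
    refine In_congr fun z hz => ?_
    have a1 : Gm s uu (fun z => f z ^ 2) z = 2 * f z * Gm s uu f z := by
      rw [Gm_congr s uu (h := fun z => f z * f z) (fun z _ => by ring) hz,
        Gm_mul s uu hf.su hf.su hz]
      ring
    rw [Gm_mul s uu hh hf2.su hz, a1, Kxs_eq]
    ring
  rw [e2, In_add (t1.mul_left (su_L0 hs su_uu)) ((tu_Gm_right hs su_uu t1).sub
    (hf2.mul_right (su_Gm hs su_uu hh))), In_sub (tu_Gm_right hs su_uu t1)
    (hf2.mul_right (su_Gm hs su_uu hh)), e1]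
  ring

/-- The Hessian form `2 Γ(f, Γ(u, f)) - Γ(u, Γ(f, f))`. -/
def Hf (s : MF n) (f : VV n → ℝ) (z : VV n) : ℝ :=
  2 * Gm s f (Gm s uu f) z - Gm s uu (Gm s f f) z

/-- The commutator of `L₀` and `K`. -/
theorem In_LK (hs : TS n K ε s) {f : VV n → ℝ} (hf : TU f) :
    In (fun z => L0 s f z * Kxs s f z) =
      -In (fun z => Hf s f z + f z * Gm s f (L0 s uu) z) := by
  have sk : SU (L0 s uu) := su_L0 hs su_uu
  have sf : SU f := hf.su
  have tg : TU (Gm s uu f) := tu_Gm_right hs su_uu hf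
  have tff : TU (Gm s f f) := tu_Gm_right hs sf hf
  have tk : TU fun z => L0 s uu z * f z := hf.mul_left sk
  have e1 := In_L0 hs sf tg
  have e2 := In_L0 hs sf tk
  have e3 := In_L0 hs su_uu tff
  have t1 : TU (Gm s f (Gm s uu f)) := tu_Gm_right hs sf tg
  have t2 : TU (Gm s uu (Gm s f f)) := tu_Gm_right hs su_uu tff
  have t3 : TU fun z => f z * Gm s f (L0 s uu) z := hf.mul_right (su_Gm hs sf sk)
  have t4 : TU fun z => L0 s uu z * Gm s f f z := tff.mul_left sk
  have t5 : TU fun z => L0 s f z * Gm s uu f z := tg.mul_left (su_L0 hs sf)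
  have t6 : TU fun z => L0 s f z * (L0 s uu z * f z) := tk.mul_left (su_L0 hs sf)
  have e4 : In (Gm s f fun z => L0 s uu z * f z) =
      In (fun z => L0 s uu z * Gm s f f z) + In (fun z => f z * Gm s f (L0 s uu) z) := by
    rw [← In_add t4 t3]
    exact In_congr fun z hz => Gm_mul s f sk sf hz
  have e5 : In (fun z => L0 s f z * Kxs s f z) =
      2 * In (fun z => L0 s f z * Gm s uu f z) + In (fun z => L0 s f z * (L0 s uu z * f z)) := by
    rw [← In_cmul, ← In_add (t5.mul_left contDiffOn_const) t6]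
    refine In_congr fun z hz => ?_
    rw [Kxs_eq]; ring
  have e6 : In (fun z => Hf s f z + f z * Gm s f (L0 s uu) z) =
      2 * In (Gm s f (Gm s uu f)) - In (Gm s uu (Gm s f f)) +
        In (fun z => f z * Gm s f (L0 s uu) z) := by
    unfold Hf
    rw [In_add ((t1.mul_left contDiffOn_const).sub t2) t3, In_sub (t1.mul_left contDiffOn_const) t2,
      In_cmul]
  rw [e5, e6, e1, e2, e4, e3]
  ring

end Vale.Agent.P088.R2.H961
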