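import Vale.Agent.P088.R2.H961.Gam

/-!
# P088, row TOP: the pointwise lower bound for the Hessian form
-/

open MeasureTheory Set Filter
open scoped ContDiff Matrix Topology

noncomputable section

namespace Vale.Agent.P088.R2.H961

open Vale.Agent.P088.LR Vale.Agent.P088.HY

variable {n : ℕ}

theorem abs_sum_le {n : ℕ} {f : Fin n → ℝ} {B : ℝ} (h : ∀ i, |f i| ≤ B) : |∑ i, f i| ≤ n * B := by
  refine (Finset.abs_sum_le_sum_abs _ _).trans ?_
  refine (Finset.sum_le_sum fun i _ => h i).trans ?_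
  simp

/-- The components `∑_i S_ij p_i`. -/
def lo (S : Fin n → Fin n → ℝ) (p : Fin n → ℝ) (j : Fin n) : ℝ := ∑ i, S i j * p i

theorem lo_eq (S : Fin n → Fin n → ℝ) (p : Fin n → ℝ) (j : Fin n) :
    lo S p j = p j + ∑ i, (S i j - if i = j then 1 else 0) * p i := by
  unfold lo
  simp only [sub_mul, Finset.sum_sub_distrib, ite_mul, one_mul, zero_mul, Finset.sum_ite_eq',
    Finset.mem_univ, if_true]
  ring

theorem abs_mul_le {p : Fin n → ℝ} (i j : Fin n) : |p i * p j| ≤ ∑ k, p k ^ 2 := by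
  have h1 : p i ^ 2 ≤ ∑ k, p k ^ 2 :=
    Finset.single_le_sum (f := fun k => p k ^ 2) (fun _ _ => sq_nonneg _) (Finset.mem_univ i)
  have h2 : p j ^ 2 ≤ ∑ k, p k ^ 2 :=
    Finset.single_le_sum (f := fun k => p k ^ 2) (fun _ _ => sq_nonneg _) (Finset.mem_univ j)
  rw [abs_le]
  constructor <;> nlinarith [sq_nonneg (p i + p j), sq_nonneg (p i - p j)]

theorem abs_lo {S : Fin n → Fin n → ℝ} {ε u : ℝ} {a : Fin n → ℝ} (hε1 : ε ≤ 1)
    (hn : 1 ≤ n) (hS : ∀ i j, |S i j - if i = j then 1 else 0| ≤ ε) (ha : ∀ i, |a i| ≤ u)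
    (j : Fin n) : |lo S a j| ≤ 2 * n * u := by
  have hn' : (1 : ℝ) ≤ n := by exact_mod_cast hn
  have hu : 0 ≤ u := (abs_nonneg _).trans (ha j)
  rw [lo_eq]
  have h1 : |∑ i, (S i j - if i = j then 1 else 0) * a i| ≤ n * u := by
    apply abs_sum_le
    intro i
    rw [abs_mul]
    calc |S i j - if i = j then 1 else 0| * |a i| ≤ 1 * u :=
          mul_le_mul ((hS i j).trans hε1) (ha i) (abs_nonneg _) zero_le_one
      _ = u := one_mul u
  have h2 := abs_add_le (a j) (∑ i, (S i j - if i = j then 1 else 0) * a i)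
  have h3 := ha j
  nlinarith

theorem lo_mul {S : Fin n → Fin n → ℝ} {ε : ℝ} {p : Fin n → ℝ} (hε : 0 ≤ ε)
    (hS : ∀ i j, |S i j - if i = j then 1 else 0| ≤ ε) (j l : Fin n) :
    |lo S p j * p l - p j * p l| ≤ n * (ε * ∑ k, p k ^ 2) := by
  have e : lo S p j * p l - p j * p l =
      ∑ i, (S i j - if i = j then 1 else 0) * p i * p l := by
    rw [lo_eq, add_mul, Finset.sum_mul]; ring
  rw [e]
  apply abs_sum_le
  intro i
  rw [mul_assoc, abs_mul]
  exact mul_le_mul (hS i j) (abs_mul_le i l) (abs_nonneg _) hε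

theorem sum_lo_sq {S : Fin n → Fin n → ℝ} {ε : ℝ} {p : Fin n → ℝ} (hε : 0 ≤ ε) (hε1 : ε ≤ 1)
    (hn : 1 ≤ n) (hS : ∀ i j, |S i j - if i = j then 1 else 0| ≤ ε) :
    |∑ j, lo S p j ^ 2 - ∑ j, p j ^ 2| ≤ 3 * n ^ 3 * (ε * ∑ k, p k ^ 2) := by
  have hn' : (1 : ℝ) ≤ n := by exact_mod_cast hn
  set N := ∑ k, p k ^ 2 with hN
  have hN0 : 0 ≤ N := Finset.sum_nonneg fun _ _ => sq_nonneg _
  rw [← Finset.sum_sub_distrib]
  have h : ∀ j, |lo S p j ^ 2 - p j ^ 2| ≤ 3 * n ^ 2 * (ε * N) := by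
    intro j
    have e : lo S p j ^ 2 - p j ^ 2 = 2 * (lo S p j * p j - p j * p j) + (lo S p j - p j) ^ 2 := by
      ring
    have h1 := lo_mul (p := p) hε hS j j
    have h2 : (lo S p j - p j) ^ 2 ≤ n ^ 2 * (ε * N) := by
      have e2 : lo S p j - p j = ∑ i, (S i j - if i = j then 1 else 0) * p i := by
        rw [lo_eq]; ring
      rw [e2]
      have h3 := Finset.sum_mul_sq_le_sq_mul_sq Finset.univ
        (fun i => (S i j - if i = j then 1 else 0 : ℝ)) p
      refine h3.trans ?_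
      have h4 : ∑ i, (S i j - if i = j then 1 else 0 : ℝ) ^ 2 ≤ n * ε := by
        have : ∀ i ∈ (Finset.univ : Finset (Fin n)),
            (S i j - if i = j then 1 else 0 : ℝ) ^ 2 ≤ ε := by
          intro i _
          have := hS i j
          have h5 : (S i j - if i = j then 1 else 0 : ℝ) ^ 2 =
            |S i j - if i = j then 1 else 0| ^ 2 := (sq_abs _).symm
          rw [h5]
          nlinarith [abs_nonneg (S i j - if i = j then 1 else 0 : ℝ)]
        refine (Finset.sum_le_sum this).trans ?_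
        simp
      calc _ ≤ (n * ε) * N := mul_le_mul_of_nonneg_right h4 hN0
        _ = (n : ℝ) * (ε * N) := by ring
        _ ≤ n ^ 2 * (ε * N) := by
          apply mul_le_mul_of_nonneg_right _ (by positivity)
          nlinarith
    rw [e]
    have h5 := abs_add_le (2 * (lo S p j * p j - p j * p j)) ((lo S p j - p j) ^ 2)
    rw [abs_mul, abs_of_nonneg (sq_nonneg (lo S p j - p j)), abs_two] at h5
    have h6 : (n : ℝ) * (ε * N) ≤ n ^ 2 * (ε * N) := by
      apply mul_le_mul_of_nonneg_right _ (by positivity)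
      nlinarith
    linarith
  refine (abs_sum_le h).trans (le_of_eq ?_)
  ring

/-- The algebra of the Hessian bound. -/
theorem hess_alg {S : Fin n → Fin n → ℝ} {ε u : ℝ} {p a x : Fin n → ℝ}
    {d : Fin n → Fin n → Fin n → ℝ} (hn : 1 ≤ n) (hε : 0 ≤ ε) (hε1 : ε ≤ 1)
    (hS : ∀ i j, |S i j - if i = j then 1 else 0| ≤ ε) (hd : ∀ j k l, |d j k l| ≤ ε)
    (ha : ∀ i, |a i| ≤ u) (hx : ∀ i, |x i| ≤ 1) :
    2 * u * (1 - 12 * n ^ 4 * ε) * ∑ k, p k ^ 2 ≤
      2 * (u - ∑ k, x k * a k) * ∑ j, lo S p j ^ 2 +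
      2 * (∑ l, lo S a l * x l) * (∑ j, lo S p j * p j) +
      (2 * (∑ j, ∑ k, ∑ l, lo S p j * d j k l * a k * p l) -
        ∑ j, ∑ k, ∑ l, lo S a j * d j k l * p k * p l) := by
  have hn' : (1 : ℝ) ≤ n := by exact_mod_cast hn
  set N := ∑ k, p k ^ 2 with hN
  have hN0 : 0 ≤ N := Finset.sum_nonneg fun _ _ => sq_nonneg _
  have hu : 0 ≤ u := (abs_nonneg _).trans (ha ⟨0, hn⟩)
  have E1 := abs_le.1 (sum_lo_sq (p := p) hε hε1 hn hS)
  rw [← hN] at E1
  have E2 : |∑ l, lo S a l * x l - ∑ k, x k * a k| ≤ n ^ 2 * (ε * u) := by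
    rw [← Finset.sum_sub_distrib]
    have : ∀ l, |lo S a l * x l - x l * a l| ≤ n * (ε * u) := by
      intro l
      have e : lo S a l * x l - x l * a l = ∑ i, (S i l - if i = l then 1 else 0) * a i * x l := by
        rw [lo_eq, add_mul, Finset.sum_mul]; ring
      rw [e]
      apply abs_sum_le
      intro i
      rw [abs_mul, abs_mul]
      calc _ ≤ ε * u * 1 := mul_le_mul (mul_le_mul (hS i l) (ha i) (abs_nonneg _) hε) (hx l)
            (abs_nonneg _) (by positivity)
        _ = ε * u := mul_one _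
    refine (abs_sum_le this).trans (le_of_eq ?_)
    ring
  have E3 : |∑ j, lo S p j * p j - N| ≤ n ^ 2 * (ε * N) := by
    have e : N = ∑ j, p j * p j := by rw [hN]; exact Finset.sum_congr rfl fun j _ => by ring
    rw [e, ← Finset.sum_sub_distrib, ← e]
    refine (abs_sum_le fun j => lo_mul (p := p) hε hS j j).trans (le_of_eq ?_)
    rw [← hN]; ring
  have E4 : |∑ k, x k * a k| ≤ n * u := by
    apply abs_sum_le
    intro k
    rw [abs_mul]
    calc _ ≤ 1 * u := mul_le_mul (hx k) (ha k) (abs_nonneg _) zero_le_one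
      _ = u := one_mul _
  have E5 : |∑ j, ∑ k, ∑ l, lo S p j * d j k l * a k * p l| ≤ n * (n * (n * (2 * n * (ε * u * N)))) := by
    apply abs_sum_le; intro j
    apply abs_sum_le; intro k
    apply abs_sum_le; intro l
    have e : lo S p j * d j k l * a k * p l = (lo S p j * p l) * (d j k l * a k) := by ring
    rw [e, abs_mul (lo S p j * p l), abs_mul (d j k l)]
    have h1 : |lo S p j * p l| ≤ 2 * n * N := by
      have h2 := lo_mul (p := p) hε hS j l
      have h3 := abs_mul_le (p := p) j l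
      have h4 := abs_add_le (lo S p j * p l - p j * p l) (p j * p l)
      rw [sub_add_cancel] at h4
      rw [← hN] at h2 h3
      have h5 : n * (ε * N) ≤ n * N := by
        apply mul_le_mul_of_nonneg_left _ (by positivity)
        nlinarith
      nlinarith
    calc _ ≤ (2 * n * N) * (ε * u) := mul_le_mul h1 (mul_le_mul (hd j k l) (ha k) (abs_nonneg _) hε)
            (by positivity) (by positivity)
      _ = 2 * n * (ε * u * N) := by ring
  have E6 : |∑ j, ∑ k, ∑ l, lo S a j * d j k l * p k * p l| ≤ n * (n * (n * (2 * n * (ε * u * N)))) := by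
    apply abs_sum_le; intro j
    apply abs_sum_le; intro k
    apply abs_sum_le; intro l
    have e : lo S a j * d j k l * p k * p l = (lo S a j * d j k l) * (p k * p l) := by ring
    rw [e, abs_mul (lo S a j * d j k l), abs_mul (lo S a j)]
    have h1 := abs_lo hε1 hn hS ha j
    calc _ ≤ (2 * n * u * ε) * N := mul_le_mul (mul_le_mul h1 (hd j k l) (abs_nonneg _)
            (by positivity)) (abs_mul_le k l) (abs_nonneg _) (by positivity)
      _ = 2 * n * (ε * u * N) := by ring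
  set Q := ∑ j, lo S p j ^ 2
  set A := ∑ l, lo S a l * x l
  set X := ∑ k, x k * a k
  set R := ∑ j, lo S p j * p j
  set D1 := ∑ j, ∑ k, ∑ l, lo S p j * d j k l * a k * p l
  set D2 := ∑ j, ∑ k, ∑ l, lo S a j * d j k l * p k * p l
  have F2 := abs_le.1 E2
  have F3 := abs_le.1 E3
  have F4 := abs_le.1 E4
  have F5 := abs_le.1 E5
  have F6 := abs_le.1 E6
  have e0 : 2 * (u - X) * Q + 2 * A * R =
      2 * u * N + (2 * (u - X) * (Q - N) + 2 * X * (R - N) + 2 * (A - X) * N +
        2 * (A - X) * (R - N)) := by ring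
  have G1 : |2 * (u - X) * (Q - N)| ≤ 2 * (2 * n * u) * (3 * n ^ 3 * (ε * N)) := by
    rw [abs_mul, abs_mul, abs_two]
    apply mul_le_mul _ (abs_le.2 E1) (abs_nonneg _) (by positivity)
    apply mul_le_mul_of_nonneg_left _ zero_le_two
    rw [abs_le]; constructor <;> nlinarith
  have G2 : |2 * X * (R - N)| ≤ 2 * (n * u) * (n ^ 2 * (ε * N)) := by
    rw [abs_mul, abs_mul, abs_two]
    apply mul_le_mul _ E3 (abs_nonneg _) (by positivity)
    exact mul_le_mul_of_nonneg_left E4 zero_le_two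
  have G3 : |2 * (A - X) * N| ≤ 2 * (n ^ 2 * (ε * u)) * N := by
    rw [abs_mul, abs_mul, abs_two, abs_of_nonneg hN0]
    apply mul_le_mul_of_nonneg_right _ hN0
    exact mul_le_mul_of_nonneg_left E2 zero_le_two
  have G4 : |2 * (A - X) * (R - N)| ≤ 2 * (n ^ 2 * (1 * u)) * (n ^ 2 * (ε * N)) := by
    rw [abs_mul, abs_mul, abs_two]
    apply mul_le_mul _ E3 (abs_nonneg _) (by positivity)
    apply mul_le_mul_of_nonneg_left _ zero_le_two
    refine E2.trans ?_
    apply mul_le_mul_of_nonneg_left _ (by positivity)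
    exact mul_le_mul_of_nonneg_right hε1 hu
  have H1 := (abs_le.1 G1).1
  have H2 := (abs_le.1 G2).1
  have H3 := (abs_le.1 G3).1
  have H4 := (abs_le.1 G4).1
  have hB : 0 ≤ ε * u * N := by positivity
  have n1 : (n : ℝ) ^ 3 ≤ n ^ 4 := pow_le_pow_right₀ hn' (by norm_num)
  have n2 : (n : ℝ) ^ 2 ≤ n ^ 4 := pow_le_pow_right₀ hn' (by norm_num)
  have k1 := mul_le_mul_of_nonneg_right n1 hB
  have k2 := mul_le_mul_of_nonneg_right n2 hB
  rw [e0]
  nlinarith [F5.1, F6.2]


/-! ## Bounds for the coefficients -/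

variable {K : ℕ} {ε : ℝ} {s : MF n}

theorem abs_x {z : VV n} (hz : z ∈ Un n) (i : Fin n) : |z.1 i| ≤ 1 := by
  have h1 : HY.sq z.1 < 1 := hz.1
  have h2 : z.1 i ^ 2 ≤ HY.sq z.1 :=
    Finset.single_le_sum (f := fun k => z.1 k ^ 2) (fun _ _ => sq_nonneg _) (Finset.mem_univ i)
  exact (sq_le_one_iff_abs_le_one _).1 (by linarith)

theorem abs_al {z : VV n} (hz : z ∈ Un n) (i : Fin n) : |al i z| ≤ uu z := by
  have h1 := sum_al hz
  have h2 : al i z ^ 2 ≤ ∑ k, al k z ^ 2 :=
    Finset.single_le_sum (f := fun k => al k z ^ 2) (fun _ _ => sq_nonneg _) (Finset.mem_univ i)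
  have h3 := uu_pos hz
  exact abs_le_of_sq_le_sq (by linarith) h3.le

theorem ts_nonneg (hs : TS n K ε s) (i j : Fin n) : 0 ≤ ε :=
  (norm_nonneg _).trans (hs.cl i j 0 (Nat.zero_le _) 0)

theorem ts_s (hs : TS n K ε s) (x : V n) (i j : Fin n) : |s x i j - if i = j then 1 else 0| ≤ ε := by
  have := hs.cl i j 0 (Nat.zero_le _) x
  rw [norm_iteratedFDeriv_zero, Real.norm_eq_abs, Matrix.one_apply] at this
  exact this

theorem ts_ds (hs : TS n K ε s) (hK : 1 ≤ K) {z : VV n} (k i j : Fin n) (hz : z ∈ Un n) :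
    |Ax k (fun z => s z.1 i j) z| ≤ ε := by
  have hd : DifferentiableAt ℝ (fun x => s x i j) z.1 :=
    (hs.sm i j).differentiable (by simp) |>.differentiableAt
  rw [Ax_fst (φ := fun y => s y i j) k hd, abs_mul]
  have h1 := hs.cl i j 1 hK z.1
  rw [norm_iteratedFDeriv_one] at h1
  have h2 : fderiv ℝ (fun x => s x i j - (1 : Matrix (Fin n) (Fin n) ℝ) i j) z.1 =
      fderiv ℝ (fun x => s x i j) z.1 := fderiv_sub_const _
  rw [h2] at h1
  have h3 : |pd k (fun y => s y i j) z.1| ≤ ε := by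
    unfold pd
    rw [← Real.norm_eq_abs]
    refine (ContinuousLinearMap.le_opNorm _ _).trans ?_
    have : ‖(Pi.single k 1 : V n)‖ = 1 := by
      rw [Pi.norm_single]; simp
    rw [this, mul_one]
    exact h1
  have h4 : |rr z.1| ≤ 1 := by
    rw [abs_of_pos (rx_pos hz)]
    have := rr_le z.1
    linarith
  calc _ ≤ 1 * ε := mul_le_mul h4 h3 (abs_nonneg _) zero_le_one
    _ = ε := one_mul _

theorem Gm_lo (s : MF n) (f h : VV n → ℝ) (z : VV n) :
    Gm s f h z = ∑ j, lo (fun i j => s z.1 i j) (fun i => Ax i f z) j * Ax j h z := by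
  unfold Gm lo
  rw [Finset.sum_comm]
  refine Finset.sum_congr rfl fun j _ => ?_
  rw [Finset.sum_mul]

theorem Ax_Gm (hs : TS n K ε s) {f h : VV n → ℝ} (hf : SU f) (hh : SU h) (j : Fin n) {z : VV n}
    (hz : z ∈ Un n) : Ax j (Gm s f h) z = ∑ k, ∑ l, (Ax j (fun z => s z.1 k l) z * Ax k f z * Ax l h z
      + s z.1 k l * Ax j (Ax k f) z * Ax l h z + s z.1 k l * Ax k f z * Ax j (Ax l h) z) := by
  have s1 : ∀ k l, SU fun z => s z.1 k l * Ax k f z := fun k l => (su_s hs.sm k l).mul (hf.ax k)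
  have e : Ax j (Gm s f h) z = Ax j (fun z => ∑ k, ∑ l, s z.1 k l * Ax k f z * Ax l h z) z := rfl
  rw [e, Ax_sum _ (fun k _ => SU.sum _ fun l _ => (s1 k l).mul (hh.ax l)) j hz]
  refine Finset.sum_congr rfl fun k _ => ?_
  rw [Ax_sum _ (fun l _ => (s1 k l).mul (hh.ax l)) j hz]
  refine Finset.sum_congr rfl fun l _ => ?_
  rw [Ax_mul (s1 k l) (hh.ax l) j hz, Ax_mul (su_s hs.sm k l) (hf.ax k) j hz]
  ring

/-- The formula for the Hessian form. -/
theorem Hf_eq (hs : TS n K ε s) {f : VV n → ℝ} (hf : SU f) {z : VV n} (hz : z ∈ Un n) :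
    Hf s f z = 2 * (uu z - ∑ k, z.1 k * al k z) *
        ∑ j, lo (fun i j => s z.1 i j) (fun i => Ax i f z) j ^ 2 +
      2 * (∑ l, lo (fun i j => s z.1 i j) (fun i => al i z) l * z.1 l) *
        (∑ j, lo (fun i j => s z.1 i j) (fun i => Ax i f z) j * Ax j f z) +
      (2 * (∑ j, ∑ k, ∑ l, lo (fun i j => s z.1 i j) (fun i => Ax i f z) j *
          Ax j (fun z => s z.1 k l) z * al k z * Ax l f z) -
        ∑ j, ∑ k, ∑ l, lo (fun i j => s z.1 i j) (fun i => al i z) j *
          Ax j (fun z => s z.1 k l) z * Ax k f z * Ax l f z) := by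
  have sy : ∀ i j, s z.1 i j = s z.1 j i := fun i j => (hs.sy z.1).apply j i
  set S : Fin n → Fin n → ℝ := fun i j => s z.1 i j with hS
  set p : Fin n → ℝ := fun i => Ax i f z with hp
  set a : Fin n → ℝ := fun i => al i z with ha
  set P : Fin n → ℝ := lo S p with hP
  set A : Fin n → ℝ := lo S a with hA
  have eP : ∀ k, ∑ l, S k l * p l = P k := by
    intro k; rw [hP]; unfold lo
    exact Finset.sum_congr rfl fun l _ => by rw [hS]; simp only; rw [sy k l]
  have eA : ∀ l, ∑ k, S k l * a k = A l := fun l => rfl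
  have e3 : ∀ k, Ax k uu z = a k := fun k => rfl
  have e4 : ∀ j k, Ax j (Ax k uu) z = Ax j (al k) z := fun j k => rfl
  have c1 : Gm s f (Gm s uu f) z = (∑ j, ∑ k, ∑ l, P j * Ax j (fun z => s z.1 k l) z * a k * p l) +
      (∑ j, ∑ k, P j * Ax j (al k) z * P k) + ∑ j, ∑ l, P j * A l * Ax j (Ax l f) z := by
    have e1 : ∀ j, ∑ k, P j * Ax j (al k) z * P k =
        ∑ k, ∑ l, P j * Ax j (al k) z * (S k l * p l) := by
      intro j
      refine Finset.sum_congr rfl fun k _ => ?_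
      rw [← eP k, Finset.mul_sum]
    have e2 : ∀ j, ∑ l, P j * A l * Ax j (Ax l f) z =
        ∑ k, ∑ l, P j * (S k l * a k) * Ax j (Ax l f) z := by
      intro j
      rw [Finset.sum_comm]
      refine Finset.sum_congr rfl fun l _ => ?_
      rw [← eA l, Finset.mul_sum, Finset.sum_mul]
    simp only [e1, e2]
    rw [Gm_lo s, ← Finset.sum_add_distrib, ← Finset.sum_add_distrib]
    refine Finset.sum_congr rfl fun j _ => ?_
    rw [Ax_Gm hs su_uu hf j hz, ← Finset.sum_add_distrib, ← Finset.sum_add_distrib, Finset.mul_sum]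
    refine Finset.sum_congr rfl fun k _ => ?_
    rw [← Finset.sum_add_distrib, ← Finset.sum_add_distrib, Finset.mul_sum]
    refine Finset.sum_congr rfl fun l _ => ?_
    rw [e3, e4]
    simp only [hP, hS, hp]
    ring
  have c2 : Gm s uu (Gm s f f) z = (∑ j, ∑ k, ∑ l, A j * Ax j (fun z => s z.1 k l) z * p k * p l) +
      ((∑ j, ∑ k, A j * P k * Ax j (Ax k f) z) + ∑ j, ∑ k, A j * P k * Ax j (Ax k f) z) := by
    have e1 : ∑ j, ∑ k, A j * P k * Ax j (Ax k f) z =
        ∑ j, ∑ k, ∑ l, A j * (S k l * p l) * Ax j (Ax k f) z := by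
      refine Finset.sum_congr rfl fun j _ => Finset.sum_congr rfl fun k _ => ?_
      rw [← eP k, Finset.mul_sum, Finset.sum_mul]
    have e2 : ∑ j, ∑ k, A j * P k * Ax j (Ax k f) z =
        ∑ j, ∑ k, ∑ l, A j * (S k l * p k) * Ax j (Ax l f) z := by
      refine Finset.sum_congr rfl fun j _ => ?_
      rw [Finset.sum_comm]
      refine Finset.sum_congr rfl fun l _ => ?_
      have : P l = ∑ k, S k l * p k := rfl
      rw [this, Finset.mul_sum, Finset.sum_mul]
    nth_rewrite 1 [e1]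
    rw [e2, Gm_lo s]
    have e0 : (fun i => Ax i uu z) = a := rfl
    rw [e0, ← Finset.sum_add_distrib, ← Finset.sum_add_distrib]
    refine Finset.sum_congr rfl fun j _ => ?_
    rw [Ax_Gm hs hf hf j hz, ← Finset.sum_add_distrib, ← Finset.sum_add_distrib, Finset.mul_sum]
    refine Finset.sum_congr rfl fun k _ => ?_
    rw [← Finset.sum_add_distrib, ← Finset.sum_add_distrib, Finset.mul_sum]
    refine Finset.sum_congr rfl fun l _ => ?_
    simp only [hA, hS, hp]
    ring
  have c3 : ∑ j, ∑ k, P j * Ax j (al k) z * P k = (uu z - ∑ k, z.1 k * al k z) * ∑ j, P j ^ 2 +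
      (∑ j, P j * a j) * ∑ k, z.1 k * P k := by
    have e1 : ∀ j, ∑ k, P j * Ax j (al k) z * P k =
        (uu z - ∑ k, z.1 k * al k z) * P j ^ 2 + P j * a j * ∑ k, z.1 k * P k := by
      intro j
      have e2 : ∀ k, P j * Ax j (al k) z * P k =
          (if j = k then (uu z - ∑ k, z.1 k * al k z) * P j * P k else 0) +
            P j * a j * (z.1 k * P k) := by
        intro k
        rw [Ax_al j k hz]
        have : xa z = ∑ k, z.1 k * al k z := rfl
        rw [this]
        by_cases h : j = k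
        · simp only [h, if_true, ha]; ring
        · simp only [h, if_false, ha]; ring
      simp only [e2]
      rw [Finset.sum_add_distrib, Finset.sum_ite_eq, ← Finset.mul_sum]
      simp only [Finset.mem_univ, if_true]
      ring
    simp only [e1]
    rw [Finset.sum_add_distrib, ← Finset.mul_sum, ← Finset.sum_mul]
  have c4 : ∑ j, ∑ l, P j * A l * Ax j (Ax l f) z - ∑ j, ∑ k, A j * P k * Ax j (Ax k f) z =
      (∑ l, A l * z.1 l) * (∑ j, P j * p j) - (∑ j, z.1 j * P j) * ∑ l, A l * p l := by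
    have e1 : ∑ j, ∑ k, A j * P k * Ax j (Ax k f) z = ∑ j, ∑ l, P j * A l * Ax l (Ax j f) z := by
      rw [Finset.sum_comm]
      refine Finset.sum_congr rfl fun j _ => Finset.sum_congr rfl fun l _ => ?_
      ring
    rw [e1, mul_comm (∑ l, A l * z.1 l), Finset.sum_mul_sum, Finset.sum_mul_sum,
      ← Finset.sum_sub_distrib, ← Finset.sum_sub_distrib]
    refine Finset.sum_congr rfl fun j _ => ?_
    rw [← Finset.sum_sub_distrib, ← Finset.sum_sub_distrib]
    refine Finset.sum_congr rfl fun l _ => ?_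
    rw [Ax_comm hf j l hz]
    simp only [hp]
    ring
  have c5 : ∑ j, P j * a j = ∑ l, A l * p l := by
    simp only [hP, hA, lo, Finset.sum_mul]
    rw [Finset.sum_comm]
    refine Finset.sum_congr rfl fun i _ => Finset.sum_congr rfl fun j _ => ?_
    simp only [hS]
    rw [sy i j]; ring
  unfold Hf
  rw [c1, c2, c3]
  linear_combination 2 * c4 + 2 * (∑ j, z.1 j * P j) * c5

/-- The pointwise lower bound for the Hessian form. -/
theorem Hf_ge (hs : TS n K ε s) (hK : 1 ≤ K) (hn : 1 ≤ n) (hε1 : ε ≤ 1) {f : VV n → ℝ}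
    (hf : SU f) {z : VV n} (hz : z ∈ Un n) :
    2 * uu z * (1 - 12 * n ^ 4 * ε) * ∑ k, Ax k f z ^ 2 ≤ Hf s f z := by
  rw [Hf_eq hs hf hz]
  exact hess_alg hn (ts_nonneg hs ⟨0, hn⟩ ⟨0, hn⟩) hε1 (fun i j => ts_s hs z.1 i j)
    (fun j k l => ts_ds hs hK j k l hz) (fun i => abs_al hz i) (fun i => abs_x hz i)

end Vale.Agent.P088.R2.H961
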