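import Vale.Agent.P088.R2.H961.Bnd

/-!
# P088, row TOP: the lower bound for `∫ (Q f)²`
-/

open MeasureTheory Set Filter
open scoped ContDiff Matrix Topology

noncomputable section

namespace Vale.Agent.P088.R2.H961

open Vale.Agent.P088.LR Vale.Agent.P088.HY

variable {n K : ℕ} {ε : ℝ} {s : MF n}

/-- The identity. -/
def one (n : ℕ) : MF n := fun _ => 1

theorem ts_one (K : ℕ) : TS n K 0 (one n) where
  sm i j := contDiff_const
  sy x := by
    change (1 : Matrix (Fin n) (Fin n) ℝ)ᵀ = 1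
    simp
  cl i j l _ x := by
    have : (fun x => one n x i j - (1 : Matrix (Fin n) (Fin n) ℝ) i j) = fun _ => (0 : ℝ) := by
      funext x; simp [one]
    rw [this, iteratedFDeriv_fun_zero]
    simp
  dv x _ j := by
    refine Finset.sum_eq_zero fun i _ => ?_
    simp [pd, one]

theorem Gm_one (f h : VV n → ℝ) (z : VV n) : Gm (one n) f h z = ∑ i, Ax i f z * Ax i h z := by
  unfold Gm one
  refine Finset.sum_congr rfl fun i _ => ?_
  rw [Finset.sum_eq_single i]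
  · simp
  · intro j _ hj
    rw [Matrix.one_apply_ne (Ne.symm hj)]; ring
  · simp

theorem L0_one {z : VV n} (hz : z ∈ Un n) : L0 (one n) uu z = n * uu z := by
  have h : ∀ i, ∑ j, one n z.1 i j * (Ax i (Ax j uu) z + (n - 1) * z.1 i * Ax j uu z) =
      (uu z - xa z) + n * (z.1 i * al i z) := by
    intro i
    rw [Finset.sum_eq_single i]
    · have e1 : Ax i (Ax i uu) z = Ax i (al i) z := rfl
      have e2 : Ax i uu z = al i z := rfl
      rw [e1, e2, Ax_al i i hz]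
      simp only [one, Matrix.one_apply_eq, if_true]
      ring
    · intro j _ hj
      unfold one
      rw [Matrix.one_apply_ne (Ne.symm hj)]; ring
    · simp
  unfold L0
  simp only [h]
  rw [Finset.sum_add_distrib, ← Finset.mul_sum]
  have : ∑ i, z.1 i * al i z = xa z := rfl
  rw [this]
  simp

/-- The ground state inequality. -/
theorem gs {f : VV n → ℝ} (hf : TU f) (τ : ℝ) :
    τ * In (fun z => ((n + 1) * uu z ^ 2 - 1) * f z ^ 2) ≤
      In (fun z => uu z * ∑ k, Ax k f z ^ 2) +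
        τ ^ 2 * In (fun z => uu z * (uu z ^ 2 - 1) * f z ^ 2) := by
  have hs : TS n 0 0 (one n) := ts_one 0
  have t2 : TU fun z => f z ^ 2 := hf.pow two_ne_zero
  have t1 : TU fun z => uu z * f z ^ 2 := t2.mul_left su_uu
  have tA : TU fun z => uu z * ∑ k, Ax k f z ^ 2 :=
    (TU.sum _ fun k _ => (hf.ax k).pow two_ne_zero).mul_left su_uu
  have tB : TU fun z => uu z * (uu z ^ 2 - 1) * f z ^ 2 :=
    t2.mul_left (su_uu.mul ((su_uu.pow 2).sub contDiffOn_const))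
  have tC : TU fun z => 2 * uu z * f z * Gm (one n) uu f z :=
    (tu_Gm_right hs su_uu hf).mul_left ((contDiffOn_const.mul su_uu).mul hf.su)
  have tD : TU fun z => ((n + 1) * uu z ^ 2 - 1) * f z ^ 2 :=
    t2.mul_left ((contDiffOn_const.mul (su_uu.pow 2)).sub contDiffOn_const)
  have e1 := In_L0 hs su_uu t1
  have h1 : ∀ z ∈ Un n, L0 (one n) uu z * (uu z * f z ^ 2) + Gm (one n) uu (fun z => uu z * f z ^ 2) z
      = ((n + 1) * uu z ^ 2 - 1) * f z ^ 2 + 2 * uu z * f z * Gm (one n) uu f z := by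
    intro z hz
    have a1 : Gm (one n) uu (fun z => f z ^ 2) z = 2 * f z * Gm (one n) uu f z := by
      rw [Gm_congr (one n) uu (h := fun z => f z * f z) (fun z _ => by ring) hz,
        Gm_mul (one n) uu hf.su hf.su hz]
      ring
    have a2 : Gm (one n) uu uu z = uu z ^ 2 - 1 := by
      rw [Gm_one, ← sum_al hz]
      exact Finset.sum_congr rfl fun k _ => by change al k z * al k z = _; ring
    rw [Gm_mul (one n) uu su_uu t2.su hz, a1, a2, L0_one hz]
    ring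
  have e2 : In (fun z => ((n + 1) * uu z ^ 2 - 1) * f z ^ 2) +
      In (fun z => 2 * uu z * f z * Gm (one n) uu f z) = 0 := by
    rw [← In_add tD tC, ← In_congr h1, In_add (t1.mul_left (su_L0 hs su_uu))
      (tu_Gm_right hs su_uu t1), e1]
    ring
  have e3 : 0 ≤ In (fun z => (uu z * ∑ k, Ax k f z ^ 2 +
      τ * (2 * uu z * f z * Gm (one n) uu f z)) + τ ^ 2 * (uu z * (uu z ^ 2 - 1) * f z ^ 2)) := by
    refine In_nonneg fun z hz => ?_
    have hu := uu_pos hz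
    have : (uu z * ∑ k, Ax k f z ^ 2 +
      τ * (2 * uu z * f z * Gm (one n) uu f z)) + τ ^ 2 * (uu z * (uu z ^ 2 - 1) * f z ^ 2) =
        uu z * ∑ k, (Ax k f z + τ * f z * al k z) ^ 2 := by
      rw [Gm_one, ← sum_al hz]
      have e : ∑ k, (Ax k f z + τ * f z * al k z) ^ 2 = ∑ k, Ax k f z ^ 2 +
          2 * τ * f z * ∑ k, Ax k uu z * Ax k f z + (τ * f z) ^ 2 * ∑ k, al k z ^ 2 := by
        rw [Finset.mul_sum, Finset.mul_sum, ← Finset.sum_add_distrib, ← Finset.sum_add_distrib]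
        refine Finset.sum_congr rfl fun k _ => ?_
        have : Ax k uu z = al k z := rfl
        rw [this]; ring
      rw [e]; ring
    rw [this]
    exact mul_nonneg hu.le (Finset.sum_nonneg fun _ _ => sq_nonneg _)
  rw [In_add (tA.add (tC.mul_left contDiffOn_const)) (tB.mul_left contDiffOn_const),
    In_add tA (tC.mul_left contDiffOn_const), In_cmul, In_cmul] at e3
  linear_combination e3 + τ * e2

/-! ## The commutator bound -/

theorem su_Kxs (hs : TS n K ε s) {f : VV n → ℝ} (hf : SU f) : SU (Kxs s f) := by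
  have : SU fun z => 2 * Gm s uu f z + L0 s uu z * f z :=
    (contDiffOn_const.mul (su_Gm hs su_uu hf)).add ((su_L0 hs su_uu).mul hf)
  exact this.congr fun z _ => Kxs_eq s f z

theorem tu_Kxs (hs : TS n K ε s) {f : VV n → ℝ} (hf : TU f) : TU (Kxs s f) := by
  have h : TU fun z => 2 * Gm s uu f z + L0 s uu z * f z :=
    ((tu_Gm_right hs su_uu hf).mul_left contDiffOn_const).add (hf.mul_left (su_L0 hs su_uu))
  have e : Kxs s f = fun z => 2 * Gm s uu f z + L0 s uu z * f z := funext fun z => Kxs_eq s f z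
  rw [e]; exact h

theorem su_Fxs (hs : TS n K ε s) : SU (Fxs s : VV n → ℝ) := su_Gm hs su_uu su_uu

theorem Px_eq (s : MF n) (τ : ℝ) (f : VV n → ℝ) (z : VV n) :
    Px s τ f z = L0 s f z + vp s z.1 * f z + τ * Kxs s f z + τ ^ 2 * Fxs s z * f z := rfl

theorem tu_Px (hs : TS n K ε s) (τ : ℝ) {f : VV n → ℝ} (hf : TU f) : TU (Px s τ f) := by
  have h : TU fun z => L0 s f z + vp s z.1 * f z + τ * Kxs s f z + τ ^ 2 * Fxs s z * f z :=
    (((tu_L0 hs hf).add (hf.mul_left (su_vp hs))).add ((tu_Kxs hs hf).mul_left contDiffOn_const)).add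
      (hf.mul_left (contDiffOn_const.mul (su_Fxs hs)))
  exact h

theorem su_Px (hs : TS n K ε s) (τ : ℝ) {f : VV n → ℝ} (hf : SU f) : SU (Px s τ f) := by
  have h : SU fun z => L0 s f z + vp s z.1 * f z + τ * Kxs s f z + τ ^ 2 * Fxs s z * f z :=
    (((su_L0 hs hf).add ((su_vp hs).mul hf)).add (contDiffOn_const.mul (su_Kxs hs hf))).add
      ((contDiffOn_const.mul (su_Fxs hs)).mul hf)
  exact h

theorem Hf_uu (s : MF n) (z : VV n) : Hf s uu z = Gm s uu (Fxs s) z := by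
  have : Gm s uu (Fxs s) z = Gm s uu (Gm s uu uu) z := rfl
  rw [this]
  unfold Hf
  ring

theorem lb1 (hs : TS n K ε s) {τ : ℝ} {f : VV n → ℝ} (hf : TU f) :
    4 * τ * In (fun z => Hf s f z + f z * Gm s f (L0 s uu) z +
      f z ^ 2 * Gm s uu (fun z => vp s z.1 + τ ^ 2 * Fxs s z) z) ≤
        In (fun z => Px s (-τ) f z ^ 2) := by
  have sv : SU fun z => vp s z.1 + τ ^ 2 * Fxs s z :=
    (su_vp hs).add (contDiffOn_const.mul (su_Fxs hs))
  have e1 := In_LK hs hf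
  have e2 := In_fK hs hf sv
  have sf := hf.su
  have tg : TU (Gm s uu f) := tu_Gm_right hs su_uu hf
  have tff : TU (Gm s f f) := tu_Gm_right hs sf hf
  have tH : TU (Hf s f) :=
    ((tu_Gm_right hs sf tg).mul_left contDiffOn_const).sub (tu_Gm_right hs su_uu tff)
  have tk : TU fun z => f z * Gm s f (L0 s uu) z := hf.mul_right (su_Gm hs sf (su_L0 hs su_uu))
  have tv : TU fun z => f z ^ 2 * Gm s uu (fun z => vp s z.1 + τ ^ 2 * Fxs s z) z :=
    (hf.pow two_ne_zero).mul_right (su_Gm hs su_uu sv)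
  have tK : TU (Kxs s f) := tu_Kxs hs hf
  have t1 : TU fun z => L0 s f z * Kxs s f z := tK.mul_left (su_L0 hs sf)
  have t2 : TU fun z => (vp s z.1 + τ ^ 2 * Fxs s z) * f z * Kxs s f z :=
    tK.mul_left (sv.mul sf)
  have t3 : TU fun z => Px s (-τ) f z ^ 2 := (tu_Px hs (-τ) hf).pow two_ne_zero
  have e3 : -(4 * τ) * In (fun z => L0 s f z * Kxs s f z +
      (vp s z.1 + τ ^ 2 * Fxs s z) * f z * Kxs s f z) ≤ In (fun z => Px s (-τ) f z ^ 2) := by
    rw [← In_cmul]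
    refine In_mono ((t1.add t2).mul_left contDiffOn_const) t3 fun z _ => ?_
    rw [Px_eq]
    nlinarith [sq_nonneg (L0 s f z + vp s z.1 * f z + τ * Kxs s f z + τ ^ 2 * Fxs s z * f z)]
  rw [In_add t1 t2, e1, e2] at e3
  rw [In_add (tH.add tk) tv]
  linarith

/-- The constants. -/
def c1 (n : ℕ) : ℝ := 2 * n ^ 2 * (100 * (n + 1) ^ 4)

/-- The constants. -/
def c2 (n : ℕ) : ℝ := 2 * n ^ 2 * (10 * (n + 2) ^ 4)

theorem eps_le {n : ℕ} (hn : 3 ≤ n) : 1 / (96 * (n : ℝ) ^ 4) ≤ 1 := by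
  have hnR : (3 : ℝ) ≤ n := by exact_mod_cast hn
  rw [div_le_one (by positivity)]
  have : (1 : ℝ) ≤ n ^ 4 := one_le_pow₀ (by linarith)
  linarith

theorem Hf_ge' (hn : 3 ≤ n) (hs : TS n K ε s) (hK : 1 ≤ K) (hε : ε ≤ 1 / (96 * (n : ℝ) ^ 4))
    {f : VV n → ℝ} (hf : SU f) {z : VV n} (hz : z ∈ Un n) :
    7 / 4 * (uu z * ∑ k, Ax k f z ^ 2) ≤ Hf s f z := by
  have hnR : (3 : ℝ) ≤ n := by exact_mod_cast hn
  have hn4 : (0 : ℝ) < n ^ 4 := by positivity
  have hε2 : 12 * n ^ 4 * ε ≤ 1 / 8 := by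
    rw [le_div_iff₀ (by positivity)] at hε
    linarith
  have H1 := Hf_ge hs hK (by omega) (hε.trans (eps_le hn)) hf hz
  refine le_trans ?_ H1
  have hA0 : 0 ≤ ∑ k, Ax k f z ^ 2 := Finset.sum_nonneg fun _ _ => sq_nonneg _
  have := mul_nonneg (uu_pos hz).le hA0
  nlinarith

theorem lb_pt (hn : 3 ≤ n) (hs : TS n K ε s) (hK : 1 ≤ K) (hε : ε ≤ 1 / (96 * (n : ℝ) ^ 4))
    {f : VV n → ℝ} (sf : SU f) (τ : ℝ) {z : VV n} (hz : z ∈ Un n) :
    3 / 2 * (uu z * ∑ k, Ax k f z ^ 2) +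
      7 / 4 * τ ^ 2 * (uu z * (uu z ^ 2 - 1) * f z ^ 2) -
        (c1 n ^ 2 + c2 n) * (uu z ^ 2 * f z ^ 2) ≤
    Hf s f z + f z * Gm s f (L0 s uu) z +
      f z ^ 2 * Gm s uu (fun z => vp s z.1 + τ ^ 2 * Fxs s z) z := by
  have hε1 : ε ≤ 1 := hε.trans (eps_le hn)
  have hu := uu_ge hz
  have hu0 := uu_pos hz
  have H1 := Hf_ge' hn hs hK hε sf hz
  set A := ∑ k, Ax k f z ^ 2 with hA
  have hA0 : 0 ≤ A := Finset.sum_nonneg fun _ _ => sq_nonneg _
  have H2 : |Gm s f (L0 s uu) z| ≤ c1 n * (√A * uu z) := by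
    have := abs_Gm hs hε1 (fun i => abs_Ax_le f z i) (fun i => abs_AxL0u hs hK hε1 hz i)
    refine this.trans (le_of_eq ?_)
    rw [← hA]; unfold c1; ring
  have H2' : -(1 / 4 * (uu z * A) + c1 n ^ 2 * (uu z * f z ^ 2)) ≤ f z * Gm s f (L0 s uu) z := by
    have h3 : |f z * Gm s f (L0 s uu) z| ≤ |f z| * (c1 n * (√A * uu z)) := by
      rw [abs_mul]; exact mul_le_mul_of_nonneg_left H2 (abs_nonneg _)
    have h4 : |f z| * (c1 n * (√A * uu z)) ≤ 1 / 4 * (uu z * A) + c1 n ^ 2 * (uu z * f z ^ 2) := by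
      have hA2 : √A ^ 2 = A := Real.sq_sqrt hA0
      have hf2 : |f z| ^ 2 = f z ^ 2 := sq_abs _
      have h5 := mul_nonneg hu0.le (sq_nonneg (1 / 2 * √A - c1 n * |f z|))
      have e : uu z * (1 / 2 * √A - c1 n * |f z|) ^ 2 = 1 / 4 * (uu z * √A ^ 2) +
        c1 n ^ 2 * (uu z * |f z| ^ 2) - |f z| * (c1 n * (√A * uu z)) := by ring
      rw [e, hA2, hf2] at h5
      linarith
    exact (abs_le.1 (h3.trans h4)).1
  have H3 : |Gm s uu (fun z => vp s z.1) z| ≤ c2 n * uu z := by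
    have := abs_Gm hs hε1 (f := uu) (fun i => abs_al hz i) (fun i => abs_Axvp hs hK hε1 hz i)
    refine this.trans (le_of_eq ?_)
    unfold c2; ring
  have H4 : 7 / 4 * (uu z * (uu z ^ 2 - 1)) ≤ Gm s uu (Fxs s) z := by
    rw [← Hf_uu]
    have H5 := Hf_ge' hn hs hK hε su_uu hz
    have e : ∑ k, Ax k uu z ^ 2 = uu z ^ 2 - 1 := sum_al hz
    rwa [e] at H5
  have H6 : Gm s uu (fun z => vp s z.1 + τ ^ 2 * Fxs s z) z =
      Gm s uu (fun z => vp s z.1) z + τ ^ 2 * Gm s uu (Fxs s) z := by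
    rw [Gm_add s uu (su_vp hs) (contDiffOn_const.mul (su_Fxs hs)) hz,
      Gm_cmul s uu _ (su_Fxs hs) hz]
  rw [H6]
  have hf2 := sq_nonneg (f z)
  have K1 := mul_le_mul_of_nonneg_left H4 (mul_nonneg hf2 (sq_nonneg τ))
  have K2 := mul_le_mul_of_nonneg_left (abs_le.1 H3).1 hf2
  have K3 : uu z * f z ^ 2 ≤ uu z ^ 2 * f z ^ 2 := by
    apply mul_le_mul_of_nonneg_right _ hf2
    nlinarith
  have K4 := mul_le_mul_of_nonneg_left K3 (sq_nonneg (c1 n))
  have K5 := mul_le_mul_of_nonneg_left K3 (show 0 ≤ c2 n by unfold c2; positivity)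
  linear_combination H1 + H2' + K1 + K2 + K4 + K5

/-- The lower bound. -/
theorem lb (hn : 3 ≤ n) (hs : TS n K ε s) (hK : 1 ≤ K) (hε : ε ≤ 1 / (96 * (n : ℝ) ^ 4))
    {τ : ℝ} (hτ : 4 * (c1 n ^ 2 + c2 n) + 1 ≤ τ) {f : VV n → ℝ} (hf : TU f) :
    τ * In (fun z => uu z * ∑ k, Ax k f z ^ 2) + 14 * τ ^ 2 * In (fun z => uu z ^ 2 * f z ^ 2) ≤
      In (fun z => Px s (-τ) f z ^ 2) := by
  have hnR : (3 : ℝ) ≤ n := by exact_mod_cast hn
  have hc2 : 0 ≤ c2 n := by unfold c2; positivity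
  have hτ0 : 0 < τ := lt_of_lt_of_le (by positivity) hτ
  refine le_trans ?_ (lb1 hs hf)
  have sf := hf.su
  have t2 : TU fun z => f z ^ 2 := hf.pow two_ne_zero
  have tA : TU fun z => uu z * ∑ k, Ax k f z ^ 2 :=
    (TU.sum _ fun k _ => (hf.ax k).pow two_ne_zero).mul_left su_uu
  have tB : TU fun z => uu z * (uu z ^ 2 - 1) * f z ^ 2 :=
    t2.mul_left (su_uu.mul ((su_uu.pow 2).sub contDiffOn_const))
  have tM : TU fun z => uu z ^ 2 * f z ^ 2 := t2.mul_left (su_uu.pow 2)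
  have tD : TU fun z => ((n + 1) * uu z ^ 2 - 1) * f z ^ 2 :=
    t2.mul_left ((contDiffOn_const.mul (su_uu.pow 2)).sub contDiffOn_const)
  have sv : SU fun z => vp s z.1 + τ ^ 2 * Fxs s z :=
    (su_vp hs).add (contDiffOn_const.mul (su_Fxs hs))
  have tg : TU (Gm s uu f) := tu_Gm_right hs su_uu hf
  have tff : TU (Gm s f f) := tu_Gm_right hs sf hf
  have tH : TU (Hf s f) :=
    ((tu_Gm_right hs sf tg).mul_left contDiffOn_const).sub (tu_Gm_right hs su_uu tff)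
  have tk : TU fun z => f z * Gm s f (L0 s uu) z := hf.mul_right (su_Gm hs sf (su_L0 hs su_uu))
  have tv : TU fun z => f z ^ 2 * Gm s uu (fun z => vp s z.1 + τ ^ 2 * Fxs s z) z :=
    (hf.pow two_ne_zero).mul_right (su_Gm hs su_uu sv)
  have uA : TU fun z => 3 / 2 * (uu z * ∑ k, Ax k f z ^ 2) := tA.mul_left contDiffOn_const
  have uB : TU fun z => 7 / 4 * τ ^ 2 * (uu z * (uu z ^ 2 - 1) * f z ^ 2) :=
    tB.mul_left contDiffOn_const
  have uM : TU fun z => (c1 n ^ 2 + c2 n) * (uu z ^ 2 * f z ^ 2) := tM.mul_left contDiffOn_const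
  have key := In_mono ((uA.add uB).sub uM) ((tH.add tk).add tv)
    fun z hz => lb_pt hn hs hK hε sf τ hz
  rw [In_sub (uA.add uB) uM, In_add uA uB, In_cmul, In_cmul, In_cmul] at key
  have g := gs hf τ
  have gM : 3 * In (fun z => uu z ^ 2 * f z ^ 2) ≤ In (fun z => ((n + 1) * uu z ^ 2 - 1) * f z ^ 2) := by
    rw [← In_cmul]
    refine In_mono (tM.mul_left contDiffOn_const) tD fun z hz => ?_
    have hu := uu_ge hz
    have h1 : 3 * uu z ^ 2 ≤ (n + 1) * uu z ^ 2 - 1 := by nlinarith [sq_nonneg (uu z)]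
    have := mul_le_mul_of_nonneg_right h1 (sq_nonneg (f z))
    linarith
  have hM0 : 0 ≤ In (fun z => uu z ^ 2 * f z ^ 2) := In_nonneg fun z _ => by positivity
  have hB0 : 0 ≤ In (fun z => uu z * (uu z ^ 2 - 1) * f z ^ 2) := In_nonneg fun z hz => by
    have hu := uu_ge hz
    have h6 : 0 ≤ uu z ^ 2 - 1 := by nlinarith
    have := uu_pos hz
    positivity
  generalize In (fun z => uu z * ∑ k, Ax k f z ^ 2) = IA at *
  generalize In (fun z => uu z * (uu z ^ 2 - 1) * f z ^ 2) = IB at *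
  generalize In (fun z => uu z ^ 2 * f z ^ 2) = IM at *
  generalize In (fun z => ((n + 1) * uu z ^ 2 - 1) * f z ^ 2) = ID at *
  generalize In (fun z => Hf s f z + f z * Gm s f (L0 s uu) z +
    f z ^ 2 * Gm s uu (fun z => vp s z.1 + τ ^ 2 * Fxs s z) z) = IK at *
  have h1 : 3 * τ * IM ≤ IA + τ ^ 2 * IB := by
    have := mul_le_mul_of_nonneg_left gM hτ0.le
    linarith
  have h2 := mul_le_mul_of_nonneg_left key (by positivity : 0 ≤ 4 * τ)
  refine le_trans ?_ h2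
  have h3 : 0 ≤ τ ^ 2 * IB := by positivity
  have h4 := mul_le_mul_of_nonneg_left h1 (by positivity : 0 ≤ 5 * τ)
  have h5 := mul_nonneg (mul_nonneg hτ0.le h3) zero_le_two
  have h6 := mul_nonneg (mul_nonneg hτ0.le hM0) (sub_nonneg.2 hτ)
  have h7 := mul_nonneg hτ0.le hM0
  linear_combination h4 + h5 + h6 + h7

end Vale.Agent.P088.R2.H961
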