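import Vale.Agent.P088.R2.H961.Top
import Vale.Agent.P088.R2.H205.Cut

/-!
# P088, row TOP: vanishing in the top degree
-/

namespace Vale.Agent.P088.R2.H961

open Vale.Agent.P088.LR Vale.Agent.P088.HY

/-- Row TOP. -/
theorem rowTOP : RowTOP := rowTOP_of_cut fun n d ρ hd hρ => H205.exists_cut n d ρ hd hρ

end Vale.Agent.P088.R2.H961
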