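import Vale.Agent.P088.R2.H961.Fac3

/-!
# P088, row TOP
-/

open MeasureTheory Set Filter
open scoped ContDiff Matrix Topology

noncomputable section

namespace Vale.Agent.P088.R2.H961

open Vale.Agent.P088.LR Vale.Agent.P088.HY

variable {n K : ℕ} {ε : ℝ} {s : MF n} {δ : ℝ} {ζ : VV n → ℝ}

/-! ## The swap of the factors -/

/-- The swap. -/
def sw (f : VV n → ℝ) (z : VV n) : ℝ := f z.swap

theorem sw_sw (f : VV n → ℝ) : sw (sw f) = f := funext fun z => by simp [sw]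

theorem mem_swap {z : VV n} : z.swap ∈ Un n ↔ z ∈ Un n := by
  unfold Un
  simp [and_comm]

theorem fderiv_sw (f : VV n → ℝ) (z v : VV n) : fderiv ℝ (sw f) z v = fderiv ℝ f z.swap v.swap := by
  have h := (ContinuousLinearEquiv.prodComm ℝ (V n) (V n)).comp_right_fderiv (f := f) (x := z)
  have e : sw f = f ∘ (ContinuousLinearEquiv.prodComm ℝ (V n) (V n)) := rfl
  rw [e, h]
  rfl

theorem By_sw (f : VV n → ℝ) (i : Fin n) (z : VV n) : By i f z = Ax i (sw f) z.swap := by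
  unfold By Ax dy dx
  rw [fderiv_sw]
  simp

theorem By_sw' (f : VV n → ℝ) (i : Fin n) : sw (By i f) = Ax i (sw f) := by
  funext z
  have := By_sw f i z.swap
  rw [Prod.swap_swap] at this
  exact this

theorem sw_uu : sw (uu : VV n → ℝ) = uu := by
  funext z
  unfold sw uu HY.sq
  simp only [Prod.fst_swap, Prod.snd_swap, Pi.sub_apply]
  have : ∑ j, (z.2 j - z.1 j) ^ 2 = ∑ j, (z.1 j - z.2 j) ^ 2 :=
    Finset.sum_congr rfl fun j _ => by ring
  rw [this]
  congr 2
  ring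

theorem sw_th : sw (th : VV n → ℝ) = th := by
  funext z
  unfold sw th
  simp only [Prod.fst_swap, Prod.snd_swap]
  rw [mul_comm]

theorem Dys_sw (s : MF n) (f : VV n → ℝ) (z : VV n) : Dys s f z = Dxs s (sw f) z.swap := by
  unfold Dys Dxs
  have e1 : ∀ i j, By i (By j f) z = Ax i (Ax j (sw f)) z.swap := fun i j => by
    rw [By_sw, By_sw']
  simp only [e1, By_sw]
  simp [sw]

theorem kay_sw (s : MF n) (z : VV n) : kay s z = kax s z.swap := by
  unfold kay kax
  rw [Dys_sw, sw_uu]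
  have : uu z = uu z.swap := by
    have := congrFun (sw_uu (n := n)) z
    exact this.symm
  rw [this]
  simp

theorem be_sw (i : Fin n) (z : VV n) : be i z = al i z.swap := by
  unfold be al
  rw [By_sw, sw_uu]

theorem Kys_sw (s : MF n) (f : VV n → ℝ) (z : VV n) : Kys s f z = Kxs s (sw f) z.swap := by
  unfold Kys Kxs
  rw [kay_sw]
  simp only [be_sw, By_sw]
  simp [sw]

theorem Fys_sw (s : MF n) (z : VV n) : Fys s z = Fxs s z.swap := by
  unfold Fys Fxs
  simp only [be_sw]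
  simp

theorem Py_sw (s : MF n) (τ : ℝ) (f : VV n → ℝ) (z : VV n) : Py s τ f z = Px s τ (sw f) z.swap := by
  unfold Py Px
  rw [Dys_sw, Kys_sw, Fys_sw]
  simp [sw]

theorem Py_sw' (s : MF n) (τ : ℝ) (f : VV n → ℝ) : sw (Py s τ f) = Px s τ (sw f) := by
  funext z
  have := Py_sw s τ f z.swap
  rw [Prod.swap_swap] at this
  exact this

theorem In_sw (f : VV n → ℝ) : In (sw f) = In f := by
  have hmp : MeasurePreserving (Prod.swap : VV n → VV n) volume volume :=
    Measure.measurePreserving_swap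
  have hemb : MeasurableEmbedding (Prod.swap : VV n → VV n) :=
    (MeasurableEquiv.prodComm (α := V n) (β := V n)).measurableEmbedding
  have h := hmp.setIntegral_preimage_emb hemb (fun z => th z * f z) (Un n)
  have e : (Prod.swap : VV n → VV n) ⁻¹' (Un n) = Un n := by
    ext z; exact mem_swap
  rw [e] at h
  unfold In
  rw [← h]
  refine setIntegral_congr_fun isOpen_Un.measurableSet fun z _ => ?_
  have : th z = th z.swap := by
    have := congrFun (sw_th (n := n)) z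
    exact this.symm
  change th z * f z.swap = th z.swap * f z.swap
  rw [this]

theorem SU.sw {f : VV n → ℝ} (hf : SU f) : SU (sw f) := by
  have h : ContDiffOn ℝ ∞ (Prod.swap : VV n → VV n) (Un n) :=
    (ContinuousLinearEquiv.prodComm ℝ (V n) (V n)).contDiff.contDiffOn
  exact ContDiffOn.comp hf h fun z hz => mem_swap.2 hz

theorem TU.sw {f : VV n → ℝ} (hf : TU f) : TU (sw f) := by
  refine tf_of (K := Prod.swap ⁻¹' tsupport f) ?_ ?_ (SU.sw hf.su) ?_
  · exact (Homeomorph.prodComm (V n) (V n)).isCompact_preimage.2 hf.cpt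
  · intro z hz
    exact mem_swap.1 (hf.2.2 hz)
  · intro z hz
    exact TU.zero (f := f) hz

theorem wu_sw : sw (wu : VV n → ℝ) = wu := by
  funext z
  have := congrFun (sw_uu (n := n)) z
  unfold sw at this
  unfold sw wu
  rw [this]

theorem psi_sw (h : sw ζ = ζ) : sw (psi ζ) = psi ζ := by
  funext z
  have h1 := congrFun h z
  have h2 := congrFun (wu_sw (n := n)) z
  unfold sw at h1 h2
  unfold sw psi
  rw [h1, h2]

/-- The localised inequality in the second factor. -/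
theorem facy (hn : 3 ≤ n) (hs : TS n K ε s) (hK : 1 ≤ K) (hε : ε ≤ 1 / (96 * (n : ℝ) ^ 4))
    (hζ : Zt δ ζ) (hζs : sw ζ = ζ) (hδ0 : 0 ≤ δ) (hδ : δ ≤ 1 / (80 * c7 n)) {τ : ℝ}
    (hτ : 5 * c7 n ≤ τ) {g : VV n → ℝ} (hg : TU g) :
    τ ^ 2 * In (fun z => ζ z ^ 8 * g z ^ 2) -
        4 * c7 n ^ 2 * (1 + τ ^ 2) * δ * In (fun z => g z ^ 2) ≤
      In (fun z => Py s τ (Py s (-τ) g) z * (psi ζ z * (psi ζ z * g z))) := by
  have h := fac hn hs hK hε hζ hδ0 hδ hτ hg.sw
  have e1 : (fun z => Px s τ (Px s (-τ) (sw g)) z * (psi ζ z * (psi ζ z * sw g z))) =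
      sw (fun z => Py s τ (Py s (-τ) g) z * (psi ζ z * (psi ζ z * g z))) := by
    funext z
    have h1 := congrFun (psi_sw hζs) z
    unfold sw at h1
    change _ = Py s τ (Py s (-τ) g) z.swap * (psi ζ z.swap * (psi ζ z.swap * g z.swap))
    rw [h1, Py_sw, Prod.swap_swap, Py_sw']
    rfl
  have e2 : (fun z => ζ z ^ 8 * sw g z ^ 2) = sw (fun z => ζ z ^ 8 * g z ^ 2) := by
    funext z
    have h1 := congrFun hζs z
    unfold sw at h1
    change ζ z ^ 8 * g z.swap ^ 2 = ζ z.swap ^ 8 * g z.swap ^ 2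
    rw [h1]
  have e3 : (fun z => sw g z ^ 2) = sw (fun z => g z ^ 2) := rfl
  rw [e1, e2, e3, In_sw, In_sw, In_sw] at h
  exact h

/-! ## Locality -/

theorem Px_congr_nhds {f g : VV n → ℝ} {z : VV n} (h : f =ᶠ[𝓝 z] g) (s : MF n) (τ : ℝ) :
    Px s τ f =ᶠ[𝓝 z] Px s τ g := by
  have h1 : ∀ᶠ w in 𝓝 z, f =ᶠ[𝓝 w] g := h.eventually_nhds
  filter_upwards [h1] with w hw
  have h2 : ∀ j, Ax j f =ᶠ[𝓝 w] Ax j g := fun j => by
    filter_upwards [hw.eventually_nhds] with v hv using Ax_congr_nhds hv j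
  have h3 : ∀ i j, Ax i (Ax j f) w = Ax i (Ax j g) w := fun i j => Ax_congr_nhds (h2 j) i
  have h4 : ∀ j, Ax j f w = Ax j g w := fun j => Ax_congr_nhds hw j
  simp only [Px, Dxs, Kxs, h3, h4, hw.eq_of_nhds]

theorem sw_nhds {f g : VV n → ℝ} {z : VV n} (h : f =ᶠ[𝓝 z] g) : sw f =ᶠ[𝓝 z.swap] sw g := by
  have hc : Tendsto (Prod.swap : VV n → VV n) (𝓝 z.swap) (𝓝 z) := by
    have := (continuous_swap (X := V n) (Y := V n)).tendsto z.swap
    rwa [Prod.swap_swap] at this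
  exact hc.eventually h

theorem Py_congr_nhds {f g : VV n → ℝ} {z : VV n} (h : f =ᶠ[𝓝 z] g) (s : MF n) (τ : ℝ) :
    Py s τ f =ᶠ[𝓝 z] Py s τ g := by
  have h1 := sw_nhds (Px_congr_nhds (sw_nhds h) s τ)
  rw [Prod.swap_swap, ← Py_sw', ← Py_sw', sw_sw, sw_sw] at h1
  exact h1

/-- Existence of cut-off functions. -/
def Cut (n : ℕ) : Prop := ∀ d ρ : ℝ, 0 < d → 0 < ρ → ∃ ζ : VV n → ℝ, TF (Un n) ζ ∧
  (∀ z, 0 ≤ ζ z ∧ ζ z ≤ 1) ∧ (∀ z, ζ z.swap = ζ z) ∧ (∀ z ∈ Un n, ∀ i, |Ax i ζ z| ≤ d) ∧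
  (∀ z ∈ Un n, ∀ i j, |Ax i (Ax j ζ) z| ≤ d) ∧
  ∀ z ∈ Un n, ρ ≤ rr z.1 → ρ ≤ rr z.2 → ζ z = 1

/-- The basic inequality for solutions. -/
theorem sol_le (hn : 3 ≤ n) (hcut : Cut n) {s₁ s₂ : MF n} (hK : 1 ≤ K)
    (hε : ε ≤ 1 / (96 * (n : ℝ) ^ 4)) (h₁ : TS n K ε s₁) (h₂ : TS n K ε s₂) {τ : ℝ}
    (hτ : 5 * c7 n ≤ τ) {g : VV n → ℝ} (hg : SU g)
    (hint : IntegrableOn (fun z => th z * g z ^ 2) (Un n))
    (heq : ∀ z ∈ Un n, Px s₁ τ (Px s₁ (-τ) g) z + Py s₂ τ (Py s₂ (-τ) g) z = 0)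
    (hδ0 : 0 < δ) (hδ : δ ≤ 1 / (80 * c7 n)) {ρ : ℝ} (hρ : 0 < ρ) :
    τ ^ 2 * ∫ z in {z : VV n | z ∈ Un n ∧ ρ < rr z.1 ∧ ρ < rr z.2}, th z * g z ^ 2 ≤
      4 * c7 n ^ 2 * (1 + τ ^ 2) * δ * ∫ z in Un n, th z * g z ^ 2 := by
  obtain ⟨ζ, hζ1, hζ2, hζ3, hζ4, hζ5, hζ6⟩ := hcut δ ρ hδ0 hρ
  have hZ : Zt δ ζ := ⟨hζ1, fun z => (hζ2 z).1, fun z => (hζ2 z).2, hζ4, hζ5⟩
  have hZs : sw ζ = ζ := funext hζ3
  -- lower bound of rr on the support
  obtain ⟨m, hm0, hm⟩ : ∃ m : ℝ, 0 < m ∧ ∀ z ∈ tsupport ζ, m ≤ rr z.1 ∧ m ≤ rr z.2 := by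
    have hK : IsCompact (tsupport ζ) := hζ1.2.1
    have hKU : tsupport ζ ⊆ Un n := hζ1.2.2
    rcases (tsupport ζ).eq_empty_or_nonempty with he | hne
    · exact ⟨1, one_pos, fun z hz => absurd hz (by rw [he]; exact notMem_empty z)⟩
    · have hcont : ContinuousOn (fun z : VV n => min (rr z.1) (rr z.2)) (tsupport ζ) := by
        have c1 : Continuous fun z : VV n => rr z.1 := by
          unfold rr
          exact ((contDiff_const.sub (cont_sq.comp contDiff_fst)).div_const 2).continuous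
        have c2 : Continuous fun z : VV n => rr z.2 := by
          unfold rr
          exact ((contDiff_const.sub (cont_sq.comp contDiff_snd)).div_const 2).continuous
        exact (c1.min c2).continuousOn
      obtain ⟨z₁, hz₁, hmin⟩ := hK.exists_isMinOn hne hcont
      refine ⟨min (rr z₁.1) (rr z₁.2), lt_min (rx_pos (hKU hz₁)) (ry_pos (hKU hz₁)), ?_⟩
      intro z hz
      have := hmin hz
      change min (rr z₁.1) (rr z₁.2) ≤ min (rr z.1) (rr z.2) at this
      exact ⟨this.trans (min_le_left _ _), this.trans (min_le_right _ _)⟩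
  obtain ⟨η, hη1, hη2, -, -, -, hη6⟩ := hcut 1 (m / 2) one_pos (by positivity)
  set g' : VV n → ℝ := fun z => η z * g z with hg'
  have tg' : TU g' := TU.mul_right hη1 hg
  have hloc : ∀ z ∈ tsupport ζ, g' =ᶠ[𝓝 z] g := by
    intro z hz
    have hzU : z ∈ Un n := hζ1.2.2 hz
    have hO : ∀ᶠ w : VV n in 𝓝 z, w ∈ Un n ∧ m / 2 < rr w.1 ∧ m / 2 < rr w.2 := by
      have c1 : Continuous fun z : VV n => rr z.1 := by
        unfold rr
        exact ((contDiff_const.sub (cont_sq.comp contDiff_fst)).div_const 2).continuous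
      have c2 : Continuous fun z : VV n => rr z.2 := by
        unfold rr
        exact ((contDiff_const.sub (cont_sq.comp contDiff_snd)).div_const 2).continuous
      have h1 : m / 2 < rr z.1 := by linarith [(hm z hz).1]
      have h2 : m / 2 < rr z.2 := by linarith [(hm z hz).2]
      filter_upwards [mem_nhds_Un hzU, c1.continuousAt.eventually (lt_mem_nhds h1),
        c2.continuousAt.eventually (lt_mem_nhds h2)] with w a b c using ⟨a, b, c⟩
    filter_upwards [hO] with w hw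
    simp only [hg']
    rw [hη6 w hw.1 hw.2.1.le hw.2.2.le, one_mul]
  have hψ0 : ∀ z, z ∉ tsupport ζ → psi ζ z = 0 := by
    intro z hz
    unfold psi
    rw [image_eq_zero_of_notMem_tsupport hz]; simp
  have hx := fac hn h₁ hK hε hZ hδ0.le hδ hτ tg'
  have hy := facy hn h₂ hK hε hZ hZs hδ0.le hδ hτ tg'
  have sp := su_psi hZ
  have tψ : TU (psi ζ) := by
    have : TU fun z => wu z * ζ z ^ 4 := (TU.pow hζ1 (by norm_num : (4 : ℕ) ≠ 0)).mul_left su_wu
    exact this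
  have hsum : In (fun z => Px s₁ τ (Px s₁ (-τ) g') z * (psi ζ z * (psi ζ z * g' z))) +
      In (fun z => Py s₂ τ (Py s₂ (-τ) g') z * (psi ζ z * (psi ζ z * g' z))) = 0 := by
    have tf : TU fun z => psi ζ z * g' z := tg'.mul_left sp
    have tff : TU fun z => psi ζ z * (psi ζ z * g' z) := tf.mul_left sp
    have t1 : TU fun z => Px s₁ τ (Px s₁ (-τ) g') z * (psi ζ z * (psi ζ z * g' z)) :=
      tff.mul_left (su_Px h₁ τ (su_Px h₁ (-τ) tg'.su))
    have t2 : TU fun z => Py s₂ τ (Py s₂ (-τ) g') z * (psi ζ z * (psi ζ z * g' z)) := by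
      have : SU (Py s₂ τ (Py s₂ (-τ) g')) := by
        have h : SU (Px s₂ τ (Px s₂ (-τ) (sw g'))) := su_Px h₂ τ (su_Px h₂ (-τ) tg'.sw.su)
        have e : Py s₂ τ (Py s₂ (-τ) g') = sw (Px s₂ τ (Px s₂ (-τ) (sw g'))) := by
          rw [← Py_sw', ← Py_sw', sw_sw]
        rw [e]
        exact SU.sw h
      exact tff.mul_left this
    rw [← In_add t1 t2, ← In_zero (n := n)]
    refine In_congr fun z hz => ?_
    by_cases hzK : z ∈ tsupport ζ
    · have e1 : Px s₁ τ (Px s₁ (-τ) g') z = Px s₁ τ (Px s₁ (-τ) g) z :=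
        (Px_congr_nhds (Px_congr_nhds (hloc z hzK) s₁ (-τ)) s₁ τ).eq_of_nhds
      have e2 : Py s₂ τ (Py s₂ (-τ) g') z = Py s₂ τ (Py s₂ (-τ) g) z :=
        (Py_congr_nhds (Py_congr_nhds (hloc z hzK) s₂ (-τ)) s₂ τ).eq_of_nhds
      rw [e1, e2, ← add_mul, heq z hz, zero_mul]
    · rw [hψ0 z hzK]; ring
  have h1 : In (fun z => g' z ^ 2) ≤ ∫ z in Un n, th z * g z ^ 2 := by
    refine setIntegral_mono_on (tu_int (tg'.pow two_ne_zero)) hint isOpen_Un.measurableSet
      fun z hz => mul_le_mul_of_nonneg_left ?_ (th_pos hz).le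
    simp only [hg', mul_pow]
    have := pow_le_one₀ (n := 2) (hη2 z).1 (hη2 z).2
    nlinarith [sq_nonneg (g z)]
  have hO : IsOpen {z : VV n | z ∈ Un n ∧ ρ < rr z.1 ∧ ρ < rr z.2} := by
    have c1 : Continuous fun z : VV n => rr z.1 := by
      unfold rr
      exact ((contDiff_const.sub (cont_sq.comp contDiff_fst)).div_const 2).continuous
    have c2 : Continuous fun z : VV n => rr z.2 := by
      unfold rr
      exact ((contDiff_const.sub (cont_sq.comp contDiff_snd)).div_const 2).continuous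
    exact isOpen_Un.inter ((isOpen_lt continuous_const c1).inter (isOpen_lt continuous_const c2))
  have h2 : ∫ z in {z : VV n | z ∈ Un n ∧ ρ < rr z.1 ∧ ρ < rr z.2}, th z * g z ^ 2 ≤
      In (fun z => ζ z ^ 8 * g' z ^ 2) := by
    have e : ∫ z in {z : VV n | z ∈ Un n ∧ ρ < rr z.1 ∧ ρ < rr z.2}, th z * g z ^ 2 =
        ∫ z in {z : VV n | z ∈ Un n ∧ ρ < rr z.1 ∧ ρ < rr z.2}, th z * (ζ z ^ 8 * g' z ^ 2) := by
      refine setIntegral_congr_fun hO.measurableSet fun z hz => ?_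
      have h3 := hζ6 z hz.1 hz.2.1.le hz.2.2.le
      have h4 : z ∈ tsupport ζ := by
        apply subset_tsupport
        rw [Function.mem_support, h3]
        exact one_ne_zero
      have h5 := (hloc z h4).eq_of_nhds
      change th z * g z ^ 2 = th z * (ζ z ^ 8 * g' z ^ 2)
      rw [h3, h5]; ring
    rw [e]
    have t1 : TU fun z => ζ z ^ 8 * g' z ^ 2 := (tg'.pow two_ne_zero).mul_left ((TU.su hζ1).pow 8)
    refine setIntegral_mono_set (tu_int t1) ?_ ?_
    · refine (ae_restrict_iff' isOpen_Un.measurableSet).2 (ae_of_all _ fun z hz => ?_)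
      have := th_pos hz
      have := (hζ2 z).1
      simp only [Pi.zero_apply]
      positivity
    · exact LE.le.eventuallyLE (show {z : VV n | z ∈ Un n ∧ ρ < rr z.1 ∧ ρ < rr z.2} ⊆ Un n from
        fun z hz => hz.1)
  have h3 : τ ^ 2 * In (fun z => ζ z ^ 8 * g' z ^ 2) ≤
      4 * c7 n ^ 2 * (1 + τ ^ 2) * δ * In (fun z => g' z ^ 2) := by linarith
  calc _ ≤ τ ^ 2 * In (fun z => ζ z ^ 8 * g' z ^ 2) := mul_le_mul_of_nonneg_left h2 (sq_nonneg _)
    _ ≤ _ := h3
    _ ≤ _ := mul_le_mul_of_nonneg_left h1 (by positivity)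

theorem rowTOP_of_cut (hcut : ∀ n, Cut n) : RowTOP := by
  intro n hn
  have hnR : (3 : ℝ) ≤ n := by exact_mod_cast hn
  have hC : 1 ≤ c7 n := by
    have k1 : 0 ≤ c1 n ^ 2 := sq_nonneg _
    have k2 : 0 ≤ c2 n := by unfold c2; positivity
    have k3 : 0 ≤ c3 n := by unfold c3; positivity
    have k4 : 0 ≤ c4 n := by unfold c4; positivity
    have k5 : 0 ≤ c5 n := by unfold c5; positivity
    have k6 : 0 ≤ c6 n := by unfold c6; positivity
    unfold c7; linarith
  have hC0 : 0 < c7 n := by linarith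
  refine ⟨1 / (96 * (n : ℝ) ^ 4), 5 * c7 n, by positivity, by positivity, ?_⟩
  intro s₁ s₂ h₁ h₂ τ hτ g hg hint heq z₀ hz₀
  have hτ0 : 0 < τ := by linarith
  -- the open set
  set ρ : ℝ := min (rr z₀.1) (rr z₀.2) / 2 with hρd
  have hρ : 0 < ρ := by
    have := lt_min (rx_pos hz₀) (ry_pos hz₀)
    positivity
  set O : Set (VV n) := {z : VV n | z ∈ Un n ∧ ρ < rr z.1 ∧ ρ < rr z.2} with hOd
  have hz₀O : z₀ ∈ O := by
    have h1 := min_le_left (rr z₀.1) (rr z₀.2)
    have h2 := min_le_right (rr z₀.1) (rr z₀.2)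
    have h3 := lt_min (rx_pos hz₀) (ry_pos hz₀)
    exact ⟨hz₀, by rw [hρd]; linarith, by rw [hρd]; linarith⟩
  have hO : IsOpen O := by
    have c1 : Continuous fun z : VV n => rr z.1 := by
      unfold rr
      exact ((contDiff_const.sub (cont_sq.comp contDiff_fst)).div_const 2).continuous
    have c2 : Continuous fun z : VV n => rr z.2 := by
      unfold rr
      exact ((contDiff_const.sub (cont_sq.comp contDiff_snd)).div_const 2).continuous
    exact isOpen_Un.inter ((isOpen_lt continuous_const c1).inter (isOpen_lt continuous_const c2))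
  have hsub : O ⊆ Un n := fun z hz => hz.1
  set X := ∫ z in O, th z * g z ^ 2 with hX
  set I := ∫ z in Un n, th z * g z ^ 2 with hI
  have hX0 : 0 ≤ X := setIntegral_nonneg hO.measurableSet fun z hz =>
    mul_nonneg (th_pos (hsub hz)).le (sq_nonneg _)
  have hI0 : 0 ≤ I := setIntegral_nonneg isOpen_Un.measurableSet fun z hz =>
    mul_nonneg (th_pos hz).le (sq_nonneg _)
  have hle : ∀ δ : ℝ, 0 < δ → δ ≤ 1 / (80 * c7 n) →
      τ ^ 2 * X ≤ 4 * c7 n ^ 2 * (1 + τ ^ 2) * δ * I := fun δ hδ0 hδ =>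
    sol_le hn (hcut n) (by norm_num) le_rfl h₁ h₂ hτ hg hint heq hδ0 hδ hρ
  have hXz : X = 0 := by
    by_contra hne
    have hXp : 0 < X := lt_of_le_of_ne hX0 (Ne.symm hne)
    set D := 4 * c7 n ^ 2 * (1 + τ ^ 2) * I with hD
    have hD0 : 0 ≤ D := by positivity
    have hδp : 0 < min (1 / (80 * c7 n)) (τ ^ 2 * X / (2 * (D + 1))) :=
      lt_min (by positivity) (by positivity)
    have h1 := hle _ hδp (min_le_left _ _)
    have h2 : 4 * c7 n ^ 2 * (1 + τ ^ 2) * min (1 / (80 * c7 n)) (τ ^ 2 * X / (2 * (D + 1))) * I ≤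
        D * (τ ^ 2 * X / (2 * (D + 1))) := by
      have := mul_le_mul_of_nonneg_left (min_le_right (1 / (80 * c7 n)) (τ ^ 2 * X / (2 * (D + 1)))) hD0
      rw [hD] at this ⊢
      linarith
    have h3 : D * (τ ^ 2 * X / (2 * (D + 1))) < τ ^ 2 * X := by
      rw [mul_div_assoc', div_lt_iff₀ (by positivity)]
      have : 0 < τ ^ 2 * X := by positivity
      nlinarith
    linarith
  have hae : (fun z => th z * g z ^ 2) =ᵐ[volume.restrict O] fun _ => 0 := by
    have := (setIntegral_eq_zero_iff_of_nonneg_ae (μ := volume) (s := O)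
      (f := fun z => th z * g z ^ 2) ?_ (hint.mono_set hsub)).1 hXz
    · exact this
    · exact (ae_restrict_iff' hO.measurableSet).2 (ae_of_all _ fun z hz =>
        mul_nonneg (th_pos (hsub hz)).le (sq_nonneg _))
  have hcont : ContinuousOn (fun z => th z * g z ^ 2) O :=
    ((su_th.mul (ContDiffOn.pow hg 2)).continuousOn).mono hsub
  have hzero := Measure.eqOn_open_of_ae_eq hae hO hcont continuousOn_const hz₀O
  simp only at hzero
  have := (th_pos hz₀).ne'
  rcases mul_eq_zero.1 hzero with h | h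
  · exact absurd h this
  · exact pow_eq_zero_iff (two_ne_zero) |>.1 h

end Vale.Agent.P088.R2.H961
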